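import Vale.Agent.P254.Base

open MeasureTheory Set Matrix

namespace Vale.Agent.P254

theorem aam_amgm {m : ℕ} (hm : 0 < m) (z : Fin m → ℝ) (hz : ∀ i, 0 ≤ z i) :
    ∏ i, z i ≤ ((∑ i, z i) / m) ^ m := by
  have hm' : (0 : ℝ) < m := by exact_mod_cast hm
  have h := Real.geom_mean_le_arith_mean_weighted Finset.univ (fun _ : Fin m => (1 / m : ℝ)) z
    (fun _ _ => by positivity) (by simp; field_simp) (fun i _ => hz i)
  rw [Real.finsetProd_rpow _ _ (fun i _ => hz i), ← Finset.mul_sum] at h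
  have h0 : 0 ≤ ∏ i, z i := Finset.prod_nonneg fun i _ => hz i
  have h2 := pow_le_pow_left₀ (Real.rpow_nonneg h0 _) h m
  rw [← Real.rpow_natCast, ← Real.rpow_mul h0, one_div_mul_cancel hm'.ne', Real.rpow_one] at h2
  rwa [div_eq_inv_mul, ← one_div]

theorem det_le_trace_pow {m : ℕ} (hm : 0 < m) {A : Matrix (Fin m) (Fin m) ℝ}
    (hA : A.PosSemidef) : A.det ≤ (A.trace / m) ^ m := by
  rw [hA.isHermitian.det_eq_prod_eigenvalues, hA.isHermitian.trace_eq_sum_eigenvalues]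
  simpa using aam_amgm hm _ hA.eigenvalues_nonneg

theorem aam_det {m : ℕ} (c : ℝ) :
    ((1 : Matrix (Fin m) (Fin m) ℝ) - c • Matrix.of fun _ _ => (1 : ℝ)).det = 1 - c * m := by
  have h := Matrix.det_one_add_replicateCol_mul_replicateRow (ι := Unit)
    (fun _ : Fin m => -c) (fun _ : Fin m => (1 : ℝ))
  have e : (1 : Matrix (Fin m) (Fin m) ℝ) - c • (Matrix.of fun _ _ => (1 : ℝ)) =
      1 + replicateCol Unit (fun _ : Fin m => -c) * replicateRow Unit (fun _ : Fin m => (1 : ℝ)) := by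
    ext i j
    simp [Matrix.mul_apply, sub_eq_add_neg]
  rw [e, h]
  simp [dotProduct]
  ring

theorem det_le_amgm {m : ℕ} (hm : 0 < m) {M : Matrix (Fin m) (Fin m) ℝ} (hM : M.PosSemidef) :
    0 ≤ M.trace - (∑ i, ∑ j, M i j) / ((m : ℝ) + 1) ∧
    M.det ≤ ((m : ℝ) + 1) * ((M.trace - (∑ i, ∑ j, M i j) / ((m : ℝ) + 1)) / m) ^ m := by
  have hm' : (0 : ℝ) < m := by exact_mod_cast hm
  obtain ⟨s, hs0, hs⟩ : ∃ s : ℝ, 0 < s ∧ s ^ 2 = (m : ℝ) + 1 :=
    ⟨Real.sqrt (m + 1), Real.sqrt_pos.2 (by positivity), Real.sq_sqrt (by positivity)⟩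
  set J : Matrix (Fin m) (Fin m) ℝ := Matrix.of fun _ _ => (1 : ℝ) with hJ
  set β : ℝ := (1 - 1 / s) / m with hβ
  set B : Matrix (Fin m) (Fin m) ℝ := 1 - β • J with hB
  have hJJ : J * J = (m : ℝ) • J := by
    ext i j
    simp [hJ, Matrix.mul_apply]
  have hBH : Bᴴ = B := by
    ext i j
    simp [hB, hJ, Matrix.one_apply, eq_comm]
  have hc : 2 * β - β ^ 2 * m = 1 / ((m : ℝ) + 1) := by
    have e : (m : ℝ) = s ^ 2 - 1 := by linarith
    have h1 : s ^ 2 - 1 ≠ 0 := by rw [← e]; exact hm'.ne'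
    rw [hβ, ← hs, e]
    field_simp
    ring
  have hBB : B * B = 1 - (1 / ((m : ℝ) + 1)) • J := by
    rw [← hc, hB]
    simp only [sub_mul, mul_sub, one_mul, mul_one, smul_mul_assoc, mul_smul_comm, hJJ, smul_smul]
    ext i j
    simp [hJ]
    ring
  have hA : (B * M * Bᴴ).PosSemidef := hM.mul_mul_conjTranspose_same B
  have htr : (B * M * Bᴴ).trace = M.trace - (∑ i, ∑ j, M i j) / ((m : ℝ) + 1) := by
    rw [hBH, Matrix.trace_mul_cycle, hBB, sub_mul, one_mul, Matrix.trace_sub, smul_mul_assoc,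
      Matrix.trace_smul, smul_eq_mul]
    have : (J * M).trace = ∑ i, ∑ j, M i j := by
      simp only [Matrix.trace, Matrix.diag, Matrix.mul_apply, hJ, Matrix.of_apply, one_mul]
      exact Finset.sum_comm
    rw [this]
    ring
  have hdet : (B * M * Bᴴ).det = M.det / ((m : ℝ) + 1) := by
    have : (B * B).det = 1 / ((m : ℝ) + 1) := by
      rw [hBB, hJ, aam_det]
      field_simp
      ring
    rw [hBH, Matrix.det_mul, Matrix.det_mul, mul_right_comm, ← Matrix.det_mul, this]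
    ring
  have h1 := det_le_trace_pow hm hA
  have h2 := hA.trace_nonneg
  rw [htr] at h1 h2
  rw [hdet, div_le_iff₀' (by positivity)] at h1
  exact ⟨h2, h1⟩

theorem num_le {m : ℕ} (hm : 0 < m) {T φ : ℝ} (h0 : 0 < φ) (hT0 : 0 ≤ T)
    (hT : T ≤ ((m : ℝ) + 2) * φ - 2) :
    (T / m) ^ m ≤ φ ^ (m + 2) ∧ (φ < 1 → (T / m) ^ m < φ ^ (m + 2)) := by
  have hm' : (0 : ℝ) < m := by exact_mod_cast hm
  have hr : (1 : ℝ) < ((m : ℝ) + 2) / m := by rw [lt_div_iff₀ hm']; linarith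
  have h1 : T / m ≤ 1 + ((m : ℝ) + 2) / m * (φ - 1) := by
    rw [div_le_iff₀ hm']
    have : (1 + ((m : ℝ) + 2) / m * (φ - 1)) * m = ((m : ℝ) + 2) * φ - 2 := by
      field_simp
      ring
    linarith
  have h2 : (φ ^ (((m : ℝ) + 2) / m)) ^ m = φ ^ (m + 2) := by
    rw [← Real.rpow_natCast, ← Real.rpow_mul h0.le, div_mul_cancel₀ _ hm'.ne', ← Real.rpow_natCast]
    push_cast
    rfl
  have h3 : 0 ≤ T / m := by positivity
  have e : 1 + (φ - 1) = φ := by ring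
  rw [← h2]
  refine ⟨pow_le_pow_left₀ h3 (h1.trans ?_) m, fun h => pow_lt_pow_left₀ (h1.trans_lt ?_) h3 hm.ne'⟩
  · simpa only [e] using one_add_mul_self_le_rpow_one_add (s := φ - 1) (by linarith) hr.le
  · simpa only [e] using
      one_add_mul_self_lt_rpow_one_add (s := φ - 1) (by linarith) (by linarith) hr

end Vale.Agent.P254
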