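import Vale.Agent.P254.AHom

open MeasureTheory Set Matrix

namespace Vale.Agent.P254

variable {m : ℕ} {C : Set (V m)}

theorem Cone0.zero_mem (hC : Cone0 C) (h : C.Nonempty) : (0 : V m) ∈ C := by
  obtain ⟨x, hx⟩ := h
  have h1 : Filter.Tendsto (fun a : ℝ => a • x) (nhdsWithin 0 (Ioi 0)) (nhds ((0 : ℝ) • x)) :=
    ((continuous_id.smul continuous_const).tendsto (0 : ℝ)).mono_left nhdsWithin_le_nhds
  rw [zero_smul] at h1
  exact hC.closed.mem_of_tendsto h1
    (Filter.mem_of_superset self_mem_nhdsWithin fun a ha => hC.smul a ha x hx)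

theorem Cone0.add_mem (hC : Cone0 C) {x y : V m} (hx : x ∈ C) (hy : y ∈ C) : x + y ∈ C := by
  have h1 := hC.conv hx hy (a := 1 / 2) (b := 1 / 2) (by norm_num) (by norm_num) (by norm_num)
  have h2 := hC.smul 2 two_pos _ h1
  rwa [smul_add, smul_smul, smul_smul, show (2 : ℝ) * (1 / 2) = 1 by norm_num, one_smul,
    one_smul] at h2

theorem ph_nonneg (C : Set (V m)) : 0 ≤ ph C :=
  E_nonneg fun x _ => indicator_nonneg (fun _ _ => zero_le_one) x

theorem Cone.ph_le_one (hC : Cone C) : ph C ≤ 1 := by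
  rw [← E_one (m := m)]
  exact E_mono ((PG.const 1).indicator hC.closed.measurableSet) (PG.const 1) fun x _ =>
    indicator_le_self' (fun _ _ => zero_le_one) x

theorem ainner_half (hC : Cone0 C) {p : V m} {ε : ℝ} (hε : 0 < ε) (hp : p ∉ C) :
    (2 * ε) ^ m / 2 ≤ volume.real (Icc (p - ε • one) (p + ε • one) \ C) := by
  have hB : volume (Icc (p - ε • one) (p + ε • one)) ≠ ⊤ := isCompact_Icc.measure_lt_top.ne
  have hD : MeasurableSet (Icc (p - ε • one) (p + ε • one) \ C) :=
    measurableSet_Icc.diff hC.closed.measurableSet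
  have hv : volume.real (Icc (p - ε • one) (p + ε • one)) = (2 * ε) ^ m := by
    rw [measureReal_def, Real.volume_Icc_pi_toReal]
    · have e : ∀ i, (p + ε • one : V m) i - (p - ε • one : V m) i = 2 * ε := fun i => by
        simp only [Pi.add_apply, Pi.sub_apply, Pi.smul_apply, one, smul_eq_mul]
        ring
      simp only [e, Finset.prod_const, Finset.card_univ, Fintype.card_fin]
    · intro i
      simp only [Pi.add_apply, Pi.sub_apply, Pi.smul_apply, one, smul_eq_mul]
      linarith
  have hs : Icc (p - ε • one) (p + ε • one) ∩ C ⊆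
      (fun x => p + p - x) ⁻¹' (Icc (p - ε • one) (p + ε • one) \ C) := by
    rintro x ⟨⟨h1, h2⟩, hx⟩
    refine ⟨⟨fun i => ?_, fun i => ?_⟩, fun h => hp ?_⟩
    · have := h2 i
      simp only [Pi.add_apply, Pi.sub_apply] at this ⊢
      linarith
    · have := h1 i
      simp only [Pi.add_apply, Pi.sub_apply] at this ⊢
      linarith
    · have h3 := hC.smul (1 / 2) (by norm_num) _ (hC.add_mem hx h)
      have e : (1 / 2 : ℝ) • (x + (p + p - x)) = p := by
        funext i
        simp only [Pi.add_apply, Pi.sub_apply, Pi.smul_apply, smul_eq_mul]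
        ring
      rwa [e] at h3
  have h1 : volume (Icc (p - ε • one) (p + ε • one) ∩ C) ≤
      volume (Icc (p - ε • one) (p + ε • one) \ C) := by
    rw [← (Measure.measurePreserving_sub_left volume (p + p)).measure_preimage
      hD.nullMeasurableSet]
    exact measure_mono hs
  have h2 : volume.real (Icc (p - ε • one) (p + ε • one) ∩ C) ≤
      volume.real (Icc (p - ε • one) (p + ε • one) \ C) :=
    ENNReal.toReal_mono (ne_top_of_le_ne_top hB (measure_mono sdiff_subset)) h1
  have h3 := measureReal_inter_add_sdiff (μ := volume) (s := Icc (p - ε • one) (p + ε • one))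
    hC.closed.measurableSet hB
  linarith

theorem ainner_miss (hC : Cone C) {z : V m} {ε : ℝ} (hε : 0 < ε) (hz : z ∈ O m) (h1 : R z = 1)
    (hp : z + ε • one ∉ C) : Real.exp (-(1 + 2 * ε * m)) * ((2 * ε) ^ m / 2) ≤ 1 - ph C := by
  have hm := hC.closed.measurableSet
  refine (mul_le_mul_of_nonneg_left (ainner_half hC.toCone0 hε hp) (Real.exp_pos _).le).trans ?_
  rw [add_sub_cancel_right]
  have hD : MeasurableSet (Icc z (z + ε • one + ε • one) \ C) := measurableSet_Icc.diff hm
  have hB : volume (Icc z (z + ε • one + ε • one) \ C) ≠ ⊤ :=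
    ne_top_of_le_ne_top isCompact_Icc.measure_lt_top.ne (measure_mono sdiff_subset)
  have e1 : 1 - ph C = E fun x => 1 - C.indicator (fun _ => (1 : ℝ)) x := by
    rw [E_sub (PG.const 1) ((PG.const 1).indicator hm), E_one, ph]
  rw [e1, mul_comm, ← smul_eq_mul, ← integral_indicator_const _ hD, E]
  refine integral_mono ((integrableOn_const hB).integrable_indicator hD)
    ((PG.const 1).sub ((PG.const 1).indicator hm)).integrable fun x => ?_
  by_cases hx : x ∈ Icc z (z + ε • one + ε • one) \ C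
  · have hO : x ∈ O m := fun i => (hz i).trans (hx.1.1 i)
    have hR : R x ≤ R (z + ε • one + ε • one) := Finset.sum_le_sum fun i _ => hx.1.2 i
    rw [R_add, R_add, R_smul, R_one, h1] at hR
    beta_reduce
    rw [indicator_of_mem hx, indicator_of_notMem hx.2, wt_of_mem hO, sub_zero, mul_one]
    exact Real.exp_le_exp.2 (by linarith)
  · beta_reduce
    rw [indicator_of_notMem hx]
    exact mul_nonneg (wt_nonneg x)
      (sub_nonneg.2 (indicator_le_self' (f := fun _ => (1 : ℝ)) (fun _ _ => zero_le_one) x))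

theorem ainner_of (hC : Cone C) {ε : ℝ} (hε : 0 < ε) (h0 : 0 < ph C)
    (h : 1 - ph C < Real.exp (-(1 + 2 * ε * m)) * ((2 * ε) ^ m / 2)) : Inner ε C := by
  intro z hz
  rcases (R_nonneg hz).eq_or_lt with h1 | h1
  · have hz0 : z = 0 := funext fun i => le_antisymm ((le_R hz i).trans h1.ge) (hz i)
    have hne : C.Nonempty := by
      rw [nonempty_iff_ne_empty]
      rintro rfl
      simp [ph, E] at h0
    rw [← h1, mul_zero, zero_smul, add_zero, hz0]
    exact hC.toCone0.zero_mem hne
  · have hw : (R z)⁻¹ • z ∈ O m := (cone_O m).smul _ (inv_pos.2 h1) z hz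
    have hR : R ((R z)⁻¹ • z) = 1 := by rw [R_smul, inv_mul_cancel₀ h1.ne']
    have h2 : (R z)⁻¹ • z + ε • one ∈ C := by
      by_contra hn
      exact absurd (ainner_miss hC hε hw hR hn) (not_le.2 h)
    have h3 := hC.smul _ h1 _ h2
    rwa [smul_add, smul_smul, smul_smul, mul_inv_cancel₀ h1.ne', one_smul, mul_comm] at h3

theorem exists_inner (m : ℕ) {ε : ℝ} (hε : 0 < ε) : ∃ η : ℝ, 0 < η ∧ η < 1 ∧
    ∀ C : Set (V m), Cone C → 1 - η ≤ ph C → Inner ε C := by
  have hp : 0 < Real.exp (-(1 + 2 * ε * m)) * ((2 * ε) ^ m / 2) := by positivity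
  refine ⟨min (1 / 2) (Real.exp (-(1 + 2 * ε * m)) * ((2 * ε) ^ m / 2) / 2),
    lt_min (by norm_num) (by positivity), (min_le_left _ _).trans_lt (by norm_num),
    fun C hC h => ?_⟩
  have h1 := min_le_left (1 / 2 : ℝ) (Real.exp (-(1 + 2 * ε * m)) * ((2 * ε) ^ m / 2) / 2)
  have h2 := min_le_right (1 / 2 : ℝ) (Real.exp (-(1 + 2 * ε * m)) * ((2 * ε) ^ m / 2) / 2)
  exact ainner_of hC hε (by linarith) (by linarith)

theorem Cone.eq_O (hC : Cone C) (h : 1 ≤ ph C) : C = O m := by
  refine hC.sub.antisymm fun z hz => ?_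
  have h1 : Filter.Tendsto (fun a : ℝ => z + (a * R z) • (one : V m)) (nhdsWithin 0 (Ioi 0))
      (nhds (z + ((0 : ℝ) * R z) • one)) :=
    (Continuous.tendsto (by fun_prop) (0 : ℝ)).mono_left nhdsWithin_le_nhds
  rw [zero_mul, zero_smul, add_zero] at h1
  refine hC.closed.mem_of_tendsto h1
    (Filter.mem_of_superset self_mem_nhdsWithin fun a ha => ?_)
  obtain ⟨η, h0, -, h2⟩ := exists_inner m (ε := a) ha
  exact h2 C hC (by linarith) z hz

end Vale.Agent.P254
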