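import Vale.Agent.P254.ALin
import Vale.Agent.P254.AInner

open MeasureTheory Set Matrix

namespace Vale.Agent.P254

variable {m : ℕ} {C : Set (V m)}

theorem acen_det (lam : V m) (j : Fin m) (s : ℝ) (hs : ∀ a, 0 < 1 - s * lam a) :
    (Matrix.of fun a b : Fin m => (if a = b then 1 - s * lam a else 0) +
      (if a = j then s * lam b else 0)).det = ∏ i ∈ Finset.univ.erase j, (1 - s * lam i) := by
  have e : (Matrix.of fun a b : Fin m => (if a = b then 1 - s * lam a else 0) +
      (if a = j then s * lam b else 0)) =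
      (Matrix.diagonal fun i => if i = j then 1 else 1 - s * lam i).updateRow j
        (∑ k, (if k = j then 1 else s * lam k / (1 - s * lam k)) •
          (Matrix.diagonal fun i => if i = j then (1 : ℝ) else 1 - s * lam i) k) := by
    ext a b
    rw [Matrix.of_apply, Matrix.updateRow_apply]
    by_cases ha : a = j
    · subst ha
      rw [if_pos rfl, if_pos rfl, Finset.sum_apply, Finset.sum_eq_single b]
      · by_cases hb : b = a
        · subst hb
          simp
        · have := (hs b).ne'
          rw [if_neg (Ne.symm hb), Pi.smul_apply, Matrix.diagonal_apply_eq, if_neg hb, if_neg hb,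
            smul_eq_mul, div_mul_cancel₀ _ this, zero_add]
      · intro k _ hk
        rw [Pi.smul_apply, Matrix.diagonal_apply_ne _ hk, smul_zero]
      · intro h
        exact absurd (Finset.mem_univ b) h
    · rw [if_neg ha, if_neg ha, add_zero, Matrix.diagonal_apply, if_neg ha]
  rw [e, Matrix.det_updateRow_sum, if_pos rfl, one_smul, Matrix.det_diagonal,
    ← Finset.mul_prod_erase _ _ (Finset.mem_univ j), if_pos rfl, one_mul]
  exact Finset.prod_congr rfl fun i hi => if_neg (Finset.ne_of_mem_erase hi)

theorem acen_small (lam : V m) (j : Fin m) (h : ∑ i ∈ Finset.univ.erase j, lam i < 0) :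
    ∃ s : ℝ, 0 < s ∧ (∀ a, 0 < 1 - s * lam a) ∧
      1 < ∏ i ∈ Finset.univ.erase j, (1 - s * lam i) := by
  have h1 : ∀ i ∈ Finset.univ.erase j, HasDerivAt (fun s : ℝ => 1 - s * lam i) (-lam i) 0 :=
    fun i _ => by simpa using ((hasDerivAt_id (0 : ℝ)).mul_const (lam i)).const_sub 1
  have h2 := HasDerivAt.fun_finsetProd h1
  have h3 := h2.tendsto_slope_zero_right
  have h4 : (0 : ℝ) < ∑ i ∈ Finset.univ.erase j,
      (∏ k ∈ (Finset.univ.erase j).erase i, (1 - 0 * lam k)) • -lam i := by
    simp only [zero_mul, sub_zero, Finset.prod_const_one, one_smul, Finset.sum_neg_distrib]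
    linarith
  have h5 := h3.eventually (lt_mem_nhds h4)
  have h6 : ∀ᶠ s in nhdsWithin (0 : ℝ) (Ioi 0), ∀ a, 0 < 1 - s * lam a := by
    refine Filter.eventually_all.2 fun a => nhdsWithin_le_nhds ?_
    have hc : Continuous fun s : ℝ => 1 - s * lam a := by fun_prop
    exact hc.continuousAt.eventually (lt_mem_nhds (by simp))
  obtain ⟨s, ⟨a1, a2⟩, a3⟩ := ((h5.and h6).and self_mem_nhdsWithin).exists
  have a4 : 0 < s := a3
  refine ⟨s, a4, a2, ?_⟩
  simp only [zero_add, zero_mul, sub_zero, Finset.prod_const_one, smul_eq_mul] at a1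
  have := (mul_pos_iff_of_pos_left (inv_pos.2 a4)).1 a1
  linarith

/-- a cone in optimal position contains the centroid directions of the facets -/
theorem cen_mem (hC : Cone C) (hne : C.Nonempty)
    (h : ∀ G : Matrix (Fin m) (Fin m) ℝ, CS G → im G C ⊆ O m → G.det ≤ 1) (j : Fin m) :
    cen j ∈ C := by
  by_contra hn
  obtain ⟨f, u, h1, h2⟩ := geometric_hahn_banach_point_closed hC.conv hC.closed hn
  have hu : u < 0 := by simpa using h2 0 (hC.toCone0.zero_mem hne)
  have hf : ∀ x ∈ C, 0 ≤ f x := by
    intro x hx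
    by_contra hx0
    have hx1 : f x < 0 := not_le.1 hx0
    have := h2 _ (hC.smul (u / f x) (div_pos_of_neg_of_neg hu hx1) x hx)
    rw [map_smul, smul_eq_mul, div_mul_cancel₀ _ hx1.ne] at this
    exact lt_irrefl _ this
  have hx : ∀ x : V m, f x = ∑ i, f (Pi.single i 1) * x i := by
    intro x
    conv_lhs => rw [pi_eq_sum_univ' x]
    rw [map_sum]
    exact Finset.sum_congr rfl fun i _ => by rw [map_smul, smul_eq_mul, mul_comm]
  have hs : ∑ i ∈ Finset.univ.erase j, f (Pi.single i 1) < 0 := by
    have e := hx (cen j)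
    rw [← Finset.add_sum_erase _ _ (Finset.mem_univ j)] at e
    have e1 : cen j j = 0 := if_pos rfl
    have e2 : ∑ i ∈ Finset.univ.erase j, f (Pi.single i 1) * cen j i =
        ∑ i ∈ Finset.univ.erase j, f (Pi.single i 1) :=
      Finset.sum_congr rfl fun i hi => by
        have : cen j i = 1 := if_neg (Finset.ne_of_mem_erase hi)
        rw [this, mul_one]
    rw [e1, e2] at e
    linarith
  obtain ⟨s, s0, s1, s2⟩ := acen_small (fun i => f (Pi.single i 1)) j hs
  have hd := acen_det (fun i => f (Pi.single i 1)) j s s1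
  refine absurd (hd ▸ h _ ?_ ?_) (not_le.2 s2)
  · intro b
    simp only [Matrix.of_apply, Finset.sum_add_distrib, Finset.sum_ite_eq', Finset.mem_univ,
      if_true]
    ring
  · rintro _ ⟨x, hxC, rfl⟩ a
    have e : (Matrix.of (fun a b : Fin m => (if a = b then 1 - s * f (Pi.single a 1) else 0) +
        (if a = j then s * f (Pi.single b 1) else 0)) *ᵥ x) a =
        (1 - s * f (Pi.single a 1)) * x a + if a = j then s * f x else 0 := by
      simp only [Matrix.mulVec, dotProduct, Matrix.of_apply, add_mul, Finset.sum_add_distrib,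
        ite_mul, zero_mul, Finset.sum_ite_eq, Finset.mem_univ, if_true]
      by_cases ha : a = j
      · simp only [if_pos ha]
        rw [hx x, Finset.mul_sum]
        simp only [mul_assoc]
      · simp only [if_neg ha, Finset.sum_const_zero]
    have a1 := mul_nonneg (s1 a).le (hC.sub hxC a)
    have a2 := mul_nonneg s0.le (hf x hxC)
    show 0 ≤ (Matrix.of (fun a b : Fin m => (if a = b then 1 - s * f (Pi.single a 1) else 0) +
        (if a = j then s * f (Pi.single b 1) else 0)) *ᵥ x) a
    rw [e]
    split_ifs <;> linarith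

end Vale.Agent.P254
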