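import Vale.Agent.P254.ACen

open MeasureTheory Set Matrix

namespace Vale.Agent.P254

variable {m : ℕ} {C : Set (V m)}

theorem aklee_le {x : V m} (hx : x ∈ O m) (i : Fin m) : x i ≤ R x :=
  Finset.single_le_sum (f := x) (fun j _ => hx j) (Finset.mem_univ i)

theorem aklee_bd {ε : ℝ} (hε : 0 < ε) (hi : Inner ε C) {G : Matrix (Fin m) (Fin m) ℝ} (h : CS G)
    (hs : im G C ⊆ O m) (i j : Fin m) : G i j ∈ Icc (-(ε * m)) (1 + ε * m) := by
  have a1 := hs ⟨_, hi one (fun _ => zero_le_one), rfl⟩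
  have a2 := hs ⟨_, hi (Pi.single j 1) (fun k => by
    by_cases e : k = j <;> simp [e]), rfl⟩
  have b1 := aklee_le a1 i
  have b2 := aklee_le a2 i
  have c1 := a1 i
  have c2 := a2 i
  simp only [h.R_mulVec] at b1 b2
  simp only [R, one, mulVec, dotProduct, Pi.add_apply, Pi.smul_apply, smul_eq_mul, mul_one,
    Finset.sum_const, Finset.card_univ, Fintype.card_fin, nsmul_eq_mul,
    Finset.mem_univ, if_true, mul_add, Finset.sum_add_distrib, ← Finset.sum_mul, Pi.single_apply,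
    mul_ite, mul_zero, Finset.sum_ite_eq'] at b1 b2 c1 c2
  have hm : (0 : ℝ) ≤ ε * m := by positivity
  have d1 : 0 ≤ ∑ k, G i k := nonneg_of_mul_nonneg_left (b := 1 + ε * m) (by linarith) (by linarith)
  have d2 : ∑ k, G i k ≤ m := le_of_mul_le_mul_right (a := 1 + ε * m) (by linarith) (by linarith)
  constructor <;> nlinarith

/-- a determinant maximiser exists -/
theorem exists_max (hC : Cone C) {ε : ℝ} (hε : 0 < ε) (hi : Inner ε C) :
    ∃ G : Matrix (Fin m) (Fin m) ℝ, CS G ∧ im G C ⊆ O m ∧ 1 ≤ G.det ∧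
      ∀ G' : Matrix (Fin m) (Fin m) ℝ, CS G' → im G' C ⊆ O m → G'.det ≤ G.det := by
  let S : Set (Matrix (Fin m) (Fin m) ℝ) := {G | CS G ∧ im G C ⊆ O m}
  have h1 : (1 : Matrix (Fin m) (Fin m) ℝ) ∈ S := ⟨cs_one, by rw [im_one]; exact hC.sub⟩
  have h2 : IsClosed S := by
    have e : S = (⋂ j, {G : Matrix (Fin m) (Fin m) ℝ | ∑ i, G i j = 1}) ∩
        ⋂ x ∈ C, ⋂ i, {G : Matrix (Fin m) (Fin m) ℝ | 0 ≤ ∑ k, G i k * x k} := by
      ext G
      simp only [S, CS, im, O, mem_ofPred_eq, mem_inter_iff, mem_iInter, image_subset_iff]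
      rfl
    rw [e]
    exact (isClosed_iInter fun j => isClosed_eq (by fun_prop) continuous_const).inter
      (isClosed_biInter fun x _ => isClosed_iInter fun i => isClosed_le continuous_const (by fun_prop))
  have h3 : IsCompact S :=
    (isCompact_univ_pi fun _ : Fin m => isCompact_univ_pi fun _ : Fin m =>
      isCompact_Icc (a := -(ε * m)) (b := 1 + ε * m)).of_isClosed_subset h2
      fun G hG i _ j _ => aklee_bd hε hi hG.1 hG.2 i j
  obtain ⟨G, hG, h4⟩ := h3.exists_isMaxOn ⟨1, h1⟩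
    (Continuous.matrix_det continuous_id).continuousOn
  exact ⟨G, hG.1, hG.2, by simpa using h4 h1, fun G' a b => h4 ⟨a, b⟩⟩

theorem exists_pos (hC : Cone C) {ε : ℝ} (hε : 0 < ε) (hi : Inner ε C) :
    ∃ G : Matrix (Fin m) (Fin m) ℝ, CS G ∧ im G C ⊆ O m ∧ 1 ≤ G.det ∧
      ∀ j, cen j ∈ im G C := by
  obtain ⟨G, h1, h2, h3, h4⟩ := exists_max hC hε hi
  have h0 : 0 < G.det := by linarith
  refine ⟨G, h1, h2, h3, cen_mem ⟨hC.toCone0.im h0.ne', h2⟩
    ⟨_, _, hi 0 fun _ => le_rfl, rfl⟩ fun G' a b => ?_⟩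
  have h5 := h4 (G' * G) (a.mul h1) (by rwa [← im_im])
  rw [det_mul] at h5
  exact le_of_mul_le_mul_right (by linarith) h0

end Vale.Agent.P254
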