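import Vale.Agent.P254.AErr
import Vale.Agent.P254.AAm
import Vale.Agent.P254.AKlee

open MeasureTheory Set Matrix

namespace Vale.Agent.P254

theorem acore_pg {m : ℕ} {C : Set (V m)} (hC : MeasurableSet C) (i j : Fin m) :
    PG (C.indicator fun x : V m => x i * x j) :=
  ((PG.coord i).mul (PG.coord j)).indicator hC

theorem acore_quad {m : ℕ} {C : Set (V m)} (hC : MeasurableSet C) (v : Fin m → ℝ) :
    ∑ i, ∑ j, v i * MM C i j * v j = E (C.indicator fun x : V m => (∑ i, v i * x i) ^ 2) := by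
  have h1 : (C.indicator fun x : V m => (∑ i, v i * x i) ^ 2) =
      fun x => ∑ i, ∑ j, (v i * v j) * C.indicator (fun x : V m => x i * x j) x := by
    funext x
    by_cases hx : x ∈ C
    · simp only [indicator_of_mem hx]
      rw [sq, Finset.sum_mul_sum]
      refine Finset.sum_congr rfl fun i _ => Finset.sum_congr rfl fun j _ => ?_
      ring
    · simp only [indicator_of_notMem hx, mul_zero, Finset.sum_const_zero]
  rw [h1, E_sum _ fun i _ => PG.sum _ fun j _ => (PG.const (v i * v j)).mul (acore_pg hC i j)]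
  refine Finset.sum_congr rfl fun i _ => ?_
  rw [E_sum _ fun j _ => (PG.const (v i * v j)).mul (acore_pg hC i j)]
  refine Finset.sum_congr rfl fun j _ => ?_
  rw [E_mul_left]
  unfold MM
  ring

theorem MM_psd {m : ℕ} {C : Set (V m)} (hC : MeasurableSet C) : (MM C).PosSemidef := by
  refine Matrix.PosSemidef.of_dotProduct_mulVec_nonneg ?_ ?_
  · refine Matrix.IsHermitian.ext fun i j => ?_
    rw [star_trivial]
    unfold MM
    have : (fun x : V m => x j * x i) = fun x : V m => x i * x j := funext fun x => mul_comm _ _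
    rw [this]
  · intro v
    have h1 : star v ⬝ᵥ (MM C *ᵥ v) = ∑ i, ∑ j, v i * MM C i j * v j := by
      rw [star_trivial]
      unfold dotProduct Matrix.mulVec dotProduct
      refine Finset.sum_congr rfl fun i _ => ?_
      rw [Finset.mul_sum]
      refine Finset.sum_congr rfl fun j _ => ?_
      ring
    rw [h1, acore_quad hC]
    exact E_nonneg fun x _ => indicator_nonneg (fun y _ => sq_nonneg _) x

theorem acore_smul_iff {m : ℕ} {C : Set (V m)} (hC : Cone C) {a : ℝ} (ha : 0 < a) (x : V m) :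
    a • x ∈ C ↔ x ∈ C := by
  refine ⟨fun h => ?_, hC.smul a ha x⟩
  have h1 := hC.smul a⁻¹ (inv_pos.2 ha) _ h
  rwa [smul_smul, inv_mul_cancel₀ ha.ne', one_smul] at h1

theorem acore_R1 {m : ℕ} {C : Set (V m)} (hC : Cone C) :
    E (C.indicator (R : V m → ℝ)) = (m : ℝ) * ph C := by
  have hm := hC.closed.measurableSet
  have h1 := E_hom (f := C.indicator fun _ : V m => (1 : ℝ)) ((PG.const 1).indicator hm)
    (fun x _ => indicator_nonneg (fun y _ => zero_le_one) x) (d := 0) (fun a ha x => by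
      by_cases hx : x ∈ C
      · rw [indicator_of_mem hx, indicator_of_mem ((acore_smul_iff hC ha x).2 hx), pow_zero,
          one_mul]
      · rw [indicator_of_notMem hx,
          indicator_of_notMem (fun h => hx ((acore_smul_iff hC ha x).1 h)), mul_zero])
  have h2 : (fun x => C.indicator (fun _ : V m => (1 : ℝ)) x * R x) = C.indicator R := by
    funext x
    by_cases hx : x ∈ C
    · rw [indicator_of_mem hx, indicator_of_mem hx, one_mul]
    · rw [indicator_of_notMem hx, indicator_of_notMem hx, zero_mul]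
  rw [h2] at h1
  rw [h1, Nat.cast_zero, add_zero]
  rfl

theorem acore_R2 {m : ℕ} {C : Set (V m)} (hC : Cone C) :
    ∑ i, ∑ j, MM C i j = ((m : ℝ) + 1) * ((m : ℝ) * ph C) := by
  have hm := hC.closed.measurableSet
  have h1 := E_hom (f := C.indicator (R : V m → ℝ)) (PG.R.indicator hm)
    (fun x hx => by
      by_cases hxC : x ∈ C
      · rw [indicator_of_mem hxC]; exact R_nonneg hx
      · rw [indicator_of_notMem hxC]) (d := 1) (fun a ha x => by
      by_cases hx : x ∈ C
      · rw [indicator_of_mem hx, indicator_of_mem ((acore_smul_iff hC ha x).2 hx), pow_one,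
          R_smul]
      · rw [indicator_of_notMem hx,
          indicator_of_notMem (fun h => hx ((acore_smul_iff hC ha x).1 h)), mul_zero])
  have h2 : (fun x => C.indicator (R : V m → ℝ) x * R x) =
      C.indicator fun x : V m => (∑ i, (1 : ℝ) * x i) ^ 2 := by
    funext x
    by_cases hx : x ∈ C
    · rw [indicator_of_mem hx, indicator_of_mem hx, sq]
      simp only [one_mul]
      rfl
    · rw [indicator_of_notMem hx, indicator_of_notMem hx, zero_mul]
  rw [h2, ← acore_quad hm (fun _ => 1), acore_R1 hC, Nat.cast_one] at h1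
  rw [← h1]
  simp only [one_mul, mul_one]

theorem acore_trace {m : ℕ} {C : Set (V m)} (hC : Cone C) :
    E (C.indicator fun x => SL x - 2) = (MM C).trace - (2 * (m : ℝ) + 2) * ph C := by
  have hm := hC.closed.measurableSet
  have h1 : (C.indicator fun x : V m => SL x - 2) = fun x =>
      ((∑ i, C.indicator (fun x : V m => x i * x i) x) - 4 * C.indicator (R : V m → ℝ) x) +
        (2 * (m : ℝ) - 2) * C.indicator (fun _ : V m => (1 : ℝ)) x := by
    funext x
    by_cases hx : x ∈ C
    · simp only [indicator_of_mem hx]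
      unfold SL ell R
      rw [Finset.sum_add_distrib, Finset.sum_sub_distrib, Finset.sum_const, Finset.card_univ,
        Fintype.card_fin, nsmul_eq_mul, ← Finset.mul_sum]
      simp only [sq]
      ring
    · simp only [indicator_of_notMem hx, mul_zero, Finset.sum_const_zero, sub_zero, add_zero]
  have p1 : PG fun x => ∑ i, C.indicator (fun x : V m => x i * x i) x :=
    PG.sum _ fun i _ => acore_pg hm i i
  have p2 : PG fun x => 4 * C.indicator (R : V m → ℝ) x := (PG.const 4).mul (PG.R.indicator hm)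
  have p3 : PG fun x => (2 * (m : ℝ) - 2) * C.indicator (fun _ : V m => (1 : ℝ)) x :=
    (PG.const _).mul ((PG.const 1).indicator hm)
  rw [h1, E_add (p1.sub p2) p3, E_sub p1 p2, E_mul_left, E_mul_left,
    E_sum _ fun i _ => acore_pg hm i i, acore_R1 hC]
  have h2 : (MM C).trace = ∑ i, E (C.indicator fun x : V m => x i * x i) := rfl
  have h3 : E (C.indicator fun _ : V m => (1 : ℝ)) = ph C := rfl
  rw [h2, h3]
  ring

/-- the estimate for a cone in optimal position -/
theorem det_le_of_key {k : ℕ} {C : Set (V (k + 1))} (hC : Cone C) (h0 : 0 < ph C)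
    (h : E (C.indicator fun x => SL x - 2) ≤ -2) :
    (MM C).det ≤ ((k : ℝ) + 2) * ph C ^ (k + 3) ∧
      (ph C < 1 → (MM C).det < ((k : ℝ) + 2) * ph C ^ (k + 3)) := by
  obtain ⟨hT0, hd⟩ := det_le_amgm (Nat.succ_pos k) (MM_psd hC.closed.measurableSet)
  rw [acore_trace hC] at h
  have hm1 : (((k + 1 : ℕ) : ℝ) + 1) ≠ 0 := by positivity
  rw [acore_R2 hC, mul_div_cancel_left₀ _ hm1] at hT0 hd
  have hT : (MM C).trace - ((k + 1 : ℕ) : ℝ) * ph C ≤ (((k + 1 : ℕ) : ℝ) + 2) * ph C - 2 := by
    linarith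
  obtain ⟨h1, h2⟩ := num_le (Nat.succ_pos k) h0 hT0 hT
  have hk : (((k + 1 : ℕ) : ℝ) + 1) = (k : ℝ) + 2 := by
    rw [Nat.cast_add, Nat.cast_one]; ring
  have hk0 : (0 : ℝ) < (k : ℝ) + 2 := by positivity
  rw [hk] at hd
  exact ⟨hd.trans (mul_le_mul_of_nonneg_left h1 hk0.le),
    fun hlt => hd.trans_lt (mul_lt_mul_of_pos_left (h2 hlt) hk0)⟩

theorem core (k : ℕ) : ∃ η : ℝ, 0 < η ∧ η < 1 ∧ ∀ C : Set (V (k + 1)), Cone C → 1 - η ≤ ph C →
    (MM C).det ≤ ((k : ℝ) + 2) * ph C ^ (k + 3) ∧
      ((MM C).det = ((k : ℝ) + 2) * ph C ^ (k + 3) →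
        ∃ G : Matrix (Fin (k + 1)) (Fin (k + 1)) ℝ, CS G ∧ G.det ≠ 0 ∧ C = im G (O (k + 1))) := by
  obtain ⟨ε, hε, hkey⟩ := key k
  obtain ⟨η, hη0, hη1, hin⟩ := exists_inner (k + 1) hε
  refine ⟨η, hη0, hη1, fun C hC hph => ?_⟩
  obtain ⟨G, hcs, hsub, hdet, hcen⟩ := exists_pos hC hε (hin C hC hph)
  have hG0 : 0 < G.det := zero_lt_one.trans_le hdet
  have hG : G.det ≠ 0 := hG0.ne'
  have hC' : Cone (im G C) := ⟨hC.toCone0.im hG, hsub⟩
  have hp : ph (im G C) = G.det * ph C := by rw [ph_im hC hG hcs hsub, abs_of_pos hG0]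
  have hd : (MM (im G C)).det = G.det ^ (k + 3) * (MM C).det := by
    rw [det_MM_im hC hG hcs hsub, abs_of_pos hG0]
  have hph0 : 0 < ph C := by linarith
  have hge : ph C ≤ ph (im G C) := by
    rw [hp]
    exact le_mul_of_one_le_left hph0.le hdet
  obtain ⟨h1, h2⟩ := det_le_of_key hC' (hph0.trans_le hge)
    (hkey _ hC' (hin _ hC' (hph.trans hge)) hcen)
  have hpw : 0 < G.det ^ (k + 3) := pow_pos hG0 _
  have he : ((k : ℝ) + 2) * ph (im G C) ^ (k + 3) =
      G.det ^ (k + 3) * (((k : ℝ) + 2) * ph C ^ (k + 3)) := by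
    rw [hp, mul_pow]; ring
  rw [he, hd] at h1 h2
  refine ⟨le_of_mul_le_mul_left h1 hpw, fun heq => ?_⟩
  have h3 : 1 ≤ ph (im G C) := by
    by_contra hlt
    have h4 := h2 (not_le.1 hlt)
    rw [heq] at h4
    exact lt_irrefl _ h4
  refine ⟨G⁻¹, hcs.inv hG, ?_, ?_⟩
  · rw [Matrix.det_nonsing_inv, Ring.inverse_eq_inv']
    exact inv_ne_zero hG
  · rw [← hC'.eq_O h3, im_im, Matrix.nonsing_inv_mul G (Ne.isUnit hG), im_one]

end Vale.Agent.P254
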