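import Vale.Agent.P254.AFub

open MeasureTheory Set Matrix

namespace Vale.Agent.P254

variable {k : ℕ}

/-- point with minimal coordinate `t` in position `j` -/
def sh (j : Fin (k + 1)) (t : ℝ) (z : V k) : V (k + 1) := j.insertNth t (fun i => z i + t)

theorem sh_eq (j : Fin (k + 1)) (t : ℝ) (z : V k) :
    sh j t z = (j.insertNth (0 : ℝ) z : V (k + 1)) + t • one := by
  funext i
  refine j.succAboveCases ?_ (fun i => ?_) i <;> simp [sh, one]

theorem SL_sh (j : Fin (k + 1)) (t : ℝ) (z : V k) :
    SL (sh j t z) = ell t + ∑ i, ell (z i + t) := by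
  rw [SL, Fin.sum_univ_succAbove _ j]
  simp [sh]

/-- the points whose smallest coordinate is in position `j` -/
def adec_A (j : Fin (k + 1)) : Set (V (k + 1)) := {x | ∀ i, x j ≤ x i}

theorem adec_meas (j : Fin (k + 1)) : MeasurableSet (adec_A j) := by
  rw [adec_A, ofPred_forall]
  exact MeasurableSet.iInter fun i => measurableSet_le (by fun_prop) (by fun_prop)

theorem adec_ne {i j : Fin (k + 1)} (h : i ≠ j) : ∀ᵐ x : V (k + 1), x i ≠ x j := by
  have h1 := Measure.addHaar_submodule (volume : Measure (V (k + 1)))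
    (LinearMap.eqLocus (LinearMap.proj (R := ℝ) (φ := fun _ => ℝ) i) (LinearMap.proj j)) fun e => by
      have h2 : (Pi.single i 1 : V (k + 1)) ∈
          LinearMap.eqLocus (LinearMap.proj (R := ℝ) (φ := fun _ => ℝ) i) (LinearMap.proj j) :=
        e ▸ Submodule.mem_top
      simp [LinearMap.mem_eqLocus, h.symm] at h2
  exact measure_eq_zero_iff_ae_notMem.1 h1

theorem adec_sum (g : V (k + 1) → ℝ) :
    ∀ᵐ x : V (k + 1), g x = ∑ j, (adec_A j).indicator g x := by
  have h : ∀ᵐ x : V (k + 1), ∀ i j, i ≠ j → x i ≠ x j :=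
    ae_all_iff.2 fun i => ae_all_iff.2 fun j => by
      by_cases e : i = j
      · exact Filter.Eventually.of_forall fun _ e' => absurd e e'
      · exact (adec_ne e).mono fun _ hx _ => hx
  filter_upwards [h] with x hx
  obtain ⟨j, hj⟩ := Finite.exists_min x
  rw [Finset.sum_eq_single j (fun i _ hi => indicator_of_notMem
    (fun e : x ∈ adec_A i => hx i j hi (le_antisymm (e j) (hj i))) g) (by simp),
    indicator_of_mem (show x ∈ adec_A j from hj)]

theorem adec_pt (j : Fin (k + 1)) (f : V (k + 1) → ℝ) (t : ℝ) (z : V k) :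
    (adec_A j).indicator (fun x => wt x * f x) (sh j t z) = (Ici (0 : ℝ)).indicator
      (fun t => wt z * (Real.exp (-(((k : ℝ) + 1) * t)) * f (sh j t z))) t := by
  have hA : sh j t z ∈ adec_A j ↔ z ∈ O k := by
    simp [adec_A, O, Fin.forall_iff_succAbove j, sh]
  have hO : sh j t z ∈ O (k + 1) ↔ 0 ≤ t ∧ ∀ i, 0 ≤ z i + t := by
    simp [O, Fin.forall_iff_succAbove j, sh]
  have hR : R (sh j t z) = R z + ((k : ℝ) + 1) * t := by
    rw [R, Fin.sum_univ_succAbove _ j]
    simp [sh, R, Finset.sum_add_distrib]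
    ring
  by_cases hz : z ∈ O k
  · rw [indicator_of_mem (hA.2 hz)]
    by_cases ht : 0 ≤ t
    · rw [indicator_of_mem (mem_Ici.2 ht), wt_of_mem hz,
        wt_of_mem (hO.2 ⟨ht, fun i => add_nonneg (hz i) ht⟩), hR, neg_add, Real.exp_add, mul_assoc]
    · rw [indicator_of_notMem (mt mem_Ici.1 ht), wt_of_not_mem fun e => ht (hO.1 e).1, zero_mul]
  · rw [indicator_of_notMem (mt hA.1 hz), wt_of_not_mem hz]
    simp

theorem adec_int (j : Fin (k + 1)) {F : V (k + 1) → ℝ} (hF : Integrable F) :
    Integrable (fun p : ℝ × V k => F (sh j p.1 p.2)) (volume.prod volume) := by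
  have h : MeasurePreserving (fun p : ℝ × V k => (id p.1, p.2 + fun _ => p.1))
      (volume.prod volume) (volume.prod volume) :=
    (MeasurePreserving.id volume).skew_product (g := fun (t : ℝ) (z : V k) => z + fun _ => t)
      (by fun_prop) (Filter.Eventually.of_forall fun t => map_add_right_eq_self volume _)
  exact h.integrable_comp_of_integrable (integrable_insertNth j hF)

theorem adec_in (j : Fin (k + 1)) (f : V (k + 1) → ℝ) (z : V k) :
    ∫ t : ℝ, (adec_A j).indicator (fun x => wt x * f x) (sh j t z) =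
      wt z * ∫ t in Ioi (0 : ℝ), Real.exp (-(((k : ℝ) + 1) * t)) * f (sh j t z) := by
  simp only [adec_pt]
  rw [integral_indicator measurableSet_Ici, integral_Ici_eq_integral_Ioi, integral_const_mul]

theorem integrable_dec (j : Fin (k + 1)) {f : V (k + 1) → ℝ} (hf : PG f) :
    Integrable (fun z : V k => wt z *
      ∫ t in Ioi (0 : ℝ), Real.exp (-(((k : ℝ) + 1) * t)) * f (sh j t z)) := by
  have h := (adec_int j (hf.integrable.indicator (adec_meas j))).integral_prod_right
  simpa only [adec_in] using h

/-- decomposition according to the position of the smallest coordinate -/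
theorem E_dec {f : V (k + 1) → ℝ} (hf : PG f) :
    E f = ∑ j : Fin (k + 1), E (fun z : V k =>
      ∫ t in Ioi (0 : ℝ), Real.exp (-(((k : ℝ) + 1) * t)) * f (sh j t z)) := by
  have hi := fun j => hf.integrable.indicator (adec_meas j)
  rw [E, integral_congr_ae (adec_sum fun x => wt x * f x), integral_finsetSum _ fun j _ => hi j]
  refine Finset.sum_congr rfl fun j _ => ?_
  rw [E, integral_insertNth j (hi j)]
  simp only [← adec_in]
  refine Eq.trans (integral_congr_ae (Filter.Eventually.of_forall fun t => ?_))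
    (integral_integral_swap (f := fun (t : ℝ) (z : V k) =>
      (adec_A j).indicator (fun x => wt x * f x) (sh j t z)) (adec_int j (hi j)))
  exact (integral_add_right_eq_self (fun z : V k =>
    (adec_A j).indicator (fun x => wt x * f x) (j.insertNth t z)) fun _ => t).symm

end Vale.Agent.P254
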