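import Vale.Agent.P254.AInner

open MeasureTheory Set Matrix

namespace Vale.Agent.P254

theorem ager_one {m : ℕ} {C : Set (V m)} (hC : Cone C) {ε : ℝ} (hε : 0 < ε) (hi : Inner ε C) :
    (one : V m) ∈ C := by
  have hR : 0 ≤ R (one : V m) := Finset.sum_nonneg fun _ _ => zero_le_one
  have hp : 0 < 1 + ε * R (one : V m) := by positivity
  have h1 := hC.smul _ (inv_pos.2 hp) _ (hi one fun _ => zero_le_one)
  have e : (one : V m) + (ε * R (one : V m)) • (one : V m) =
      (1 + ε * R (one : V m)) • (one : V m) := by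
    rw [add_smul, one_smul]
  rwa [e, smul_smul, inv_mul_cancel₀ hp.ne', one_smul] at h1

theorem ager_iff {k : ℕ} {C : Set (V (k + 1))} (hC : Cone C) {ε : ℝ} (hε : 0 < ε)
    (hi : Inner ε C) (x : V (k + 1)) (t : ℝ) :
    x + t • one ∈ C ↔ sInf {s : ℝ | x + s • one ∈ C} ≤ t := by
  have hne : {s : ℝ | x + s • one ∈ C}.Nonempty := by
    have hO : x + ‖x‖ • one ∈ O (k + 1) := fun i => by
      have h1 := neg_abs_le (x i)
      have h2 : |x i| ≤ ‖x‖ := norm_le_pi_norm x i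
      simp only [one, Pi.add_apply, Pi.smul_apply, smul_eq_mul, mul_one]
      linarith
    refine ⟨‖x‖ + ε * R (x + ‖x‖ • one), ?_⟩
    change x + _ • one ∈ C
    rw [add_smul, ← add_assoc]
    exact hi _ hO
  have hb : BddBelow {s : ℝ | x + s • one ∈ C} := by
    refine ⟨-x 0, fun s hs => ?_⟩
    have h1 := hC.sub hs 0
    simp only [one, Pi.add_apply, Pi.smul_apply, smul_eq_mul, mul_one] at h1
    linarith
  have hc : IsClosed {s : ℝ | x + s • one ∈ C} :=
    hC.closed.preimage (f := fun s : ℝ => x + s • (one : V (k + 1))) (by fun_prop)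
  refine ⟨fun h => csInf_le hb h, fun h => ?_⟩
  have hm : x + sInf {s : ℝ | x + s • one ∈ C} • one ∈ C := hc.csInf_mem hne hb
  rcases h.eq_or_lt with h | h
  · rwa [← h]
  · have h1 := hC.toCone0.add_mem hm (hC.smul _ (sub_pos.2 h) _ (ager_one hC hε hi))
    rwa [add_assoc, ← add_smul, add_sub_cancel] at h1

theorem exists_gauge {k : ℕ} {C : Set (V (k + 1))} (hC : Cone C) {ε : ℝ} (hε : 0 < ε)
    (hi : Inner ε C) : ∃ U : V (k + 1) → ℝ, ConvexOn ℝ univ U ∧ Continuous U ∧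
      (∀ (x : V (k + 1)) (t : ℝ), x + t • one ∈ C ↔ U x ≤ t) ∧
      ∀ a : ℝ, 0 < a → ∀ x, U (a • x) = a * U x := by
  obtain ⟨U, hU⟩ : ∃ U : V (k + 1) → ℝ, ∀ (x : V (k + 1)) (t : ℝ), x + t • one ∈ C ↔ U x ≤ t :=
    ⟨fun x => sInf {s : ℝ | x + s • one ∈ C}, ager_iff hC hε hi⟩
  have hv : ConvexOn ℝ univ U := by
    refine ⟨convex_univ, fun x _ y _ a b ha hb hab => (hU _ _).1 ?_⟩
    have h1 := hC.conv ((hU x _).2 le_rfl) ((hU y _).2 le_rfl) ha hb hab
    have e : a • x + b • y + (a • U x + b • U y) • (one : V (k + 1)) =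
        a • (x + U x • one) + b • (y + U y • one) := by
      simp only [smul_eq_mul]
      module
    rwa [e]
  have hle : ∀ a : ℝ, 0 < a → ∀ x, U (a • x) ≤ a * U x := fun a ha x => by
    have h1 := hC.smul a ha _ ((hU x _).2 le_rfl)
    rw [smul_add, smul_smul] at h1
    exact (hU _ _).1 h1
  refine ⟨U, hv, continuousOn_univ.1 (hv.continuousOn isOpen_univ), hU,
    fun a ha x => le_antisymm (hle a ha x) ?_⟩
  have h1 := hle a⁻¹ (inv_pos.2 ha) (a • x)
  rw [smul_smul, inv_mul_cancel₀ ha.ne', one_smul] at h1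
  have h2 := mul_le_mul_of_nonneg_left h1 ha.le
  rwa [← mul_assoc, mul_inv_cancel₀ ha.ne', one_mul] at h2

end Vale.Agent.P254
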