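import Vale.Agent.P254.APoly

open MeasureTheory Set Matrix

namespace Vale.Agent.P254

theorem aone_pow_int (k : ℕ) : IntegrableOn (fun s : ℝ => Real.exp (-s) * s ^ k) (Ioi 0) := by
  refine integrableOn_poly (g := fun s => s ^ k) (C := 1) (p := k) (by fun_prop) ?_
  intro s hs
  rw [one_mul, abs_of_nonneg (pow_nonneg hs k)]
  exact pow_le_pow_left₀ hs (by linarith) k

theorem aone_cub_int (c0 c1 c2 c3 : ℝ) :
    IntegrableOn (fun s : ℝ => Real.exp (-s) * (c0 + c1 * s + c2 * s ^ 2 + c3 * s ^ 3))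
      (Ioi 0) := by
  have h0 := (aone_pow_int 0).const_mul c0
  have h1 := (aone_pow_int 1).const_mul c1
  have h2 := (aone_pow_int 2).const_mul c2
  have h3 := (aone_pow_int 3).const_mul c3
  have h := ((h0.add h1).add h2).add h3
  refine Integrable.congr h (Filter.Eventually.of_forall fun s => ?_)
  simp only [Pi.add_apply]
  ring

theorem aone_cub_val (a : ℝ) (ha : 0 ≤ a) (c0 c1 c2 c3 : ℝ) :
    ∫ s in Ioi a, Real.exp (-s) * (c0 + c1 * s + c2 * s ^ 2 + c3 * s ^ 3) =
      Real.exp (-a) * ((c0 + c1 + 2 * c2 + 6 * c3) + (c1 + 2 * c2 + 6 * c3) * a +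
        (c2 + 3 * c3) * a ^ 2 + c3 * a ^ 3) := by
  have hd : ∀ x : ℝ, HasDerivAt (fun s : ℝ => -(Real.exp (-s) * ((c0 + c1 + 2 * c2 + 6 * c3) +
      (c1 + 2 * c2 + 6 * c3) * s + (c2 + 3 * c3) * s ^ 2 + c3 * s ^ 3)))
      (Real.exp (-x) * (c0 + c1 * x + c2 * x ^ 2 + c3 * x ^ 3)) x := by
    intro x
    have e1 : HasDerivAt (fun s : ℝ => Real.exp (-s)) (Real.exp (-x) * (-1)) x :=
      (hasDerivAt_neg x).exp
    have p1 : HasDerivAt (fun s : ℝ => (c1 + 2 * c2 + 6 * c3) * s) ((c1 + 2 * c2 + 6 * c3) * 1) x :=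
      (hasDerivAt_id x).const_mul _
    have p2 : HasDerivAt (fun s : ℝ => (c2 + 3 * c3) * s ^ 2)
        ((c2 + 3 * c3) * (((2 : ℕ) : ℝ) * x ^ (2 - 1))) x := (hasDerivAt_pow 2 x).const_mul _
    have p3 : HasDerivAt (fun s : ℝ => c3 * s ^ 3)
        (c3 * (((3 : ℕ) : ℝ) * x ^ (3 - 1))) x := (hasDerivAt_pow 3 x).const_mul _
    have p := ((p1.const_add (c0 + c1 + 2 * c2 + 6 * c3)).add p2).add p3
    have q := (e1.mul p).neg
    refine q.congr_deriv ?_
    simp only [Pi.add_apply]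
    push_cast
    ring
  have ht : Filter.Tendsto (fun s : ℝ => -(Real.exp (-s) * ((c0 + c1 + 2 * c2 + 6 * c3) +
      (c1 + 2 * c2 + 6 * c3) * s + (c2 + 3 * c3) * s ^ 2 + c3 * s ^ 3))) Filter.atTop (nhds 0) := by
    have t0 := (Real.tendsto_pow_mul_exp_neg_atTop_nhds_zero 0).const_mul
      (c0 + c1 + 2 * c2 + 6 * c3)
    have t1 := (Real.tendsto_pow_mul_exp_neg_atTop_nhds_zero 1).const_mul (c1 + 2 * c2 + 6 * c3)
    have t2 := (Real.tendsto_pow_mul_exp_neg_atTop_nhds_zero 2).const_mul (c2 + 3 * c3)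
    have t3 := (Real.tendsto_pow_mul_exp_neg_atTop_nhds_zero 3).const_mul c3
    have t := (((t0.add t1).add t2).add t3).neg
    simp only [mul_zero, add_zero, neg_zero] at t
    refine t.congr fun s => ?_
    ring
  have hi : IntegrableOn (fun s : ℝ => Real.exp (-s) * (c0 + c1 * s + c2 * s ^ 2 + c3 * s ^ 3))
      (Ioi a) := (aone_cub_int c0 c1 c2 c3).mono_set (Ioi_subset_Ioi ha)
  have key := integral_Ioi_of_hasDerivAt_of_tendsto (hd a).continuousAt.continuousWithinAt
    (fun x _ => hd x) hi ht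
  rw [key]
  ring

/-- a subgradient at the point one -/
theorem aone_sub {g : ℝ → ℝ} (hg : ConvexOn ℝ (Ici 0) g) :
    ∃ b : ℝ, ∀ s : ℝ, 0 ≤ s → g 1 + b * (s - 1) ≤ g s := by
  have h1 : (1 : ℝ) ∈ interior (Ici (0 : ℝ)) := by
    rw [interior_Ici]
    exact mem_Ioi.2 one_pos
  refine ⟨derivWithin g (Ioi 1) 1, fun s hs => ?_⟩
  rcases lt_trichotomy s 1 with h | h | h
  · have a1 := hg.slope_le_leftDeriv_of_mem_interior (mem_Ici.2 hs) h1 h
    have a2 := hg.leftDeriv_le_rightDeriv_of_mem_interior h1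
    have a3 := a1.trans a2
    rw [slope_def_field, div_le_iff₀ (by linarith)] at a3
    linarith
  · subst h
    simp
  · have a1 := hg.rightDeriv_le_slope_of_mem_interior h1 (mem_Ici.2 hs) h
    rw [slope_def_field, le_div_iff₀ (by linarith)] at a1
    linarith

/-- pointwise comparison with the chord through one and a root -/
theorem aone_pt {g : ℝ → ℝ} (hg : ConvexOn ℝ (Ici 0) g) {r r' s : ℝ} (hr : 0 ≤ r) (hr1 : r ≠ 1)
    (hs : 0 ≤ s) (hsign : 0 ≤ (s - 1) * (s - r')) :
    (g r - g 1) / (r - 1) * ((s - 1) * ((s - r) * (s - r'))) ≤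
      ((s - r) * (s - r')) * (g s - g 1) := by
  by_cases hs1 : s = 1
  · subst hs1
    simp
  have e : g s - g 1 = (g s - g 1) / (s - 1) * (s - 1) := by
    rw [div_mul_cancel₀ _ (sub_ne_zero.2 hs1)]
  have key : 0 ≤ (s - r) * ((g s - g 1) / (s - 1) - (g r - g 1) / (r - 1)) := by
    rcases le_total s r with h | h
    · have := hg.secant_mono (mem_Ici.2 zero_le_one) (mem_Ici.2 hs) (mem_Ici.2 hr) hs1 hr1 h
      exact mul_nonneg_of_nonpos_of_nonpos (by linarith) (by linarith)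
    · have := hg.secant_mono (mem_Ici.2 zero_le_one) (mem_Ici.2 hr) (mem_Ici.2 hs) hr1 hs1 h
      exact mul_nonneg (by linarith) (by linarith)
  have k2 := mul_nonneg hsign key
  rw [e]
  generalize (g s - g 1) / (s - 1) = u at k2 ⊢
  generalize (g r - g 1) / (r - 1) = v at k2 ⊢
  nlinarith [k2]

/-- the one-dimensional inequality -/
theorem one_dim {g : ℝ → ℝ} (hg : ConvexOn ℝ (Ici 0) g) {C : ℝ} {p : ℕ}
    (h : ∀ s : ℝ, 0 ≤ s → |g s| ≤ C * (1 + s) ^ p) :
    (0 ≤ ∫ s in Ioi (0 : ℝ), Real.exp (-s) * (ell s * g s)) ∧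
    (∫ s in Ioi (0 : ℝ), Real.exp (-s) * g s) -
        (∫ s in Ioi (0 : ℝ), Real.exp (-s) * g ((1 + s) / 2)) ≤
      ∫ s in Ioi (0 : ℝ), Real.exp (-s) * (ell s * g s) := by
  have hc : ContinuousOn g (Ioi 0) := by
    have := hg.continuousOn_interior
    rwa [interior_Ici] at this
  have hC : 0 ≤ C := by
    have := h 0 le_rfl
    simp only [add_zero, one_pow, mul_one] at this
    exact (abs_nonneg _).trans this
  have iB : IntegrableOn (fun s : ℝ => Real.exp (-s) * g s) (Ioi 0) := integrableOn_poly hc h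
  have iA : IntegrableOn (fun s : ℝ => Real.exp (-s) * (ell s * g s)) (Ioi 0) := by
    refine integrableOn_poly (g := fun s => ell s * g s) (C := 2 * C) (p := p + 2) ?_ ?_
    · refine ContinuousOn.mul ?_ hc
      unfold ell
      fun_prop
    · intro s hs
      have e1 : |ell s| ≤ 2 * (1 + s) ^ 2 := by
        unfold ell
        rw [abs_le]
        constructor <;> nlinarith [sq_nonneg s]
      rw [abs_mul]
      calc |ell s| * |g s| ≤ (2 * (1 + s) ^ 2) * (C * (1 + s) ^ p) :=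
            mul_le_mul e1 (h s hs) (abs_nonneg _) (by positivity)
        _ = 2 * C * (1 + s) ^ (p + 2) := by ring
  have iD : IntegrableOn (fun s : ℝ => Real.exp (-s) * g ((1 + s) / 2)) (Ioi 0) := by
    refine integrableOn_poly (g := fun s => g ((1 + s) / 2)) (C := C * 2 ^ p) (p := p) ?_ ?_
    · refine hc.comp (by fun_prop) ?_
      intro s hs
      have : (0 : ℝ) < s := hs
      exact mem_Ioi.2 (by linarith)
    · intro s hs
      refine (h _ (by linarith)).trans ?_
      rw [mul_assoc, ← mul_pow]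
      exact mul_le_mul_of_nonneg_left (pow_le_pow_left₀ (by linarith) (by linarith) p) hC
  obtain ⟨b, hb⟩ := aone_sub hg
  have hB : g 1 ≤ ∫ s in Ioi (0 : ℝ), Real.exp (-s) * g s := by
    have v := aone_cub_val 0 le_rfl (g 1 - b) b 0 0
    have m := setIntegral_mono_on (aone_cub_int (g 1 - b) b 0 0) iB measurableSet_Ioi
      (fun s hs => by
        have := hb s (le_of_lt hs)
        exact mul_le_mul_of_nonneg_left (by linarith) (Real.exp_pos _).le)
    rw [v] at m
    simp only [neg_zero, Real.exp_zero] at m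
    linarith
  have hD : g 1 ≤ ∫ s in Ioi (0 : ℝ), Real.exp (-s) * g ((1 + s) / 2) := by
    have v := aone_cub_val 0 le_rfl (g 1 - b / 2) (b / 2) 0 0
    have m := setIntegral_mono_on (aone_cub_int (g 1 - b / 2) (b / 2) 0 0) iD measurableSet_Ioi
      (fun s hs => by
        have hs' : (0 : ℝ) < s := hs
        have := hb ((1 + s) / 2) (by linarith)
        exact mul_le_mul_of_nonneg_left (by linarith) (Real.exp_pos _).le)
    rw [v] at m
    simp only [neg_zero, Real.exp_zero] at m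
    linarith
  have hA : (∫ s in Ioi (0 : ℝ), Real.exp (-s) * g s) - g 1 ≤
      ∫ s in Ioi (0 : ℝ), Real.exp (-s) * (ell s * g s) := by
    obtain ⟨t, ht1, ht2, ht⟩ : ∃ t : ℝ, 1 < t ∧ t < 2 ∧ t ^ 2 = 3 := by
      refine ⟨Real.sqrt 3, ?_, ?_, Real.sq_sqrt (by norm_num)⟩
      · exact Real.lt_sqrt_of_sq_lt (by norm_num)
      · exact (Real.sqrt_lt' (by norm_num)).2 (by norm_num)
    have hell : ∀ s : ℝ, (s - (2 - t)) * (s - (2 + t)) = ell s - 1 := by
      intro s
      unfold ell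
      linear_combination (-1 : ℝ) * ht
    obtain ⟨c1, hc1⟩ : ∃ c1 : ℝ, ∀ s : ℝ, 0 ≤ s → s ≤ 1 →
        c1 * ((s - 1) * (ell s - 1)) ≤ (ell s - 1) * (g s - g 1) := by
      refine ⟨(g (2 - t) - g 1) / (2 - t - 1), fun s hs hs1 => ?_⟩
      rw [← hell s]
      exact aone_pt hg (by linarith) (by intro h; linarith) hs
        (mul_nonneg_of_nonpos_of_nonpos (by linarith) (by linarith))
    obtain ⟨c2, hc2⟩ : ∃ c2 : ℝ, ∀ s : ℝ, 1 ≤ s →
        c2 * ((s - 1) * (ell s - 1)) ≤ (ell s - 1) * (g s - g 1) := by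
      refine ⟨(g (2 + t) - g 1) / (2 + t - 1), fun s hs1 => ?_⟩
      rw [← hell s, mul_comm (s - (2 - t)) (s - (2 + t))]
      exact aone_pt hg (by linarith) (by intro h; linarith) (by linarith)
        (mul_nonneg (by linarith) (by linarith))
    have i1 := aone_cub_int (g 1 - c1) (-4 * g 1 + 5 * c1) (g 1 - 5 * c1) c1
    have v1 := aone_cub_val 0 le_rfl (g 1 - c1) (-4 * g 1 + 5 * c1) (g 1 - 5 * c1) c1
    have i2 := (aone_cub_int (-(c2 - c1)) (5 * (c2 - c1)) (-5 * (c2 - c1)) (c2 - c1)).indicator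
      (measurableSet_Ioi (a := (1 : ℝ)))
    have v2 := aone_cub_val 1 zero_le_one (-(c2 - c1)) (5 * (c2 - c1)) (-5 * (c2 - c1)) (c2 - c1)
    have hI : Ioi (0 : ℝ) ∩ Ioi 1 = Ioi 1 := inter_eq_right.2 (Ioi_subset_Ioi zero_le_one)
    have v3 := setIntegral_indicator (μ := volume) (s := Ioi (0 : ℝ)) (f := fun s : ℝ =>
      Real.exp (-s) * (-(c2 - c1) + 5 * (c2 - c1) * s + -5 * (c2 - c1) * s ^ 2 +
        (c2 - c1) * s ^ 3)) (measurableSet_Ioi (a := (1 : ℝ)))
    rw [hI, v2] at v3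
    have m := setIntegral_mono_on ((iB.add i1).add i2) iA measurableSet_Ioi
      (fun s hs => by
        have hs' : (0 : ℝ) < s := hs
        have he := (Real.exp_pos (-s)).le
        simp only [Pi.add_apply]
        by_cases h1 : 1 < s
        · rw [indicator_of_mem (mem_Ioi.2 h1)]
          have k := mul_le_mul_of_nonneg_left (hc2 s h1.le) he
          unfold ell at k ⊢
          linarith
        · rw [indicator_of_notMem (fun hh => h1 (mem_Ioi.1 hh))]
          have k := mul_le_mul_of_nonneg_left (hc1 s hs'.le (not_lt.1 h1)) he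
          unfold ell at k ⊢
          linarith)
    have s1 := integral_add (iB.add i1) i2
    have s2 := integral_add iB i1
    simp only [Pi.add_apply] at m s1
    rw [s1, s2, v1, v3] at m
    simp only [neg_zero, Real.exp_zero] at m
    linarith
  constructor <;> linarith

end Vale.Agent.P254
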