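import Vale.Agent.P254.AFub
import Vale.Agent.P254.AOne

open MeasureTheory Set Matrix

namespace Vale.Agent.P254

/-- contraction towards the all ones vector -/
noncomputable def hf {k : ℕ} (z : V k) : V k := fun i => (1 + z i) / 2

theorem amk_hf {k : ℕ} (z : V k) : hf z = (1 / 2 : ℝ) • (one : V k) + (1 / 2 : ℝ) • z := by
  funext i
  simp only [hf, one, Pi.add_apply, Pi.smul_apply, smul_eq_mul]
  ring

theorem PG.hf {k : ℕ} {u : V k → ℝ} (hu : PG u) : PG (fun z => u (hf z)) := by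
  obtain ⟨hm, C, p, h⟩ := hu
  have h0 : (0 : V k) ∈ O k := fun _ => le_rfl
  have hC : 0 ≤ C := by
    have a1 : 0 < (1 + P254.R (0 : V k)) ^ p := by
      have := R_nonneg h0
      positivity
    exact nonneg_of_mul_nonneg_left ((abs_nonneg _).trans (h 0 h0)) a1
  refine ⟨hm.comp (measurable_pi_lambda _ fun i => ?_), C * (1 + k) ^ p, p, fun z hz => ?_⟩
  · unfold P254.hf
    fun_prop
  · have a1 : P254.hf z ∈ O k := fun i => by
      have := hz i
      unfold P254.hf
      positivity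
    have a2 := R_nonneg hz
    have a3 := R_nonneg a1
    have a4 : 1 + P254.R (P254.hf z) ≤ (1 + k) * (1 + P254.R z) := by
      rw [amk_hf, R_add, R_smul, R_smul, R_one]
      have : (0 : ℝ) ≤ k := Nat.cast_nonneg k
      nlinarith [mul_nonneg this a2]
    calc |u (P254.hf z)| ≤ C * (1 + P254.R (P254.hf z)) ^ p := h _ a1
      _ ≤ C * ((1 + k) * (1 + P254.R z)) ^ p := by gcongr
      _ = _ := by rw [mul_pow, mul_assoc]

theorem amk_cons {k : ℕ} (a b s t : ℝ) (z w : V k) :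
    (Fin.cons (a * s + b * t) (a • z + b • w) : V (k + 1)) =
      a • (Fin.cons s z : V (k + 1)) + b • (Fin.cons t w : V (k + 1)) := by
  funext i
  refine Fin.cases ?_ (fun j => ?_) i <;> simp

theorem amk_hf_cons {k : ℕ} (s : ℝ) (z : V k) :
    hf (Fin.cons s z : V (k + 1)) = Fin.cons ((1 + s) / 2) (hf z) := by
  funext i
  refine Fin.cases ?_ (fun j => ?_) i <;> simp [hf]

theorem amk_slice {k : ℕ} {u : V (k + 1) → ℝ} (hc : ConvexOn ℝ univ u) (s : ℝ) :
    ConvexOn ℝ univ fun z : V k => u (Fin.cons s z) := by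
  refine ⟨convex_univ, fun z _ w _ a b ha hb hab => ?_⟩
  have e := amk_cons a b s s z w
  rw [← add_mul, hab, one_mul] at e
  dsimp only
  rw [e]
  exact hc.2 (mem_univ _) (mem_univ _) ha hb hab

theorem amk_conv {k : ℕ} {u : V (k + 1) → ℝ} (hc : ConvexOn ℝ univ u) (hu : PG u) :
    ConvexOn ℝ (Ici 0) fun s : ℝ => E fun z : V k => u (Fin.cons s z) := by
  refine ⟨convex_Ici 0, fun s hs t ht a b ha hb hab => ?_⟩
  have hs' : 0 ≤ s := hs
  have ht' : 0 ≤ t := ht
  have p1 := (PG.const a).mul (hu.cons hs')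
  have p2 := (PG.const b).mul (hu.cons ht')
  simp only [smul_eq_mul]
  rw [← E_mul_left, ← E_mul_left, ← E_add p1 p2]
  refine E_mono (hu.cons (by positivity)) (p1.add p2) fun z _ => ?_
  have e := amk_cons a b s t z z
  rw [← add_smul, hab, one_smul] at e
  rw [e]
  exact hc.2 (mem_univ _) (mem_univ _) ha hb hab

theorem amk_int {g : ℝ → ℝ} (hg : ConvexOn ℝ (Ici 0) g) {C : ℝ} {p : ℕ}
    (h : ∀ s : ℝ, 0 ≤ s → |g s| ≤ C * (1 + s) ^ p) :
    IntegrableOn (fun s : ℝ => Real.exp (-s) * g ((1 + s) / 2)) (Ioi 0) := by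
  have hC : 0 ≤ C := by simpa using (abs_nonneg _).trans (h 0 le_rfl)
  have hc := hg.continuousOn_interior
  rw [interior_Ici] at hc
  refine integrableOn_poly (g := fun s => g ((1 + s) / 2)) (C := C * 2 ^ p) (p := p)
    (hc.comp (by fun_prop) fun s hs => ?_) fun s hs => ?_
  · have : 0 < s := hs
    show 0 < (1 + s) / 2
    positivity
  · calc |g ((1 + s) / 2)| ≤ C * (1 + (1 + s) / 2) ^ p := h _ (by positivity)
      _ ≤ C * (2 * (1 + s)) ^ p := by
        gcongr
        linarith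
      _ = _ := by rw [mul_pow, mul_assoc]

theorem amk_step {g D H : ℝ → ℝ} {q : ℝ} (hq : 0 ≤ q) (hg : ConvexOn ℝ (Ici 0) g) {C : ℝ} {p : ℕ}
    (h : ∀ s : ℝ, 0 ≤ s → |g s| ≤ C * (1 + s) ^ p) (hD : ∀ s : ℝ, 0 ≤ s → 0 ≤ D s)
    (iD : IntegrableOn (fun s : ℝ => Real.exp (-s) * D s) (Ioi 0))
    (iH : IntegrableOn (fun s : ℝ => Real.exp (-s) * H s) (Ioi 0))
    (hH : ∀ s : ℝ, 0 ≤ s → g ((1 + s) / 2) - H s ≤ q * D ((1 + s) / 2)) (h1 : 1 ≤ q) :
    0 ≤ (∫ s in Ioi (0 : ℝ), Real.exp (-s) * (ell s * g s)) +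
        (∫ s in Ioi (0 : ℝ), Real.exp (-s) * D s) ∧
      (∫ s in Ioi (0 : ℝ), Real.exp (-s) * g s) - (∫ s in Ioi (0 : ℝ), Real.exp (-s) * H s) ≤
        q * 4 * ((∫ s in Ioi (0 : ℝ), Real.exp (-s) * (ell s * g s)) +
          ∫ s in Ioi (0 : ℝ), Real.exp (-s) * D s) := by
  obtain ⟨a1, a2⟩ := one_dim hg h
  obtain ⟨b1, b2⟩ := half_le hD iD
  have b0 : 0 ≤ ∫ s in Ioi (0 : ℝ), Real.exp (-s) * D s :=
    setIntegral_nonneg measurableSet_Ioi fun s hs =>
      mul_nonneg (Real.exp_pos _).le (hD s (le_of_lt hs))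
  have ig := amk_int hg h
  have c1 : (∫ s in Ioi (0 : ℝ), Real.exp (-s) * g ((1 + s) / 2)) -
      (∫ s in Ioi (0 : ℝ), Real.exp (-s) * H s) ≤
      q * ∫ s in Ioi (0 : ℝ), Real.exp (-s) * D ((1 + s) / 2) := by
    rw [← integral_sub ig iH, ← integral_const_mul]
    refine setIntegral_mono_on (ig.sub iH) (b1.const_mul q) measurableSet_Ioi fun s hs => ?_
    have := mul_le_mul_of_nonneg_left (hH s (le_of_lt hs)) (Real.exp_pos (-s)).le
    linarith
  have c2 := mul_le_mul_of_nonneg_left b2 hq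
  have c3 := mul_le_mul_of_nonneg_right (show 1 ≤ q * 4 by linarith) a1
  exact ⟨add_nonneg a1 b0, by linarith⟩

theorem conv_bound (k : ℕ) (u : V k → ℝ) (hc : ConvexOn ℝ univ u) (hu : PG u) :
    0 ≤ E (fun z => u z * SL z) ∧
      E u - E (fun z => u (hf z)) ≤ 4 ^ k * E (fun z => u z * SL z) := by
  induction k with
  | zero =>
    rw [E_zero, E_zero, E_zero, Subsingleton.elim (hf (0 : V 0)) 0]
    simp [SL]
  | succ k ih =>
    have p1 : PG fun x : V (k + 1) => u x * ell (x 0) := hu.mul (PG.ell 0)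
    have p2 : PG fun x : V (k + 1) => u x * (SL x - ell (x 0)) := hu.mul (PG.SL.sub (PG.ell 0))
    have e0 : E (fun z => u z * SL z) =
        E (fun x => u x * ell (x 0)) + E fun x => u x * (SL x - ell (x 0)) := by
      rw [← E_add p1 p2]
      exact E_congr fun x _ => by ring
    have e1 : ∀ s : ℝ, E (fun z : V k => u (Fin.cons s z) * ell ((Fin.cons s z : V (k + 1)) 0)) =
        ell s * E fun z : V k => u (Fin.cons s z) := fun s => by
      rw [← E_mul_left]
      exact E_congr fun z _ => by rw [Fin.cons_zero, mul_comm]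
    have e2 : ∀ s : ℝ, E (fun z : V k => u (Fin.cons s z) *
        (SL (Fin.cons s z : V (k + 1)) - ell ((Fin.cons s z : V (k + 1)) 0))) =
        E fun z : V k => u (Fin.cons s z) * SL z := fun s =>
      E_congr fun z _ => by rw [Fin.cons_zero, SL_cons, add_sub_cancel_left]
    have iD := integrableOn_E_cons p2
    have iH := integrableOn_E_cons hu.hf
    obtain ⟨C, p, hC⟩ := E_cons_le hu
    rw [e0, E_succ p1, E_succ p2, E_succ hu, E_succ hu.hf, pow_succ]
    simp only [e1, e2] at iD ⊢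
    refine amk_step (by positivity) (amk_conv hc hu) hC
      (fun s hs => (ih _ (amk_slice hc s) (hu.cons hs)).1) iD iH (fun s hs => ?_)
      (one_le_pow₀ (by norm_num))
    simp only [amk_hf_cons]
    exact (ih _ (amk_slice hc _) (hu.cons (by positivity))).2

theorem conv_lower {k : ℕ} {u : V k → ℝ} (hc : ConvexOn ℝ univ u) (hu : PG u)
    (h1 : u one = 0) : E u ≤ 2 * 4 ^ k * E (fun z => u z * SL z) := by
  have a1 := (conv_bound k u hc hu).2
  have a2 : E (fun z => u (hf z)) ≤ 1 / 2 * E u := by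
    rw [← E_mul_left]
    refine E_mono hu.hf ((PG.const _).mul hu) fun z _ => ?_
    have := hc.2 (mem_univ (one : V k)) (mem_univ z) (show (0 : ℝ) ≤ 1 / 2 by norm_num)
      (show (0 : ℝ) ≤ 1 / 2 by norm_num) (by norm_num)
    rw [h1, smul_zero, zero_add, ← amk_hf] at this
    exact this
  linarith

end Vale.Agent.P254
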