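import Vale.Agent.P254.AFib
import Vale.Agent.P254.AGer
import Vale.Agent.P254.AMk

open MeasureTheory Set Matrix

namespace Vale.Agent.P254

theorem aerr_pg {k : ℕ} {u : V k → ℝ} (hu : PG u) (ε : ℝ) : PG fun z =>
    u z * SL z - u z * (ε * R z) * (((k : ℝ) + 1) * (R z ^ 2 + 2 * k + 4)) := by
  have h := (hu.mul PG.SL).sub ((hu.mul ((PG.const ε).mul PG.R)).mul ((PG.const ((k : ℝ) + 1)).mul
    (((PG.R.mul PG.R).add (PG.const (2 * (k : ℝ)))).add (PG.const 4))))
  simpa only [sq] using h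

theorem aerr_pos {k : ℕ} {u : V k → ℝ} {ε : ℝ} (hc : ConvexOn ℝ univ u) (hu : PG u)
    (h0 : ∀ z, 0 ≤ u z) (hh : ∀ a : ℝ, 0 < a → ∀ z, u (a • z) = a * u z) (h1 : u one = 0)
    (hε : ε * (2 * 4 ^ k * (((k : ℝ) + 1) * ((k + 1) * (k + 2) * (k + 5)))) = 1) :
    0 ≤ E fun z => u z * SL z - u z * (ε * R z) * (((k : ℝ) + 1) * (R z ^ 2 + 2 * k + 4)) := by
  have p1 := hu.mul PG.R
  have p2 := p1.mul PG.R
  have p3 := p2.mul PG.R
  have e1 := E_hom hu (fun x _ => h0 x) (d := 1) fun a ha x => by rw [hh a ha, pow_one]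
  have e2 := E_hom p1 (fun x hx => mul_nonneg (h0 x) (R_nonneg hx)) (d := 2) fun a ha x => by
    rw [hh a ha, R_smul]
    ring
  have e3 := E_hom p2 (fun x hx => mul_nonneg (mul_nonneg (h0 x) (R_nonneg hx)) (R_nonneg hx))
    (d := 3) fun a ha x => by
      rw [hh a ha, R_smul]
      ring
  have e4 : (fun z => u z * SL z - u z * (ε * R z) * (((k : ℝ) + 1) * (R z ^ 2 + 2 * k + 4))) =
      fun z => u z * SL z - (ε * ((k : ℝ) + 1) * (u z * R z * R z * R z) +
        ε * ((k : ℝ) + 1) * (2 * k + 4) * (u z * R z)) := by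
    funext z
    ring
  have hl := conv_lower hc hu h1
  rw [e4, E_sub (hu.mul PG.SL) (((PG.const _).mul p3).add ((PG.const _).mul p1)),
    E_add ((PG.const _).mul p3) ((PG.const _).mul p1), E_mul_left, E_mul_left, e3, e2, e1]
  have h4 : (0 : ℝ) < 2 * 4 ^ k := by positivity
  refine nonneg_of_mul_nonneg_right ?_ h4 |>.trans_eq rfl
  push_cast
  have : 2 * 4 ^ k * (ε * ((k : ℝ) + 1) * ((k + 3) * ((k + 2) * ((k + 1) * E u))) +
      ε * ((k : ℝ) + 1) * (2 * k + 4) * ((k + 1) * E u)) = E u := by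
    calc _ = ε * (2 * 4 ^ k * (((k : ℝ) + 1) * ((k + 1) * (k + 2) * (k + 5)))) * E u := by ring
      _ = E u := by rw [hε, one_mul]
  linarith

theorem aerr_ins {k : ℕ} (j : Fin (k + 1)) (a b : ℝ) (x y : V k) :
    (j.insertNth (0 : ℝ) (a • x + b • y) : V (k + 1)) =
      a • (j.insertNth (0 : ℝ) x : V (k + 1)) + b • (j.insertNth (0 : ℝ) y : V (k + 1)) := by
  funext i
  refine j.succAboveCases ?_ (fun i => ?_) i <;> simp

theorem aerr_smul {k : ℕ} (j : Fin (k + 1)) (a : ℝ) (x : V k) :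
    (j.insertNth (0 : ℝ) (a • x) : V (k + 1)) = a • (j.insertNth (0 : ℝ) x : V (k + 1)) := by
  funext i
  refine j.succAboveCases ?_ (fun i => ?_) i <;> simp

theorem aerr_one {k : ℕ} (j : Fin (k + 1)) :
    (j.insertNth (0 : ℝ) (one : V k) : V (k + 1)) = cen j := by
  funext i
  refine j.succAboveCases ?_ (fun i => ?_) i <;> simp [cen, one]

theorem aerr_O {k : ℕ} (j : Fin (k + 1)) {z : V k} (hz : z ∈ O k) :
    (j.insertNth (0 : ℝ) z : V (k + 1)) ∈ O (k + 1) := by
  intro i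
  refine j.succAboveCases ?_ (fun i => ?_) i
  · simp
  · simpa using hz i

theorem aerr_R {k : ℕ} (j : Fin (k + 1)) (z : V k) :
    R (j.insertNth (0 : ℝ) z : V (k + 1)) = R z := by
  simp [R, Fin.sum_univ_succAbove _ j]

theorem key (k : ℕ) : ∃ ε : ℝ, 0 < ε ∧ ∀ C : Set (V (k + 1)), Cone C → Inner ε C →
    (∀ j, cen j ∈ C) → E (C.indicator fun x => SL x - 2) ≤ -2 := by
  obtain ⟨ε, hε0, hε⟩ : ∃ ε : ℝ, 0 < ε ∧
      ε * (2 * 4 ^ k * (((k : ℝ) + 1) * ((k + 1) * (k + 2) * (k + 5)))) = 1 :=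
    ⟨_, by positivity, inv_mul_cancel₀ (by positivity)⟩
  refine ⟨ε, hε0, fun C hC hi hcen => ?_⟩
  obtain ⟨U, hU1, hU2, hU3, hU4⟩ := exists_gauge hC hε0 hi
  have hm : MeasurableSet C := hC.closed.measurableSet
  have pf : PG fun x : V (k + 1) => SL x - 2 := PG.SL.sub (PG.const 2)
  have e0 : E (fun x : V (k + 1) => SL x - 2) = -2 := by
    rw [E_sub PG.SL (PG.const 2), E_SL, E_const, zero_sub]
  have e1 := E_add (pf.indicator hm) (pf.indicator hm.compl)
  simp only [indicator_self_add_compl_apply] at e1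
  suffices H : 0 ≤ E (Cᶜ.indicator fun x => SL x - 2) by linarith
  rw [E_dec (pf.indicator hm.compl)]
  refine Finset.sum_nonneg fun j _ => ?_
  set u : V k → ℝ := fun z => U (j.insertNth (0 : ℝ) z) with hu
  have h0 : ∀ z, 0 ≤ u z := fun z => by
    simpa [one] using hC.sub ((hU3 (j.insertNth (0 : ℝ) z) _).2 le_rfl) j
  have hb : ∀ z ∈ O k, u z ≤ ε * R z := fun z hz => by
    have := hi _ (aerr_O j hz)
    rwa [aerr_R, hU3] at this
  have hcont : Continuous u := hU2.comp (continuous_const.finInsertNth j continuous_id)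
  have pu : PG u := PG.of_le hcont.measurable ((PG.const ε).mul PG.R) fun z hz => by
    rw [abs_of_nonneg (h0 z)]
    exact hb z hz
  have hc : ConvexOn ℝ univ u := ⟨convex_univ, fun x _ y _ a b ha hb hab => by
    simp only [hu, aerr_ins]
    exact hU1.2 (mem_univ _) (mem_univ _) ha hb hab⟩
  have h1 : u one = 0 := le_antisymm (by
    simp only [hu, aerr_one]
    exact (hU3 _ 0).1 (by simpa using hcen j)) (h0 _)
  refine (aerr_pos hc pu h0 (fun a ha z => by simp only [hu, aerr_smul, hU4 a ha]) h1 hε).trans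
    (E_mono' (aerr_pg pu ε).integrable (integrable_dec j (pf.indicator hm.compl)) fun z hz => ?_)
  refine (fibre_ge j hz (h0 z) (hb z hz)).trans_eq ?_
  rw [← Ioi_inter_Iio, ← setIntegral_indicator measurableSet_Iio]
  refine integral_congr_ae (Filter.Eventually.of_forall fun t => ?_)
  have h2 : sh j t z ∈ Cᶜ ↔ t ∈ Iio (u z) := by
    rw [sh_eq, mem_compl_iff, hU3, mem_Iio, not_le]
  by_cases ht : t ∈ Iio (u z)
  · simp only [indicator_of_mem ht, indicator_of_mem (h2.2 ht)]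
  · simp only [indicator_of_notMem ht, indicator_of_notMem (mt h2.1 ht), mul_zero]

end Vale.Agent.P254
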