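import Vale.Agent.P254.ADec

open MeasureTheory Set Matrix

namespace Vale.Agent.P254

theorem afib_le {k : ℕ} {z : V k} (hz : z ∈ O k) : SL z ≤ R z ^ 2 + 2 * k := by
  have h1 : SL z ≤ ∑ i, (z i ^ 2 + 2) := Finset.sum_le_sum fun i _ => by
    have := hz i
    unfold ell
    linarith
  have h2 : ∑ i, z i ^ 2 ≤ R z ^ 2 := Finset.sum_sq_le_sq_sum_of_nonneg fun i _ => hz i
  rw [Finset.sum_add_distrib, Finset.sum_const, Finset.card_univ, Fintype.card_fin,
    nsmul_eq_mul] at h1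
  linarith

theorem afib_ge {k : ℕ} (j : Fin (k + 1)) {z : V k} (hz : z ∈ O k) {t : ℝ} (ht : 0 ≤ t) :
    SL z - 4 * (((k : ℝ) + 1) * t) ≤ SL (sh j t z) - 2 := by
  have h1 : ∑ i, (ell (z i) - 4 * t) ≤ ∑ i, ell (z i + t) := Finset.sum_le_sum fun i _ => by
    have := mul_nonneg (hz i) ht
    unfold ell
    nlinarith [sq_nonneg t]
  rw [Finset.sum_sub_distrib, Finset.sum_const, Finset.card_univ, Fintype.card_fin,
    nsmul_eq_mul] at h1
  rw [SL_sh, SL, ell]
  nlinarith [sq_nonneg t]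

theorem afib_pt {S X Q s B : ℝ} (h0 : 0 ≤ s) (hB : s ≤ B) (hQ : 0 ≤ Q) (h1 : S ≤ Q)
    (h2 : S - 4 * s ≤ X) : S - B * (Q + 4) ≤ Real.exp (-s) * X := by
  have e1 := Real.add_one_le_exp (-s)
  have e2 : Real.exp (-s) ≤ 1 := Real.exp_le_one_iff.2 (by linarith)
  have k1 := mul_le_mul_of_nonneg_left h2 (Real.exp_pos (-s)).le
  have k2 := mul_le_mul_of_nonneg_left h1 (sub_nonneg.2 e2)
  have k3 := mul_le_mul_of_nonneg_right e1 hQ
  have k4 := mul_le_mul_of_nonneg_right e2 h0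
  have k5 := mul_le_mul_of_nonneg_right hB (add_nonneg hQ zero_le_four)
  linarith

/-- pointwise estimate of the fibre integral -/
theorem fibre_ge {k : ℕ} (j : Fin (k + 1)) {z : V k} (hz : z ∈ O k) {u b : ℝ} (h0 : 0 ≤ u)
    (hb : u ≤ b) :
    u * SL z - u * b * (((k : ℝ) + 1) * (R z ^ 2 + 2 * k + 4)) ≤
      ∫ t in Ioo (0 : ℝ) u, Real.exp (-(((k : ℝ) + 1) * t)) * (SL (sh j t z) - 2) := by
  have hc : Continuous fun t : ℝ => Real.exp (-(((k : ℝ) + 1) * t)) * (SL (sh j t z) - 2) := by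
    simp only [SL_sh, ell]
    fun_prop
  have hk : (0 : ℝ) ≤ k + 1 := by positivity
  refine le_trans (le_of_eq ?_) (setIntegral_mono_on
    (continuous_const.integrableOn_Icc.mono_set Ioo_subset_Icc_self)
    (hc.integrableOn_Icc.mono_set Ioo_subset_Icc_self) measurableSet_Ioo fun t ht =>
      afib_pt (mul_nonneg hk ht.1.le) (mul_le_mul_of_nonneg_left (ht.2.le.trans hb) hk)
        (by positivity) (afib_le hz) (afib_ge j hz ht.1.le))
  rw [setIntegral_const, Real.volume_real_Ioo_of_le h0, smul_eq_mul]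
  ring

end Vale.Agent.P254
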