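import Vale.Agent.P254.Base

open MeasureTheory Set Matrix

namespace Vale.Agent.P254

variable {n : ℕ}

/-- Schur complement -/
theorem det_border (S : Matrix (Fin n) (Fin n) ℝ) (b : V n)
    (M : Matrix (Fin (n + 1)) (Fin (n + 1)) ℝ) (h00 : M 0 0 = 1)
    (h0 : ∀ i : Fin n, M 0 i.succ = b i) (h1 : ∀ i : Fin n, M i.succ 0 = b i)
    (h : ∀ i j : Fin n, M i.succ j.succ = S i j + b i * b j) : M.det = S.det := by
  have e := det_eq_of_forall_row_eq_smul_add_const (A := M)
    (B := Matrix.of fun i j => M i j - (Fin.cons 0 b : V (n + 1)) i * M 0 j)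
    (Fin.cons 0 b : V (n + 1)) 0 rfl fun i j => by simp
  rw [e, det_succ_column_zero, Fin.sum_univ_succ]
  simp only [of_apply, Fin.cons_zero, Fin.cons_succ, h00, h1, mul_one, sub_self, mul_zero, zero_mul,
    Finset.sum_const_zero, add_zero, sub_zero, Fin.val_zero, pow_zero, one_mul]
  congr 1
  ext i j
  simp [h, h0]

theorem asch_int {K : Set (V n)} (hK : IsCompact K) {f : V n → ℝ} (hf : Continuous f) :
    IntegrableOn f K := hf.continuousOn.integrableOn_compact hK

theorem asch_cov {K : Set (V n)} (hK : IsCompact K) (h0 : 0 < (volume K).toReal) (i j : Fin n) :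
    (∫ x in K, x i * x j) / (volume K).toReal = cov K i j + centroid K i * centroid K j := by
  have e : ∀ x : V n, (x i - centroid K i) * (x j - centroid K j) =
      x i * x j - centroid K j * x i - (centroid K i * x j - centroid K i * centroid K j) :=
    fun x => by ring
  simp only [cov, e]
  rw [integral_sub (asch_int hK (by fun_prop)) (asch_int hK (by fun_prop)),
    integral_sub (asch_int hK (by fun_prop)) (asch_int hK (by fun_prop)),
    integral_sub (asch_int hK (by fun_prop)) (asch_int hK (by fun_prop)),
    integral_const_mul, integral_const_mul, setIntegral_const, smul_eq_mul, Measure.real]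
  simp only [centroid]
  field_simp
  ring

/-- the second moment matrix of `(1, x)` -/
theorem det_moment {K : Set (V n)} (hK : IsCompact K) (h0 : 0 < (volume K).toReal) :
    Matrix.det (fun i j : Fin (n + 1) =>
        ∫ x in K, (Fin.cons 1 x : V (n + 1)) i * (Fin.cons 1 x : V (n + 1)) j) =
      (volume K).toReal ^ (n + 1) * (cov K).det := by
  rw [← det_border (cov K) (centroid K) (Matrix.of fun i j : Fin (n + 1) =>
    (∫ x in K, (Fin.cons 1 x : V (n + 1)) i * (Fin.cons 1 x : V (n + 1)) j) / (volume K).toReal)
    (by simp [Measure.real, h0.ne']) (fun i => by simp [centroid]) (fun i => by simp [centroid])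
    fun i j => by simpa using asch_cov hK h0 i j]
  have e := det_smul (Matrix.of fun i j : Fin (n + 1) =>
    (∫ x in K, (Fin.cons 1 x : V (n + 1)) i * (Fin.cons 1 x : V (n + 1)) j) / (volume K).toReal)
    (volume K).toReal
  rw [Fintype.card_fin] at e
  rw [← e]
  congr 1
  ext i j
  exact (mul_div_cancel₀ _ h0.ne').symm

theorem det_cov_nonneg {K : Set (V n)} (hK : IsCompact K) : 0 ≤ (cov K).det := by
  refine PosSemidef.det_nonneg (PosSemidef.of_dotProduct_mulVec_nonneg ?_ fun v => ?_)
  · ext i j
    simp only [conjTranspose_apply, star_trivial, cov, mul_comm]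
  · have e : star v ⬝ᵥ cov K *ᵥ v =
        (∫ x in K, (∑ i, v i * (x i - centroid K i)) ^ 2) / (volume K).toReal := by
      simp only [sq, Finset.sum_mul_sum]
      rw [integral_finsetSum _ fun i _ => asch_int hK (by fun_prop), Finset.sum_div]
      refine Finset.sum_congr rfl fun i _ => ?_
      rw [integral_finsetSum _ fun j _ => asch_int hK (by fun_prop), Finset.sum_div]
      simp only [star_trivial, mulVec, dotProduct, Finset.mul_sum, cov]
      refine Finset.sum_congr rfl fun j _ => ?_
      have e1 : ∀ x : V n, v i * (x i - centroid K i) * (v j * (x j - centroid K j)) =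
          v i * v j * ((x i - centroid K i) * (x j - centroid K j)) := fun x => by ring
      simp only [e1, integral_const_mul]
      ring
    rw [e]
    exact div_nonneg (integral_nonneg fun _ => sq_nonneg _) ENNReal.toReal_nonneg

end Vale.Agent.P254
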