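import Vale.Agent.P254.AFub

open MeasureTheory Set Matrix

namespace Vale.Agent.P254

variable {n : ℕ} {K : Set (V n)}

theorem arad_closed (hK : IsCompact K) : IsClosed (CK K) := by
  have : CompactSpace K := isCompact_iff_compactSpace.1 hK
  have e : CK K = Prod.fst '' {p : V (n + 1) × K | 0 ≤ p.1 0 ∧
      Fin.tail p.1 = p.1 0 • (p.2 : V n)} := by
    ext X
    constructor
    · rintro ⟨h0, y, hy, h⟩
      exact ⟨(X, ⟨y, hy⟩), ⟨h0, h⟩, rfl⟩
    · rintro ⟨⟨X, y⟩, ⟨h0, h⟩, rfl⟩
      exact ⟨h0, y, y.2, h⟩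
  rw [e]
  have h1 : IsClosed {p : V (n + 1) × K | 0 ≤ p.1 0} := isClosed_le continuous_const (by fun_prop)
  have h2 : IsClosed {p : V (n + 1) × K | Fin.tail p.1 = p.1 0 • (p.2 : V n)} :=
    isClosed_eq (continuous_pi fun i => (continuous_apply i.succ).comp continuous_fst)
      (by fun_prop)
  exact isClosedMap_fst_of_compactSpace _ (h1.inter h2)

theorem cone0_CK (hK : IsCompact K) (hc : Convex ℝ K) : Cone0 (CK K) := by
  refine ⟨arad_closed hK, ?_, ?_⟩
  · rintro X ⟨h0, y, hy, h⟩ X' ⟨h0', y', hy', h'⟩ a b ha hb hab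
    have e : Fin.tail (a • X + b • X') = (a * X 0) • y + (b * X' 0) • y' := by
      rw [mul_smul, mul_smul, ← h, ← h']
      rfl
    have e0 : (a • X + b • X') 0 = a * X 0 + b * X' 0 := rfl
    have h1 := mul_nonneg ha h0
    have h2 := mul_nonneg hb h0'
    refine ⟨by rw [e0]; positivity, ?_⟩
    rw [e, e0]
    generalize a * X 0 = u at h1 ⊢
    generalize b * X' 0 = v at h2 ⊢
    rcases (add_nonneg h1 h2).eq_or_lt with h3 | h3
    · have hu : u = 0 := by linarith
      have hv : v = 0 := by linarith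
      exact ⟨y, hy, by simp [hu, hv]⟩
    · refine ⟨(u / (u + v)) • y + (v / (u + v)) • y', hc hy hy' (by positivity) (by positivity)
        (by field_simp), ?_⟩
      rw [smul_add, smul_smul, smul_smul, mul_div_cancel₀ _ h3.ne', mul_div_cancel₀ _ h3.ne']
  · rintro a ha X ⟨h0, y, hy, h⟩
    refine ⟨mul_nonneg ha.le h0, y, hy, ?_⟩
    have e0 : (a • X) 0 = a * X 0 := rfl
    rw [e0, mul_smul, ← h]
    rfl

theorem CK_mono {K' : Set (V n)} (h : K ⊆ K') : CK K ⊆ CK K' :=
  fun _ ⟨h0, y, hy, e⟩ => ⟨h0, y, h hy, e⟩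

theorem cons_one_mem_CK (x : V n) : (Fin.cons 1 x : V (n + 1)) ∈ CK K ↔ x ∈ K := by
  simp [CK]

theorem arad_cons (s : ℝ) (x : V n) :
    (Fin.cons s (s • x) : V (n + 1)) = s • (Fin.cons 1 x : V (n + 1)) := by
  funext i
  refine Fin.cases ?_ (fun i => ?_) i <;> simp

theorem arad_mem {s : ℝ} (hs : 0 < s) (x : V n) :
    (Fin.cons s (s • x) : V (n + 1)) ∈ CK K ↔ x ∈ K := by
  simp only [CK, mem_ofPred_eq, Fin.cons_zero, Fin.tail_cons, hs.le, true_and]
  refine ⟨fun ⟨y, hy, e⟩ => ?_, fun h => ⟨x, h, rfl⟩⟩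
  rwa [smul_right_injective _ hs.ne' e]

theorem arad_inner (hK : IsCompact K) {f : V (n + 1) → ℝ} {d : ℕ}
    (hd : ∀ a : ℝ, 0 < a → ∀ x, f (a • x) = a ^ d * f x) {s : ℝ} (hs : 0 < s) :
    ∫ z : V n, (CK K).indicator (fun X => Real.exp (-X 0) * f X) (Fin.cons s z) =
      Real.exp (-s) * s ^ (n + d) * ∫ x in K, f (Fin.cons 1 x) := by
  have h1 := Measure.integral_comp_smul_of_nonneg (volume : Measure (V n))
    (fun z : V n => (CK K).indicator (fun X => Real.exp (-X 0) * f X) (Fin.cons s z)) s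
    (hR := hs.le)
  have h2 : ∀ x : V n, (CK K).indicator (fun X => Real.exp (-X 0) * f X) (Fin.cons s (s • x)) =
      Real.exp (-s) * s ^ d * K.indicator (fun x => f (Fin.cons 1 x)) x := fun x => by
    by_cases hx : x ∈ K
    · rw [indicator_of_mem ((arad_mem hs x).2 hx), indicator_of_mem hx, Fin.cons_zero, arad_cons,
        hd s hs, mul_assoc]
    · rw [indicator_of_notMem (mt (arad_mem hs x).1 hx), indicator_of_notMem hx, mul_zero]
  simp only [h2] at h1
  rw [integral_const_mul, integral_indicator hK.measurableSet, Module.finrank_fin_fun, smul_eq_mul,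
    eq_inv_mul_iff_mul_eq₀ (pow_pos hs n).ne'] at h1
  rw [← h1]
  ring

/-- radial formula -/
theorem IK_eq (hK : IsCompact K) {f : V (n + 1) → ℝ} {d : ℕ}
    (hd : ∀ a : ℝ, 0 < a → ∀ x, f (a • x) = a ^ d * f x)
    (hi : Integrable ((CK K).indicator fun X => Real.exp (-X 0) * f X)) :
    IK K f = ((n + d).factorial : ℝ) * ∫ x in K, f (Fin.cons 1 x) := by
  have h1 : ∫ s in Ioi (0 : ℝ), Real.exp (-s) * s ^ (n + d) = ((n + d).factorial : ℝ) := by
    rw [← Real.Gamma_nat_eq_factorial, Real.Gamma_eq_integral (by positivity), add_sub_cancel_right]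
    simp only [Real.rpow_natCast]
  rw [IK, integral_insertNth 0 hi, ← h1, ← integral_mul_const, ← integral_Ici_eq_integral_Ioi,
    ← setIntegral_eq_integral_of_forall_compl_eq_zero (s := Ici (0 : ℝ)),
    integral_Ici_eq_integral_Ioi, integral_Ici_eq_integral_Ioi]
  · refine setIntegral_congr_fun measurableSet_Ioi fun s hs => ?_
    simp only [Fin.insertNth_zero']
    exact arad_inner hK hd hs
  · intro s hs
    simp only [Fin.insertNth_zero']
    refine (integral_congr_ae (Filter.Eventually.of_forall fun z => ?_)).trans (integral_zero _ _)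
    exact indicator_of_notMem (fun h => hs h.1) _

end Vale.Agent.P254
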