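import Vale.Agent.P254.ALin
import Vale.Agent.P254.ARad

open MeasureTheory Set Matrix

namespace Vale.Agent.P254

variable {n : ℕ}

theorem asim_zero (v : Fin (n + 1) → V n) (x : V (n + 1)) : (Vm v *ᵥ x) 0 = ∑ i, x i := by
  simp [Vm, mulVec, dotProduct]

theorem asim_tail (v : Fin (n + 1) → V n) (x : V (n + 1)) :
    Fin.tail (Vm v *ᵥ x) = ∑ j, x j • v j := by
  funext i
  simp [Vm, mulVec, dotProduct, Fin.tail, mul_comm]

theorem asim_ext {X Y : V (n + 1)} (h0 : X 0 = Y 0) (h : Fin.tail X = Fin.tail Y) : X = Y := by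
  rw [← Fin.cons_self_tail X, h0, h, Fin.cons_self_tail]

theorem asim_ind {v : Fin (n + 1) → V n} : AffineIndependent ℝ v ↔
    ∀ w : V (n + 1), ∑ i, w i = 0 → ∑ i, w i • v i = 0 → w = 0 := by
  rw [affineIndependent_iff_of_fintype]
  refine forall₂_congr fun w hw => ?_
  rw [Finset.weightedVSub_eq_linear_combination _ hw]
  exact imp_congr_right fun _ => funext_iff.symm

theorem Vm_det_ne {v : Fin (n + 1) → V n} : (Vm v).det ≠ 0 ↔ AffineIndependent ℝ v := by
  rw [Ne, ← Matrix.exists_mulVec_eq_zero_iff, asim_ind]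
  constructor
  · intro h w h0 h1
    by_contra hw
    exact h ⟨w, hw, asim_ext ((asim_zero v w).trans h0) ((asim_tail v w).trans h1)⟩
  · rintro h ⟨w, hw, e⟩
    exact hw (h w (by rw [← asim_zero v w, e]; rfl) (by rw [← asim_tail v w, e]; rfl))

theorem Vm_mulVec_zero (v : Fin (n + 1) → V n) (x : V (n + 1)) : (Vm v *ᵥ x) 0 = R x :=
  asim_zero v x

theorem asim_hull {v : Fin (n + 1) → V n} {y : V n} (h : y ∈ convexHull ℝ (range v)) :
    ∃ w : V (n + 1), (∀ i, 0 ≤ w i) ∧ ∑ i, w i = 1 ∧ ∑ i, w i • v i = y := by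
  refine convexHull_min (t := {y | ∃ w : V (n + 1), (∀ i, 0 ≤ w i) ∧ ∑ i, w i = 1 ∧
    ∑ i, w i • v i = y}) ?_ ?_ h
  · rintro _ ⟨j, rfl⟩
    refine ⟨Pi.single j 1, fun i => ?_, by simp, by simp [Pi.single_apply]⟩
    rw [Pi.single_apply]
    split_ifs <;> norm_num
  · rintro _ ⟨w, w0, w1, rfl⟩ _ ⟨u, u0, u1, rfl⟩ a b ha hb hab
    refine ⟨fun i => a * w i + b * u i,
      fun i => add_nonneg (mul_nonneg ha (w0 i)) (mul_nonneg hb (u0 i)), ?_, ?_⟩
    · rw [Finset.sum_add_distrib, ← Finset.mul_sum, ← Finset.mul_sum, w1, u1]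
      linarith
    · simp only [add_smul, mul_smul, Finset.sum_add_distrib, Finset.smul_sum]

theorem CK_simplex (v : Fin (n + 1) → V n) :
    CK (convexHull ℝ (range v)) = im (Vm v) (O (n + 1)) := by
  ext X
  constructor
  · rintro ⟨h0, y, hy, h⟩
    obtain ⟨w, w0, w1, rfl⟩ := asim_hull hy
    refine ⟨fun i => X 0 * w i, fun i => mul_nonneg h0 (w0 i), asim_ext ?_ ?_⟩
    · simp only [asim_zero, ← Finset.mul_sum, w1, mul_one]
    · simp only [asim_tail, h, mul_smul, Finset.smul_sum]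
  · rintro ⟨x, hx, rfl⟩
    have h0 : 0 ≤ ∑ i, x i := Finset.sum_nonneg fun i _ => hx i
    refine ⟨h0.trans_eq (asim_zero v x).symm, ?_⟩
    beta_reduce
    rw [asim_zero, asim_tail]
    rcases h0.eq_or_lt with h | h
    · refine ⟨v 0, subset_convexHull _ _ ⟨0, rfl⟩, ?_⟩
      have h1 := (Finset.sum_eq_zero_iff_of_nonneg fun i _ => hx i).1 h.symm
      rw [← h, zero_smul]
      exact Finset.sum_eq_zero fun i hi => by rw [h1 i hi, zero_smul]
    · refine ⟨∑ j, (x j / ∑ i, x i) • v j, (convex_convexHull ℝ _).sum_mem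
        (fun i _ => div_nonneg (hx i) h0) (by rw [← Finset.sum_div, div_self h.ne'])
        fun i _ => subset_convexHull _ _ ⟨i, rfl⟩, ?_⟩
      simp only [Finset.smul_sum, smul_smul, mul_div_cancel₀ _ h.ne']

/-- changing the vertices by a matrix with column sums one -/
theorem Vm_mul (v : Fin (n + 1) → V n) {G : Matrix (Fin (n + 1)) (Fin (n + 1)) ℝ} (hG : CS G) :
    ∃ w : Fin (n + 1) → V n, Vm v * G = Vm w := by
  refine ⟨fun j i => (Vm v * G) i.succ j, Matrix.ext fun i j => ?_⟩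
  refine Fin.cases ?_ (fun i => rfl) i
  simpa [Vm, mul_apply] using hG j

theorem isSimplex_of_CK {K : Set (V n)} {v : Fin (n + 1) → V n} (hv : AffineIndependent ℝ v)
    {G : Matrix (Fin (n + 1)) (Fin (n + 1)) ℝ} (hG : CS G) (h0 : G.det ≠ 0)
    (h : CK K = im (Vm v) (im G (O (n + 1)))) : IsSimplex K := by
  obtain ⟨w, hw⟩ := Vm_mul v hG
  rw [im_im, hw, ← CK_simplex] at h
  refine ⟨w, Vm_det_ne.1 ?_, Set.ext fun x => ?_⟩
  · rw [← hw, det_mul]
    exact mul_ne_zero (Vm_det_ne.2 hv) h0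
  · rw [← cons_one_mem_CK, h, cons_one_mem_CK]

theorem IsSimplex.isCompact {T : Set (V n)} (h : IsSimplex T) : IsCompact T := by
  obtain ⟨v, -, rfl⟩ := h
  exact (finite_range v).isCompact_convexHull ℝ

theorem IsSimplex.convex {T : Set (V n)} (h : IsSimplex T) : Convex ℝ T := by
  obtain ⟨v, -, rfl⟩ := h
  exact convex_convexHull ℝ _

end Vale.Agent.P254
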