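import Vale.Agent.P254.ACore
import Vale.Agent.P254.ASim
import Vale.Agent.P254.ASch

open MeasureTheory Set Matrix

namespace Vale.Agent.P254

variable {n : ℕ}

theorem pg_mulVec {m : ℕ} (G : Matrix (Fin m) (Fin m) ℝ) (i : Fin m) :
    PG (fun x : V m => (G *ᵥ x) i) := by
  have : (fun x : V m => (G *ᵥ x) i) = fun x => ∑ j, G i j * x j := by
    funext x; simp [Matrix.mulVec, dotProduct]
  rw [this]
  exact PG.sum _ fun j _ => (PG.const _).mul (PG.coord j)

theorem E_quad {m : ℕ} (G : Matrix (Fin m) (Fin m) ℝ) {C : Set (V m)} (hC : MeasurableSet C)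
    (i j : Fin m) :
    E (C.indicator fun x => (G *ᵥ x) i * (G *ᵥ x) j) = (G * MM C * Gᵀ) i j := by
  have h1 : (C.indicator fun x => (G *ᵥ x) i * (G *ᵥ x) j) =
      fun x => ∑ b, ∑ a, (G i a * G j b) * C.indicator (fun x => x a * x b) x := by
    funext x
    by_cases hx : x ∈ C
    · simp only [indicator_of_mem hx, Matrix.mulVec, dotProduct, Finset.sum_mul_sum]
      rw [Finset.sum_comm]
      refine Finset.sum_congr rfl fun b _ => Finset.sum_congr rfl fun a _ => by ring
    · simp [indicator_of_notMem hx]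
  have hp : ∀ a b : Fin m, PG (fun x : V m =>
      (G i a * G j b) * C.indicator (fun x => x a * x b) x) := fun a b =>
    (PG.const _).mul (((PG.coord a).mul (PG.coord b)).indicator hC)
  rw [h1, E_sum _ fun b _ => PG.sum _ fun a _ => hp a b]
  simp only [Matrix.mul_apply, Matrix.transpose_apply]
  refine Finset.sum_congr rfl fun b _ => ?_
  rw [E_sum _ fun a _ => hp a b, Finset.sum_mul]
  refine Finset.sum_congr rfl fun a _ => ?_
  rw [E_mul_left]
  show G i a * G j b * MM C a b = _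
  ring

/-- the cone over `K` in the coordinates of the simplex -/
noncomputable def CV (v : Fin (n + 1) → V n) (K : Set (V n)) : Set (V (n + 1)) :=
  im (Vm v)⁻¹ (CK K)

theorem im_CV {v : Fin (n + 1) → V n} (hv : (Vm v).det ≠ 0) (K : Set (V n)) :
    im (Vm v) (CV v K) = CK K := by
  rw [CV, im_im, Matrix.mul_nonsing_inv _ (isUnit_iff_ne_zero.2 hv), im_one]

theorem CV_self {v : Fin (n + 1) → V n} (hv : (Vm v).det ≠ 0) :
    CV v (convexHull ℝ (range v)) = O (n + 1) := by
  rw [CV, CK_simplex, im_im, Matrix.nonsing_inv_mul _ (isUnit_iff_ne_zero.2 hv), im_one]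

theorem cone_CV {v : Fin (n + 1) → V n} (hv : (Vm v).det ≠ 0) {K : Set (V n)} (hK : IsCompact K)
    (hc : Convex ℝ K) (hs : K ⊆ convexHull ℝ (range v)) : Cone (CV v K) := by
  have h0 : ((Vm v)⁻¹).det ≠ 0 := by
    rw [Matrix.det_nonsing_inv, Ring.inverse_eq_inv']; exact inv_ne_zero hv
  refine ⟨(cone0_CK hK hc).im h0, ?_⟩
  rw [← CV_self hv]
  exact image_mono (CK_mono hs)

theorem radial {v : Fin (n + 1) → V n} (hv : (Vm v).det ≠ 0) {K : Set (V n)} (hK : IsCompact K)
    (hc : Convex ℝ K) (hs : K ⊆ convexHull ℝ (range v)) {f : V (n + 1) → ℝ} {d : ℕ}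
    (hd : ∀ a : ℝ, 0 < a → ∀ x, f (a • x) = a ^ d * f x) (hf : PG fun x => f (Vm v *ᵥ x)) :
    ((n + d).factorial : ℝ) * ∫ x in K, f (Fin.cons 1 x) =
      |(Vm v).det| * E ((CV v K).indicator fun x => f (Vm v *ᵥ x)) := by
  have hC := cone_CV hv hK hc hs
  have hpt : ∀ x, (CK K).indicator (fun X => Real.exp (-X 0) * f X) (Vm v *ᵥ x) =
      wt x * (CV v K).indicator (fun x => f (Vm v *ᵥ x)) x := by
    intro x
    have hm : Vm v *ᵥ x ∈ CK K ↔ x ∈ CV v K := by rw [← im_CV hv K]; exact mem_im hv x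
    by_cases hx : x ∈ CV v K
    · rw [indicator_of_mem (hm.2 hx), indicator_of_mem hx, wt_of_mem (hC.sub hx),
        Vm_mulVec_zero]
    · rw [indicator_of_notMem (fun h => hx (hm.1 h)), indicator_of_notMem hx, mul_zero]
  have hi : Integrable ((CK K).indicator fun X => Real.exp (-X 0) * f X) := by
    rw [← integrable_mulVec hv]
    simp only [hpt]
    exact (hf.indicator hC.closed.measurableSet).integrable
  rw [← IK_eq hK hd hi, IK, integral_mulVec hv]
  simp only [hpt]
  rfl

theorem vol_eq {v : Fin (n + 1) → V n} (hv : (Vm v).det ≠ 0) {K : Set (V n)} (hK : IsCompact K)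
    (hc : Convex ℝ K) (hs : K ⊆ convexHull ℝ (range v)) :
    (n.factorial : ℝ) * (volume K).toReal = |(Vm v).det| * ph (CV v K) := by
  have := radial hv hK hc hs (f := fun _ => 1) (d := 0) (by simp) (PG.const 1)
  simpa [ph, Measure.real] using this

/-- the normalising constant -/
noncomputable def kap (n : ℕ) : ℝ :=
  (n.factorial : ℝ) ^ (n + 3) / ((n + 2).factorial : ℝ) ^ (n + 1)

theorem kap_pos (n : ℕ) : 0 < kap n := by
  have h1 : (0 : ℝ) < n.factorial := by exact_mod_cast n.factorial_pos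
  have h2 : (0 : ℝ) < (n + 2).factorial := by exact_mod_cast (n + 2).factorial_pos
  unfold kap; positivity

theorem ratio_eq {v : Fin (n + 1) → V n} (hv : (Vm v).det ≠ 0) {K : Set (V n)} (hK : IsCompact K)
    (hc : Convex ℝ K) (hs : K ⊆ convexHull ℝ (range v)) (h0 : 0 < (volume K).toReal) :
    (cov K).det / (volume K).toReal ^ 2 =
      kap n * ((MM (CV v K)).det / ph (CV v K) ^ (n + 3)) := by
  have hC := cone_CV hv hK hc hs
  have h1 : (0 : ℝ) < n.factorial := by exact_mod_cast n.factorial_pos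
  have h2 : (0 : ℝ) < (n + 2).factorial := by exact_mod_cast (n + 2).factorial_pos
  have hg : 0 < |(Vm v).det| := abs_pos.2 hv
  have hM : ((n + 2).factorial : ℝ) • (Matrix.of fun i j : Fin (n + 1) =>
      ∫ x in K, (Fin.cons 1 x : V (n + 1)) i * (Fin.cons 1 x : V (n + 1)) j) =
      |(Vm v).det| • (Vm v * MM (CV v K) * (Vm v)ᵀ) := by
    ext i j
    have := radial hv hK hc hs (f := fun X => X i * X j) (d := 2)
      (fun a _ x => by simp only [Pi.smul_apply, smul_eq_mul]; ring)
      ((pg_mulVec _ i).mul (pg_mulVec _ j))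
    rw [E_quad _ hC.closed.measurableSet] at this
    simpa using this
  have hd := congrArg Matrix.det hM
  have hm := det_moment hK h0
  rw [Matrix.det_smul, Matrix.det_smul, Matrix.det_mul, Matrix.det_mul, Matrix.det_transpose,
    Fintype.card_fin] at hd
  erw [hm] at hd
  have hv' := vol_eq hv hK hc hs
  have hp : 0 < ph (CV v K) := by
    by_contra hn
    have : |(Vm v).det| * ph (CV v K) ≤ 0 := mul_nonpos_of_nonneg_of_nonpos hg.le (not_lt.1 hn)
    have := mul_pos h1 h0
    linarith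
  have hsq : (Vm v).det * (MM (CV v K)).det * (Vm v).det =
      |(Vm v).det| ^ 2 * (MM (CV v K)).det := by rw [sq_abs]; ring
  rw [hsq] at hd
  have hph : ph (CV v K) = n.factorial * (volume K).toReal / |(Vm v).det| := by
    rw [hv']; field_simp
  have hcov : (cov K).det = |(Vm v).det| ^ (n + 1) * (|(Vm v).det| ^ 2 * (MM (CV v K)).det) /
      (((n + 2).factorial : ℝ) ^ (n + 1) * (volume K).toReal ^ (n + 1)) := by
    rw [← hd]; field_simp
  rw [hcov, hph, kap, div_pow, mul_pow]
  field_simp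
  ring

theorem vol_simplex {v : Fin (n + 1) → V n} (hv : (Vm v).det ≠ 0) :
    (n.factorial : ℝ) * (volume (convexHull ℝ (range v))).toReal = |(Vm v).det| := by
  have hT : IsSimplex (convexHull ℝ (range v)) := ⟨v, Vm_det_ne.1 hv, rfl⟩
  rw [vol_eq hv hT.isCompact hT.convex subset_rfl, CV_self hv, ph_O, mul_one]

theorem vol_simplex_pos {v : Fin (n + 1) → V n} (hv : (Vm v).det ≠ 0) :
    0 < (volume (convexHull ℝ (range v))).toReal := by
  have h1 : (0 : ℝ) < n.factorial := by exact_mod_cast n.factorial_pos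
  have := vol_simplex hv
  have hg : 0 < |(Vm v).det| := abs_pos.2 hv
  rw [← this] at hg
  exact (mul_pos_iff_of_pos_left h1).1 hg

theorem isoConst_simplex {T : Set (V n)} (hT : IsSimplex T) :
    isoConst T = (kap n * ((n : ℝ) + 2)) ^ (1 / (2 * (n : ℝ))) := by
  obtain ⟨v, hv, rfl⟩ := id hT
  have hv' := Vm_det_ne.2 hv
  rw [isoConst, ratio_eq hv' hT.isCompact hT.convex subset_rfl (vol_simplex_pos hv'),
    CV_self hv', ph_O, det_MM_O]
  congr 2
  push_cast; ring

theorem local_vol (n : ℕ) (hn : 1 ≤ n) : ∃ η : ℝ, 0 < η ∧ η < 1 ∧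
    ∀ K T : Set (V n), IsCompact K → Convex ℝ K → IsSimplex T → K ⊆ T →
      (1 - η) * (volume T).toReal ≤ (volume K).toReal →
      isoConst K ≤ isoConst T ∧ (isoConst K = isoConst T → IsSimplex K) := by
  obtain ⟨η, h0, h1, hcore⟩ := core n
  refine ⟨η, h0, h1, fun K T hK hc hT hs hvol => ?_⟩
  rw [isoConst_simplex hT]
  obtain ⟨v, hv, rfl⟩ := hT
  have hv' := Vm_det_ne.2 hv
  have hC := cone_CV hv' hK hc hs
  have hf : (0 : ℝ) < n.factorial := by exact_mod_cast n.factorial_pos
  have hg : 0 < |(Vm v).det| := abs_pos.2 hv'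
  have hT0 := vol_simplex_pos hv'
  have hK0 : 0 < (volume K).toReal := lt_of_lt_of_le (mul_pos (by linarith) hT0) hvol
  have e1 := vol_eq hv' hK hc hs
  have e2 := vol_simplex hv'
  have hph : 1 - η ≤ ph (CV v K) := by
    have : |(Vm v).det| * (1 - η) ≤ |(Vm v).det| * ph (CV v K) := by
      rw [← e1, ← e2]
      nlinarith [mul_le_mul_of_nonneg_left hvol hf.le]
    exact le_of_mul_le_mul_left this hg
  have hp : 0 < ph (CV v K) ^ (n + 3) := pow_pos (by linarith) _
  obtain ⟨hle, heq⟩ := hcore _ hC hph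
  have hr := ratio_eq hv' hK hc hs hK0
  have hnn : 0 ≤ (cov K).det / (volume K).toReal ^ 2 :=
    div_nonneg (det_cov_nonneg hK) (by positivity)
  have hn' : (0 : ℝ) < n := by exact_mod_cast hn
  have he : (0 : ℝ) < 1 / (2 * (n : ℝ)) := by positivity
  have hk := kap_pos n
  have hle' : (cov K).det / (volume K).toReal ^ 2 ≤ kap n * ((n : ℝ) + 2) := by
    rw [hr]
    exact mul_le_mul_of_nonneg_left ((div_le_iff₀ hp).2 hle) hk.le
  refine ⟨Real.rpow_le_rpow hnn hle' he.le, fun h => ?_⟩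
  have h2 : (cov K).det / (volume K).toReal ^ 2 = kap n * ((n : ℝ) + 2) := by
    by_contra hne
    exact absurd h (Real.rpow_lt_rpow hnn (lt_of_le_of_ne hle' hne) he).ne
  rw [hr] at h2
  have h3 := (div_eq_iff hp.ne').1 (mul_left_cancel₀ hk.ne' h2)
  obtain ⟨G, hG, hG0, hGe⟩ := heq h3
  exact isSimplex_of_CK hv hG hG0 (by rw [← hGe, im_CV hv'])

end Vale.Agent.P254
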