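import Vale.Agent.P254.AInt

open MeasureTheory Set Matrix

namespace Vale.Agent.P254

variable {k : ℕ}

theorem afub_mp (j : Fin (k + 1)) :
    MeasurePreserving (MeasurableEquiv.piFinSuccAbove (fun _ : Fin (k + 1) => ℝ) j).symm
      (volume.prod volume) volume :=
  (volume_preserving_piFinSuccAbove (fun _ : Fin (k + 1) => ℝ) j).symm _

theorem afub_int (j : Fin (k + 1)) {F : V (k + 1) → ℝ} (hF : Integrable F) :
    Integrable (fun p : ℝ × V k => F (j.insertNth p.1 p.2)) (volume.prod volume) :=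
  (afub_mp j).integrable_comp_of_integrable hF

/-- Fubini in one distinguished coordinate -/
theorem integral_insertNth (j : Fin (k + 1)) {F : V (k + 1) → ℝ} (hF : Integrable F) :
    ∫ x, F x = ∫ t : ℝ, ∫ z : V k, F (j.insertNth t z) :=
  ((afub_mp j).integral_comp' F).symm.trans (integral_prod _ (afub_int j hF))

theorem integrable_insertNth (j : Fin (k + 1)) {F : V (k + 1) → ℝ} (hF : Integrable F) :
    Integrable (fun p : ℝ × V k => F (j.insertNth p.1 p.2)) (volume.prod volume) := afub_int j hF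

theorem cons_mem_O {s : ℝ} {z : V k} : (Fin.cons s z : V (k + 1)) ∈ O (k + 1) ↔ 0 ≤ s ∧ z ∈ O k :=
  Fin.forall_fin_succ

theorem R_cons (s : ℝ) (z : V k) : R (Fin.cons s z : V (k + 1)) = s + R z := by
  simp only [R, Fin.sum_univ_succ, Fin.cons_zero, Fin.cons_succ]

theorem SL_cons (s : ℝ) (z : V k) : SL (Fin.cons s z : V (k + 1)) = ell s + SL z := by
  simp only [SL, Fin.sum_univ_succ, Fin.cons_zero, Fin.cons_succ]

theorem afub_le {f : V (k + 1) → ℝ} (hf : PG f) : ∃ (C : ℝ) (p : ℕ), ∀ s : ℝ, 0 ≤ s →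
    ∀ z ∈ O k, |f (Fin.cons s z)| ≤ C * (1 + s) ^ p * (1 + R z) ^ p := by
  obtain ⟨C, p, h⟩ := hf.2
  refine ⟨|C|, p, fun s hs z hz => (h _ (cons_mem_O.2 ⟨hs, hz⟩)).trans ?_⟩
  have h1 := R_nonneg hz
  rw [R_cons, mul_assoc, ← mul_pow]
  exact mul_le_mul (le_abs_self C) (pow_le_pow_left₀ (by positivity)
    (by nlinarith [mul_nonneg hs h1]) p) (by positivity) (abs_nonneg C)

theorem PG.cons {f : V (k + 1) → ℝ} (hf : PG f) {s : ℝ} (hs : 0 ≤ s) :
    PG (fun z : V k => f (Fin.cons s z)) := by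
  obtain ⟨C, p, h⟩ := afub_le hf
  refine ⟨hf.1.comp (measurable_pi_lambda _ fun i => ?_), _, p, h s hs⟩
  refine Fin.cases ?_ (fun i => ?_) i
  · exact measurable_const
  · exact measurable_pi_apply i

theorem afub_in (f : V (k + 1) → ℝ) (s : ℝ) :
    ∫ z : V k, wt ((0 : Fin (k + 1)).insertNth s z) * f ((0 : Fin (k + 1)).insertNth s z) =
      (Ici (0 : ℝ)).indicator
        (fun s => Real.exp (-s) * E (fun z : V k => f (Fin.cons s z))) s := by
  simp only [Fin.insertNth_zero']
  by_cases hs : 0 ≤ s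
  · rw [indicator_of_mem (show s ∈ Ici (0 : ℝ) from hs), E, ← integral_const_mul]
    refine integral_congr_ae (ae_of_all _ fun z => ?_)
    by_cases hz : z ∈ O k
    · simp only [wt_of_mem hz, wt_of_mem (cons_mem_O.2 ⟨hs, hz⟩), R_cons, neg_add, Real.exp_add,
        mul_assoc]
    · simp only [wt_of_not_mem hz, wt_of_not_mem fun h => hz (cons_mem_O.1 h).2, zero_mul,
        mul_zero]
  · rw [indicator_of_notMem (show s ∉ Ici (0 : ℝ) from hs)]
    simp only [wt_of_not_mem fun h => hs (cons_mem_O.1 h).1, zero_mul, integral_zero]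

theorem E_succ {f : V (k + 1) → ℝ} (hf : PG f) :
    E f = ∫ s in Ioi (0 : ℝ), Real.exp (-s) * E (fun z : V k => f (Fin.cons s z)) := by
  rw [E, integral_insertNth 0 hf.integrable, ← integral_Ici_eq_integral_Ioi,
    ← integral_indicator measurableSet_Ici]
  exact integral_congr_ae (ae_of_all _ fun s => afub_in f s)

theorem integrableOn_E_cons {f : V (k + 1) → ℝ} (hf : PG f) :
    IntegrableOn (fun s : ℝ => Real.exp (-s) * E (fun z : V k => f (Fin.cons s z))) (Ioi 0) :=
  ((integrable_indicator_iff measurableSet_Ici).1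
    ((afub_int 0 hf.integrable).integral_prod_left.congr
      (ae_of_all _ fun s => afub_in f s))).mono_set Ioi_subset_Ici_self

theorem afub_pow (p : ℕ) : PG fun z : V k => (1 + R z) ^ p := by
  induction p with
  | zero => simpa only [pow_zero] using PG.const (1 : ℝ)
  | succ p ih => simpa only [pow_succ] using ih.mul ((PG.const 1).add PG.R)

/-- polynomial growth of the one-variable expectation -/
theorem E_cons_le {f : V (k + 1) → ℝ} (hf : PG f) : ∃ (C : ℝ) (p : ℕ), ∀ s : ℝ, 0 ≤ s →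
    |E (fun z : V k => f (Fin.cons s z))| ≤ C * (1 + s) ^ p := by
  obtain ⟨C, p, h⟩ := afub_le hf
  refine ⟨C * E fun z : V k => (1 + R z) ^ p, p, fun s hs => ?_⟩
  have h1 := E_mono (hf.cons hs) ((PG.const (C * (1 + s) ^ p)).mul (afub_pow p))
    fun z hz => (abs_le.1 (h s hs z hz)).2
  have h2 := E_mono ((PG.const (-(C * (1 + s) ^ p))).mul (afub_pow p)) (hf.cons hs)
    fun z hz => by rw [neg_mul]; exact (abs_le.1 (h s hs z hz)).1
  rw [E_mul_left] at h1 h2
  rw [abs_le]
  constructor <;> linarith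

theorem E_zero (f : V 0 → ℝ) : E f = f 0 := by
  rw [E, Measure.volume_pi_eq_dirac 0, integral_dirac, wt_of_mem fun i => i.elim0]
  simp [R]

theorem E_one {m : ℕ} : E (fun _ : V m => (1 : ℝ)) = 1 := by
  induction m with
  | zero => exact E_zero _
  | succ m ih =>
    rw [E_succ (PG.const 1)]
    simp only [ih, mul_one]
    exact integral_exp_neg_Ioi_zero

theorem E_const {m : ℕ} (c : ℝ) : E (fun _ : V m => c) = c := by
  have h := E_mul_left c fun _ : V m => (1 : ℝ)
  rwa [E_one, mul_one] at h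

end Vale.Agent.P254
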