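import Vale.Agent.P254.AFinal

open MeasureTheory Set Matrix Filter Topology

namespace Vale.Agent.P254

variable {n : ℕ}

theorem continuous_det_Vm : Continuous fun v : Fin (n + 1) → V n => |(Vm v).det| := by
  refine Continuous.abs (Continuous.matrix_det ?_)
  refine continuous_pi fun i => continuous_pi fun j => ?_
  refine Fin.cases ?_ (fun i => ?_) i
  · exact continuous_const
  · simp only [Vm, Fin.cons_succ]
    fun_prop

theorem interior_simplex {v : Fin (n + 1) → V n} (hv : AffineIndependent ℝ v) :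
    (interior (convexHull ℝ (range v))).Nonempty := by
  rw [interior_convexHull_nonempty_iff_affineSpan_eq_top]
  rw [hv.affineSpan_eq_top_iff_card_eq_finrank_add_one]
  simp

theorem local_haus (hn : 1 ≤ n) {T : Set (V n)} (hT : IsSimplex T) : ∃ δ : ℝ, 0 < δ ∧
    ∀ K : Set (V n), IsCompact K → Convex ℝ K → K.Nonempty → Metric.hausdorffDist K T < δ →
      isoConst K ≤ isoConst T ∧ (isoConst K = isoConst T → IsSimplex K) := by
  obtain ⟨η, h0, h1, hloc⟩ := local_vol n hn
  have hTc := hT.isCompact
  have hTv := hT.convex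
  obtain ⟨v, hv, rfl⟩ := id hT
  have hv' := Vm_det_ne.2 hv
  have hg : 0 < |(Vm v).det| := abs_pos.2 hv'
  have hf : (0 : ℝ) < n.factorial := by exact_mod_cast n.factorial_pos
  obtain ⟨c, hc⟩ := interior_simplex hv
  obtain ⟨t, ht, ht1⟩ : ∃ t : ℝ, (1 - η) * t ^ n < 1 - η / 2 ∧ 1 < t := by
    have hcont : Continuous fun t : ℝ => (1 - η) * t ^ n := by fun_prop
    have : ∀ᶠ t : ℝ in 𝓝 1, (1 - η) * t ^ n < 1 - η / 2 :=
      hcont.continuousAt.eventually_lt continuousAt_const (by simp; linarith)
    exact ((this.filter_mono nhdsWithin_le_nhds).and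
      (self_mem_nhdsWithin (a := (1 : ℝ)) (s := Ioi 1))).exists
  set T' := AffineMap.homothety c t '' convexHull ℝ (range v) with hT'
  have hT's : IsSimplex T' := by
    refine ⟨AffineMap.homothety c t ∘ v, hv.map' _
      (AffineMap.homothety_injective c (by linarith)), ?_⟩
    rw [hT', AffineMap.image_convexHull, range_comp]
  have hsub : convexHull ℝ (range v) ⊆ interior T' :=
    subset_closure.trans (hTv.closure_subset_interior_image_homothety_of_one_lt hc t ht1)
  obtain ⟨δ1, hδ1, hth⟩ := hTc.exists_thickening_subset_open isOpen_interior hsub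
  obtain ⟨δ2, hδ2, hdet⟩ : ∃ δ2 > 0, ∀ w : Fin (n + 1) → V n, dist w v < δ2 →
      (1 - η / 2) * |(Vm v).det| < |(Vm w).det| := by
    have : ∀ᶠ w in 𝓝 v, (1 - η / 2) * |(Vm v).det| < |(Vm w).det| :=
      continuousAt_const.eventually_lt continuous_det_Vm.continuousAt (by nlinarith)
    exact Metric.eventually_nhds_iff.1 this
  refine ⟨min δ1 δ2, lt_min hδ1 hδ2, fun K hK hKc hKn hd => ?_⟩
  have hfin := Metric.hausdorffEDist_ne_top_of_nonempty_of_bounded hKn
    ⟨c, interior_subset hc⟩ hK.isBounded hTc.isBounded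
  have hKT : K ⊆ T' := fun x hx => by
    obtain ⟨y, hy, hxy⟩ := Metric.exists_dist_lt_of_hausdorffDist_lt hx hd hfin
    exact interior_subset (hth (Metric.mem_thickening_iff.2
      ⟨y, hy, hxy.trans_le (min_le_left _ _)⟩))
  have hw : ∀ j, ∃ x ∈ K, dist x (v j) < min δ1 δ2 := fun j =>
    Metric.exists_dist_lt_of_hausdorffDist_lt' (subset_convexHull ℝ _ (mem_range_self j)) hd hfin
  choose w hwK hwd using hw
  have hwv : dist w v < δ2 :=
    (dist_pi_lt_iff hδ2).2 fun j => (hwd j).trans_le (min_le_right _ _)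
  have hdw := hdet w hwv
  have hw0 : (Vm w).det ≠ 0 := abs_pos.1 (lt_trans (mul_pos (by linarith) hg) hdw)
  have hvw : (volume (convexHull ℝ (range w))).toReal ≤ (volume K).toReal :=
    ENNReal.toReal_mono hK.measure_lt_top.ne
      (measure_mono (convexHull_min (range_subset_iff.2 hwK) hKc))
  have hvT' : (volume T').toReal = t ^ n * (volume (convexHull ℝ (range v))).toReal := by
    rw [hT', Measure.addHaar_image_homothety, ENNReal.toReal_mul,
      ENNReal.toReal_ofReal (abs_nonneg _), abs_of_pos (pow_pos (by linarith) _)]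
    simp
  have e1 := vol_simplex hv'
  have e2 := vol_simplex hw0
  have hT0 := vol_simplex_pos hv'
  have hvol : (1 - η) * (volume T').toReal ≤ (volume K).toReal := by
    rw [hvT', ← mul_assoc]
    refine (mul_le_mul_of_nonneg_right ht.le hT0.le).trans (le_trans ?_ hvw)
    refine le_of_mul_le_mul_left ?_ hf
    rw [e2, mul_left_comm, e1]
    exact hdw.le
  have := hloc K T' hK hKc hT's hKT hvol
  rwa [isoConst_simplex hT's, ← isoConst_simplex hT] at this

end Vale.Agent.P254
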