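import Vale.Agent.P254.AMom

open MeasureTheory Set Matrix

namespace Vale.Agent.P254

variable {m : ℕ}

theorem ahom_wt {a : ℝ} (ha : 0 < a) (x : V m) :
    wt (a • x) = (O m).indicator (fun x => Real.exp (-(a * R x))) x := by
  by_cases hx : x ∈ O m
  · have h : a • x ∈ O m := fun i => mul_nonneg ha.le (hx i)
    rw [wt_of_mem h, indicator_of_mem hx, R_smul]
  · have h : a • x ∉ O m := fun k => hx fun i => nonneg_of_mul_nonneg_right (k i) ha
    rw [wt_of_not_mem h, indicator_of_notMem hx]

theorem ahom_scale {f : V m → ℝ} {d : ℕ} (hd : ∀ a : ℝ, 0 < a → ∀ x, f (a • x) = a ^ d * f x)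
    {a : ℝ} (ha : 0 < a) :
    ∫ x, (O m).indicator (fun x => Real.exp (-(a * R x))) x * f x = (a ^ (m + d))⁻¹ * E f := by
  have h := Measure.integral_comp_smul_of_nonneg (volume : Measure (V m)) (fun x => wt x * f x) a
    (hR := ha.le)
  simp only [ahom_wt ha, hd a ha, mul_left_comm _ (a ^ d), integral_const_mul,
    Module.finrank_fin_fun, smul_eq_mul] at h
  rw [pow_add, mul_comm (a ^ m), mul_inv, mul_assoc, eq_inv_mul_iff_mul_eq₀ (pow_pos ha d).ne']
  exact h

theorem ahom_le {f : V m → ℝ} (hf : PG f) (h0 : ∀ x ∈ O m, 0 ≤ f x) {a : ℝ} (ha : 0 < a) :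
    E f - (a - 1) * E (fun x => f x * R x) ≤
      ∫ x, (O m).indicator (fun x => Real.exp (-(a * R x))) x * f x := by
  have h1 := (PG.const (a - 1)).mul (hf.mul PG.R)
  rw [← E_mul_left, ← E_sub hf h1]
  refine integral_mono (hf.sub h1).integrable (hf.integrable_rate ha) fun x => ?_
  by_cases hx : x ∈ O m
  · have h2 := Real.add_one_le_exp (-((a - 1) * R x))
    have h3 : Real.exp (-(a * R x)) = Real.exp (-R x) * Real.exp (-((a - 1) * R x)) := by
      rw [← Real.exp_add]
      congr 1
      ring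
    have h4 := mul_le_mul_of_nonneg_left h2 (mul_nonneg (Real.exp_pos (-R x)).le (h0 x hx))
    simp only [wt_of_mem hx, indicator_of_mem hx, h3]
    linarith
  · simp only [wt_of_not_mem hx, indicator_of_notMem hx, zero_mul, le_refl]

/-- Euler identity for nonnegative homogeneous functions -/
theorem E_hom {f : V m → ℝ} (hf : PG f) (h0 : ∀ x ∈ O m, 0 ≤ f x) {d : ℕ}
    (hd : ∀ a : ℝ, 0 < a → ∀ x, f (a • x) = a ^ d * f x) :
    E (fun x => f x * R x) = ((m : ℝ) + d) * E f := by
  have h1 : IsLocalMin (fun a : ℝ => (a ^ (m + d))⁻¹ * E f + (a - 1) * E (fun x => f x * R x))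
      1 := by
    filter_upwards [Ioi_mem_nhds (zero_lt_one' ℝ)] with a ha
    have k := ahom_le hf h0 ha
    rw [ahom_scale hd ha] at k
    simp only [one_pow, inv_one, one_mul, sub_self, zero_mul, add_zero]
    linarith
  have h2 := ((((hasDerivAt_pow (m + d) (1 : ℝ)).inv (by simp)).mul_const (E f)).add
    (((hasDerivAt_id' (1 : ℝ)).sub_const 1).mul_const (E fun x => f x * R x)))
  have h3 := h1.hasDerivAt_eq_zero h2
  simp only [one_pow, mul_one, div_one, one_mul, Nat.cast_add] at h3
  linarith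

end Vale.Agent.P254
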