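import Vale.Agent.P254.Base

open MeasureTheory Set Matrix

namespace Vale.Agent.P254

variable {m : ℕ} {f g : V m → ℝ}

theorem aint_closed (m : ℕ) : IsClosed (O m) := by
  have h : O m = ⋂ i, {x : V m | 0 ≤ x i} := by
    ext x
    simp [O]
  rw [h]
  exact isClosed_iInter fun i => isClosed_le continuous_const (continuous_apply i)

theorem measurableSet_O (m : ℕ) : MeasurableSet (O m) := (aint_closed m).measurableSet

theorem isClosed_O (m : ℕ) : IsClosed (O m) := aint_closed m

theorem cone_O (m : ℕ) : Cone (O m) where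
  closed := aint_closed m
  conv := fun _ hx _ hy _ _ ha hb _ i =>
    add_nonneg (mul_nonneg ha (hx i)) (mul_nonneg hb (hy i))
  smul := fun _ ha _ hx i => mul_nonneg ha.le (hx i)
  sub := subset_rfl

theorem R_nonneg {x : V m} (hx : x ∈ O m) : 0 ≤ R x := Finset.sum_nonneg fun i _ => hx i

theorem le_R {x : V m} (hx : x ∈ O m) (i : Fin m) : x i ≤ R x :=
  Finset.single_le_sum (f := x) (fun j _ => hx j) (Finset.mem_univ i)

theorem R_add (x y : V m) : R (x + y) = R x + R y := by
  simp [R, Finset.sum_add_distrib]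

theorem R_smul (a : ℝ) (x : V m) : R (a • x) = a * R x := by
  simp [R, Finset.mul_sum]

theorem R_one : R (one : V m) = m := by
  simp [R, one]

theorem continuous_R : Continuous (R : V m → ℝ) :=
  continuous_finsetSum _ fun i _ => continuous_apply i

theorem wt_nonneg (x : V m) : 0 ≤ wt x :=
  indicator_nonneg (fun _ _ => (Real.exp_pos _).le) x

theorem wt_of_mem {x : V m} (hx : x ∈ O m) : wt x = Real.exp (-R x) := indicator_of_mem hx _

theorem wt_of_not_mem {x : V m} (hx : x ∉ O m) : wt x = 0 := indicator_of_notMem hx _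

theorem aint_meas (a : ℝ) :
    Measurable ((O m).indicator fun x : V m => Real.exp (-(a * R x))) :=
  (Real.continuous_exp.comp (continuous_const.mul continuous_R).neg).measurable.indicator
    (measurableSet_O m)

theorem measurable_wt : Measurable (wt : V m → ℝ) :=
  (Real.continuous_exp.comp continuous_R.neg).measurable.indicator (measurableSet_O m)

theorem aint_exp {a : ℝ} (ha : 0 < a) :
    Integrable ((O m).indicator fun x : V m => Real.exp (-(a * R x))) := by
  have h1 : Integrable ((Ici (0 : ℝ)).indicator fun s : ℝ => Real.exp (-a * s)) := by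
    rw [integrable_indicator_iff measurableSet_Ici, integrableOn_Ici_iff_integrableOn_Ioi]
    exact exp_neg_integrableOn_Ioi 0 ha
  have h2 := Integrable.fintype_prod (ι := Fin m)
    (f := fun _ => (Ici (0 : ℝ)).indicator fun s : ℝ => Real.exp (-a * s))
    (μ := fun _ => volume) fun _ => h1
  have h3 : ((O m).indicator fun x : V m => Real.exp (-(a * R x))) =
      fun x : V m => ∏ i, (Ici (0 : ℝ)).indicator (fun s : ℝ => Real.exp (-a * s)) (x i) := by
    funext x
    by_cases hx : x ∈ O m
    · rw [indicator_of_mem hx, Finset.prod_congr rfl fun i _ =>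
        indicator_of_mem (show x i ∈ Ici (0 : ℝ) from hx i) _, ← Real.exp_sum, ← Finset.mul_sum,
        neg_mul, R]
    · rw [indicator_of_notMem hx]
      obtain ⟨i, hi⟩ := not_forall.1 hx
      exact (Finset.prod_eq_zero (Finset.mem_univ i)
        (indicator_of_notMem (show x i ∉ Ici (0 : ℝ) from hi) _)).symm
  rw [h3]
  exact h2

theorem aint_nonneg {C : ℝ} {p : ℕ} (h : ∀ x ∈ O m, |f x| ≤ C * (1 + R x) ^ p) : 0 ≤ C := by
  have h1 := (abs_nonneg _).trans (h 0 fun _ => le_rfl)
  simpa [R] using h1

/-- integrability with any positive exponential rate -/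
theorem PG.integrable_rate (hf : PG f) {a : ℝ} (ha : 0 < a) :
    Integrable (fun x => (O m).indicator (fun x => Real.exp (-(a * R x))) x * f x) := by
  obtain ⟨hm, C, p, h⟩ := hf
  have hC := aint_nonneg h
  refine ((aint_exp (m := m) (half_pos ha)).const_mul
    (C * (p.factorial / (a / 2) ^ p * Real.exp (a / 2)))).mono'
    ((aint_meas a).mul hm).aestronglyMeasurable (Filter.Eventually.of_forall fun x => ?_)
  by_cases hx : x ∈ O m
  · rw [indicator_of_mem hx, indicator_of_mem hx, Real.norm_eq_abs, abs_mul,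
      abs_of_pos (Real.exp_pos _)]
    have h0 := R_nonneg hx
    have h1 := Real.pow_div_factorial_le_exp (a / 2 * (1 + R x)) (by positivity) p
    have h2 : (1 + R x) ^ p ≤ p.factorial / (a / 2) ^ p * Real.exp (a / 2 * (1 + R x)) := by
      rw [div_le_iff₀ (by positivity), mul_pow] at h1
      rw [div_mul_eq_mul_div, le_div_iff₀ (by positivity)]
      linarith
    have h3 : Real.exp (-(a * R x)) * Real.exp (a / 2 * (1 + R x)) =
        Real.exp (a / 2) * Real.exp (-(a / 2 * R x)) := by
      rw [← Real.exp_add, ← Real.exp_add]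
      exact congrArg Real.exp (by ring)
    calc Real.exp (-(a * R x)) * |f x|
        ≤ Real.exp (-(a * R x)) * (C * (p.factorial / (a / 2) ^ p *
            Real.exp (a / 2 * (1 + R x)))) :=
          mul_le_mul_of_nonneg_left ((h x hx).trans (mul_le_mul_of_nonneg_left h2 hC))
            (Real.exp_pos _).le
      _ = C * (p.factorial / (a / 2) ^ p) *
            (Real.exp (-(a * R x)) * Real.exp (a / 2 * (1 + R x))) := by ring
      _ = _ := by rw [h3]; ring
  · simp [indicator_of_notMem hx]

theorem PG.integrable (hf : PG f) : Integrable (fun x => wt x * f x) := by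
  have h := hf.integrable_rate one_pos
  simp only [one_mul] at h
  exact h

theorem PG.const (c : ℝ) : PG (fun _ : V m => c) :=
  ⟨measurable_const, |c|, 0, fun _ _ => by simp⟩

theorem PG.coord (i : Fin m) : PG (fun x : V m => x i) :=
  ⟨measurable_pi_apply i, 1, 1, fun x hx => by
    rw [abs_of_nonneg (hx i)]
    linarith [le_R hx i]⟩

theorem PG.R : PG (R : V m → ℝ) :=
  ⟨continuous_R.measurable, 1, 1, fun x hx => by
    rw [abs_of_nonneg (R_nonneg hx)]
    linarith⟩

theorem aint_two (hf : PG f) (hg : PG g) :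
    ∃ (C : ℝ) (p : ℕ), ∀ x ∈ O m, |f x| + |g x| ≤ C * (1 + R x) ^ p := by
  obtain ⟨-, C, p, h⟩ := hf
  obtain ⟨-, D, q, k⟩ := hg
  refine ⟨C + D, max p q, fun x hx => ?_⟩
  have h0 : 1 ≤ 1 + R x := by linarith [R_nonneg hx]
  have h1 := mul_le_mul_of_nonneg_left (pow_le_pow_right₀ h0 (le_max_left p q)) (aint_nonneg h)
  have h2 := mul_le_mul_of_nonneg_left (pow_le_pow_right₀ h0 (le_max_right p q)) (aint_nonneg k)
  linarith [h x hx, k x hx]

theorem PG.add (hf : PG f) (hg : PG g) : PG (fun x => f x + g x) := by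
  obtain ⟨C, p, h⟩ := aint_two hf hg
  exact ⟨hf.1.add hg.1, C, p, fun x hx => (abs_add_le _ _).trans (h x hx)⟩

theorem PG.sub (hf : PG f) (hg : PG g) : PG (fun x => f x - g x) := by
  obtain ⟨C, p, h⟩ := aint_two hf hg
  exact ⟨hf.1.sub hg.1, C, p, fun x hx => (abs_sub _ _).trans (h x hx)⟩

theorem PG.mul (hf : PG f) (hg : PG g) : PG (fun x => f x * g x) := by
  obtain ⟨hm, C, p, h⟩ := hf
  obtain ⟨hm', D, q, k⟩ := hg
  refine ⟨hm.mul hm', C * D, p + q, fun x hx => ?_⟩
  rw [abs_mul, pow_add, mul_mul_mul_comm]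
  exact mul_le_mul (h x hx) (k x hx) (abs_nonneg _) ((abs_nonneg _).trans (h x hx))

theorem PG.sum {ι : Type} (s : Finset ι) {F : ι → V m → ℝ} (h : ∀ i ∈ s, PG (F i)) :
    PG (fun x => ∑ i ∈ s, F i x) := by
  classical
  induction s using Finset.induction_on with
  | empty => simpa using PG.const (m := m) 0
  | insert i s hi ih =>
    simp only [Finset.sum_insert hi]
    exact (h i (Finset.mem_insert_self i s)).add
      (ih fun j hj => h j (Finset.mem_insert_of_mem hj))

theorem PG.indicator (hf : PG f) {s : Set (V m)} (hs : MeasurableSet s) :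
    PG (s.indicator f) := by
  obtain ⟨hm, C, p, h⟩ := hf
  refine ⟨hm.indicator hs, C, p, fun x hx => le_trans ?_ (h x hx)⟩
  by_cases k : x ∈ s
  · rw [indicator_of_mem k]
  · rw [indicator_of_notMem k, abs_zero]
    exact abs_nonneg _

theorem PG.ell (i : Fin m) : PG (fun x : V m => ell (x i)) := by
  have h := (((PG.coord i).mul (PG.coord i)).sub ((PG.const 4).mul (PG.coord i))).add (PG.const 2)
  simp only [P254.ell, sq]
  exact h

theorem PG.SL : PG (SL : V m → ℝ) := PG.sum Finset.univ fun i _ => PG.ell i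

theorem PG.of_le (hf : Measurable f) (hg : PG g) (h : ∀ x ∈ O m, |f x| ≤ g x) : PG f := by
  obtain ⟨-, C, p, k⟩ := hg
  exact ⟨hf, C, p, fun x hx => (h x hx).trans ((le_abs_self _).trans (k x hx))⟩

theorem E_add (hf : PG f) (hg : PG g) : E (fun x => f x + g x) = E f + E g := by
  simp only [E, mul_add]
  exact integral_add hf.integrable hg.integrable

theorem E_sub (hf : PG f) (hg : PG g) : E (fun x => f x - g x) = E f - E g := by
  simp only [E, mul_sub]
  exact integral_sub hf.integrable hg.integrable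

theorem E_mul_left (c : ℝ) (f : V m → ℝ) : E (fun x => c * f x) = c * E f := by
  simp only [E, mul_left_comm _ c]
  exact integral_const_mul c _

theorem E_sum {ι : Type} (s : Finset ι) {F : ι → V m → ℝ} (h : ∀ i ∈ s, PG (F i)) :
    E (fun x => ∑ i ∈ s, F i x) = ∑ i ∈ s, E (F i) := by
  simp only [E, Finset.mul_sum]
  exact integral_finsetSum s fun i hi => (h i hi).integrable

theorem E_congr (h : ∀ x ∈ O m, f x = g x) : E f = E g := by
  refine integral_congr_ae (Filter.Eventually.of_forall fun x => ?_)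
  show wt x * f x = wt x * g x
  by_cases hx : x ∈ O m
  · rw [h x hx]
  · rw [wt_of_not_mem hx, zero_mul, zero_mul]

theorem aint_le (h : ∀ x ∈ O m, f x ≤ g x) (x : V m) : wt x * f x ≤ wt x * g x := by
  by_cases hx : x ∈ O m
  · exact mul_le_mul_of_nonneg_left (h x hx) (wt_nonneg x)
  · rw [wt_of_not_mem hx, zero_mul, zero_mul]

theorem E_nonneg (h : ∀ x ∈ O m, 0 ≤ f x) : 0 ≤ E f :=
  integral_nonneg fun x => by simpa using aint_le (f := fun _ => 0) h x

/-- monotonicity under plain integrability -/
theorem E_mono' (hf : Integrable (fun x => wt x * f x)) (hg : Integrable (fun x => wt x * g x))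
    (h : ∀ x ∈ O m, f x ≤ g x) : E f ≤ E g := integral_mono hf hg (aint_le h)

theorem E_mono (hf : PG f) (hg : PG g) (h : ∀ x ∈ O m, f x ≤ g x) : E f ≤ E g :=
  E_mono' hf.integrable hg.integrable h

end Vale.Agent.P254
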