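import Vale.Agent.P254.AInt

open MeasureTheory Set Matrix

namespace Vale.Agent.P254

variable {m : ℕ} {G : Matrix (Fin m) (Fin m) ℝ} {C : Set (V m)}

theorem alin_left (hG : G.det ≠ 0) (x : V m) : G⁻¹ *ᵥ (G *ᵥ x) = x := by
  rw [mulVec_mulVec, nonsing_inv_mul _ (isUnit_iff_ne_zero.2 hG), one_mulVec]

theorem alin_right (hG : G.det ≠ 0) (x : V m) : G *ᵥ (G⁻¹ *ᵥ x) = x := by
  rw [mulVec_mulVec, mul_nonsing_inv _ (isUnit_iff_ne_zero.2 hG), one_mulVec]

theorem alin_cont (G : Matrix (Fin m) (Fin m) ℝ) : Continuous fun x : V m => G *ᵥ x :=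
  Continuous.matrix_mulVec continuous_const continuous_id

theorem alin_emb (hG : G.det ≠ 0) : MeasurableEmbedding fun x : V m => G *ᵥ x :=
  (Homeomorph.mk ⟨fun x : V m => G *ᵥ x, fun x => G⁻¹ *ᵥ x, alin_left hG, alin_right hG⟩
    (alin_cont G) (alin_cont G⁻¹)).measurableEmbedding

theorem alin_map (hG : G.det ≠ 0) : Measure.map (fun x : V m => G *ᵥ x) volume =
    ENNReal.ofReal |(G.det)⁻¹| • volume :=
  Real.map_matrix_volume_pi_eq_smul_volume_pi hG

theorem integral_mulVec (hG : G.det ≠ 0) (F : V m → ℝ) :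
    ∫ x, F x = |G.det| * ∫ x, F (G *ᵥ x) := by
  rw [← (alin_emb hG).integral_map, alin_map hG, integral_smul_measure,
    ENNReal.toReal_ofReal (abs_nonneg _), smul_eq_mul, ← mul_assoc, ← abs_mul,
    mul_inv_cancel₀ hG, abs_one, one_mul]

theorem integrable_mulVec (hG : G.det ≠ 0) {F : V m → ℝ} :
    Integrable (fun x => F (G *ᵥ x)) ↔ Integrable F := by
  have h := (alin_emb hG).integrable_map_iff (μ := volume) (g := F)
  rw [alin_map hG, integrable_smul_measure
    (ENNReal.ofReal_pos.2 (abs_pos.2 (inv_ne_zero hG))).ne' ENNReal.ofReal_ne_top] at h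
  exact h.symm

theorem mem_im (hG : G.det ≠ 0) (x : V m) : G *ᵥ x ∈ im G C ↔ x ∈ C :=
  (alin_emb hG).injective.mem_set_image

theorem im_im (G G' : Matrix (Fin m) (Fin m) ℝ) (C : Set (V m)) :
    im G (im G' C) = im (G * G') C := by
  simp only [im, image_image, mulVec_mulVec]

theorem im_one (C : Set (V m)) : im 1 C = C := by
  simp only [im, one_mulVec, image_id']

theorem Cone0.im (hC : Cone0 C) (hG : G.det ≠ 0) : Cone0 (im G C) := by
  refine ⟨?_, hC.conv.linear_image (mulVecLin G), ?_⟩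
  · have e : P254.im G C = (fun x : V m => G⁻¹ *ᵥ x) ⁻¹' C := by
      ext x
      rw [mem_preimage, ← mem_im hG (G⁻¹ *ᵥ x), alin_right hG]
    rw [e]
    exact hC.closed.preimage (alin_cont _)
  · rintro a ha _ ⟨x, hx, rfl⟩
    exact ⟨a • x, hC.smul a ha x hx, mulVec_smul _ _ _⟩

theorem CS.R_mulVec (h : CS G) (x : V m) : R (G *ᵥ x) = R x := by
  simp only [R, mulVec, dotProduct]
  rw [Finset.sum_comm]
  refine Finset.sum_congr rfl fun j _ => ?_
  rw [← Finset.sum_mul, h j, one_mul]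

theorem CS.mul {G' : Matrix (Fin m) (Fin m) ℝ} (h : CS G) (h' : CS G') : CS (G * G') := fun j =>
  (h.R_mulVec fun k => G' k j).trans (h' j)

theorem cs_one : CS (1 : Matrix (Fin m) (Fin m) ℝ) := fun j => by
  simp [one_apply]

theorem CS.inv (h : CS G) (hG : G.det ≠ 0) : CS G⁻¹ := fun j => by
  have h1 := cs_one (m := m) j
  rw [← mul_nonsing_inv _ (isUnit_iff_ne_zero.2 hG)] at h1
  exact (h.R_mulVec fun k => G⁻¹ k j).symm.trans h1

theorem alin_E (hC : Cone C) (hG : G.det ≠ 0) (h : CS G) (hs : im G C ⊆ O m) (f : V m → ℝ) :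
    E ((im G C).indicator f) = |G.det| * E (C.indicator fun x => f (G *ᵥ x)) := by
  rw [E, E, integral_mulVec hG]
  congr 2
  funext x
  by_cases hx : x ∈ C
  · have hx' := (mem_im hG x).2 hx
    rw [indicator_of_mem hx, indicator_of_mem hx', wt_of_mem (hs hx'), wt_of_mem (hC.sub hx),
      h.R_mulVec]
  · rw [indicator_of_notMem hx, indicator_of_notMem fun k => hx ((mem_im hG x).1 k), mul_zero,
      mul_zero]

theorem ph_im (hC : Cone C) (hG : G.det ≠ 0) (h : CS G) (hs : im G C ⊆ O m) :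
    ph (im G C) = |G.det| * ph C := alin_E hC hG h hs _

theorem MM_im (hC : Cone C) (hG : G.det ≠ 0) (h : CS G) (hs : im G C ⊆ O m) :
    MM (im G C) = |G.det| • (G * MM C * Gᵀ) := by
  ext i j
  have hp : ∀ k l, PG (C.indicator fun x : V m => x k * x l) := fun k l =>
    ((PG.coord k).mul (PG.coord l)).indicator hC.closed.measurableSet
  have e : (C.indicator fun x : V m => (G *ᵥ x) i * (G *ᵥ x) j) =
      fun x => ∑ l, ∑ k, (G i k * G j l) * C.indicator (fun x : V m => x k * x l) x := by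
    funext x
    by_cases hx : x ∈ C
    · simp only [indicator_of_mem hx, mulVec, dotProduct, Finset.sum_mul_sum]
      rw [Finset.sum_comm]
      exact Finset.sum_congr rfl fun l _ => Finset.sum_congr rfl fun k _ => by ring
    · simp only [indicator_of_notMem hx, mul_zero, Finset.sum_const_zero]
  rw [Matrix.smul_apply, smul_eq_mul, MM, alin_E hC hG h hs, e,
    E_sum _ fun l _ => PG.sum _ fun k _ => (PG.const _).mul (hp k l)]
  congr 1
  simp only [mul_apply, transpose_apply, Finset.sum_mul]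
  refine Finset.sum_congr rfl fun l _ => ?_
  rw [E_sum _ fun k _ => (PG.const _).mul (hp k l)]
  refine Finset.sum_congr rfl fun k _ => ?_
  rw [E_mul_left, MM]
  ring

theorem det_MM_im (hC : Cone C) (hG : G.det ≠ 0) (h : CS G) (hs : im G C ⊆ O m) :
    (MM (im G C)).det = |G.det| ^ (m + 2) * (MM C).det := by
  rw [MM_im hC hG h hs, det_smul, det_mul, det_mul, det_transpose, Fintype.card_fin, pow_add,
    sq_abs]
  ring

end Vale.Agent.P254
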