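import Vale.Agent.P254.AFub

open MeasureTheory Set Matrix

namespace Vale.Agent.P254

variable {m : ℕ}

theorem amom_int (n : ℕ) :
    ∫ s : ℝ, (Ici (0 : ℝ)).indicator (fun s => Real.exp (-s) * s ^ n) s = (n.factorial : ℝ) := by
  rw [integral_indicator measurableSet_Ici, integral_Ici_eq_integral_Ioi,
    ← Real.Gamma_nat_eq_factorial, Real.Gamma_eq_integral (by positivity)]
  simp

theorem amom_pow (a : Fin m → ℕ) :
    E (fun x : V m => ∏ i, x i ^ a i) = ∏ i, ((a i).factorial : ℝ) := by
  have k := integral_fintype_prod_volume_eq_prod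
    (fun (i : Fin m) (s : ℝ) => (Ici (0 : ℝ)).indicator (fun s => Real.exp (-s) * s ^ a i) s)
  simp only [amom_int] at k
  rw [← k, E]
  refine integral_congr_ae (ae_of_all _ fun x => ?_)
  by_cases hx : x ∈ O m
  · have : ∀ i, x i ∈ Ici (0 : ℝ) := hx
    simp only [wt, indicator_of_mem hx, indicator_of_mem (this _), Finset.prod_mul_distrib,
      ← Real.exp_sum, R, Finset.sum_neg_distrib]
  · have hx' := hx
    simp only [O, mem_ofPred_eq, not_forall] at hx'
    obtain ⟨i, hi⟩ := hx'
    simp only [wt, indicator_of_notMem hx, zero_mul]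
    exact (Finset.prod_eq_zero (Finset.mem_univ i) (indicator_of_notMem hi _)).symm

theorem amom_single (x : V m) (i : Fin m) : ∏ l, x l ^ (Pi.single i 1 : Fin m → ℕ) l = x i := by
  rw [Finset.prod_eq_single i (fun l _ h => by simp [h]) (by simp)]
  simp

theorem E_coord (i : Fin m) : E (fun x : V m => x i) = 1 := by
  have k := amom_pow (Pi.single i 1 : Fin m → ℕ)
  simp only [amom_single] at k
  rw [k]
  refine Finset.prod_eq_one fun l _ => ?_
  by_cases h : l = i
  · simp [h]
  · simp [h]

theorem E_coord_mul (i j : Fin m) :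
    E (fun x : V m => x i * x j) = if i = j then 2 else 1 := by
  have k := amom_pow (Pi.single i 1 + Pi.single j 1 : Fin m → ℕ)
  simp only [Pi.add_apply, pow_add, Finset.prod_mul_distrib, amom_single] at k
  rw [k]
  split_ifs with h
  · subst h
    rw [Finset.prod_eq_single i (fun l _ h => by simp [h]) (by simp)]
    simp
  · refine Finset.prod_eq_one fun l _ => ?_
    by_cases h1 : l = i
    · subst h1
      simp [h]
    · by_cases h2 : l = j
      · subst h2
        simp [h1]
      · simp [h1, h2]

theorem amom_ell (i : Fin m) : E (fun x : V m => ell (x i)) = 0 := by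
  have e : (fun x : V m => ell (x i)) = fun x => (x i * x i - 4 * x i) + 2 := by
    funext x
    simp only [ell]
    ring
  have p := PG.coord i
  have q : PG (fun x : V m => 4 * x i) := (PG.const 4).mul p
  rw [e, E_add ((p.mul p).sub q) (PG.const 2), E_sub (p.mul p) q, E_mul_left, E_coord_mul,
    E_coord, E_const]
  norm_num

theorem E_SL : E (SL : V m → ℝ) = 0 := by
  have k := E_sum (m := m) Finset.univ (F := fun i x => ell (x i)) fun i _ => PG.ell i
  simp only [amom_ell, Finset.sum_const_zero] at k
  exact k

theorem ph_O : ph (O m) = 1 := by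
  rw [ph, E_congr (g := fun _ => 1) fun x hx => indicator_of_mem hx _, E_one]

theorem det_MM_O : (MM (O m)).det = (m : ℝ) + 1 := by
  have e : MM (O m) = 1 + replicateCol Unit (fun _ : Fin m => (1 : ℝ)) *
      replicateRow Unit (fun _ : Fin m => (1 : ℝ)) := by
    ext i j
    rw [MM, E_congr (g := fun x => x i * x j) fun x hx => indicator_of_mem hx _, E_coord_mul]
    by_cases h : i = j
    · simp [h, Matrix.mul_apply]
      norm_num
    · simp [h, Matrix.mul_apply]
  rw [e, det_one_add_replicateCol_mul_replicateRow]
  simp [dotProduct, add_comm]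

end Vale.Agent.P254
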