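import Vale.Agent.P254.Base

open MeasureTheory Set Matrix

namespace Vale.Agent.P254

theorem apoly_pow (p : ℕ) {s : ℝ} (hs : 0 ≤ s) :
    (1 + s) ^ p ≤ 2 ^ p * p.factorial * Real.exp ((1 + s) / 2) := by
  have h := Real.pow_div_factorial_le_exp ((1 + s) / 2) (by positivity) p
  rw [div_le_iff₀ (by positivity), div_pow, div_le_iff₀ (by positivity)] at h
  linarith

/-- integrability of functions of polynomial growth -/
theorem integrableOn_poly {g : ℝ → ℝ} (hg : ContinuousOn g (Ioi 0)) {C : ℝ} {p : ℕ}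
    (h : ∀ s : ℝ, 0 ≤ s → |g s| ≤ C * (1 + s) ^ p) :
    IntegrableOn (fun s : ℝ => Real.exp (-s) * g s) (Ioi 0) := by
  have hC : 0 ≤ C := by simpa using (abs_nonneg _).trans (h 0 le_rfl)
  refine Integrable.mono' ((exp_neg_integrableOn_Ioi 0 (b := 1 / 2) (by norm_num)).const_mul
    (C * (2 ^ p * p.factorial * Real.exp (1 / 2))))
    (((Real.continuous_exp.comp continuous_neg).continuousOn.mul hg).aestronglyMeasurable
      measurableSet_Ioi) ?_
  refine (ae_restrict_iff' measurableSet_Ioi).2 (Filter.Eventually.of_forall fun s hs => ?_)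
  have h0 : 0 ≤ s := le_of_lt hs
  have e : Real.exp (-s) * Real.exp ((1 + s) / 2) = Real.exp (1 / 2) * Real.exp (-(1 / 2) * s) := by
    rw [← Real.exp_add, ← Real.exp_add]
    congr 1
    ring
  rw [Real.norm_eq_abs, abs_mul, abs_of_pos (Real.exp_pos _)]
  calc Real.exp (-s) * |g s|
      ≤ Real.exp (-s) * (C * (2 ^ p * p.factorial * Real.exp ((1 + s) / 2))) :=
        mul_le_mul_of_nonneg_left ((h s h0).trans (mul_le_mul_of_nonneg_left (apoly_pow p h0) hC))
          (Real.exp_pos _).le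
    _ = C * (2 ^ p * p.factorial) * (Real.exp (-s) * Real.exp ((1 + s) / 2)) := by ring
    _ = _ := by rw [e]; ring

theorem apoly_exp {s : ℝ} (hs : 0 ≤ s) : Real.exp ((1 - s) / 2) ≤ 2 := by
  refine (Real.exp_le_exp.2 (show (1 - s) / 2 ≤ 1 / 2 by linarith)).trans ?_
  have e : Real.exp (1 / 2) * Real.exp (1 / 2) = Real.exp 1 := by
    rw [← Real.exp_add]
    norm_num
  nlinarith [Real.exp_one_lt_d9, Real.exp_pos (1 / 2)]

/-- density bound for the halved exponential law -/
theorem half_le {f : ℝ → ℝ} (h0 : ∀ s : ℝ, 0 ≤ s → 0 ≤ f s)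
    (hi : IntegrableOn (fun s : ℝ => Real.exp (-s) * f s) (Ioi 0)) :
    IntegrableOn (fun s : ℝ => Real.exp (-s) * f ((1 + s) / 2)) (Ioi 0) ∧
    ∫ s in Ioi (0 : ℝ), Real.exp (-s) * f ((1 + s) / 2) ≤
      4 * ∫ s in Ioi (0 : ℝ), Real.exp (-s) * f s := by
  have hd : ∀ s ∈ Ioi (0 : ℝ), HasDerivWithinAt (fun s : ℝ => (1 + s) / 2) (1 / 2) (Ioi 0) s :=
    fun s _ => (((hasDerivAt_id' s).const_add 1).div_const 2).hasDerivWithinAt
  have hj : InjOn (fun s : ℝ => (1 + s) / 2) (Ioi 0) := fun a _ b _ e => by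
    simp only at e
    linarith
  have hs : (fun s : ℝ => (1 + s) / 2) '' Ioi 0 ⊆ Ioi 0 := by
    rintro _ ⟨s, hs, rfl⟩
    simp only [mem_Ioi] at hs ⊢
    linarith
  have h1 := (integrableOn_image_iff_integrableOn_abs_deriv_smul measurableSet_Ioi hd hj _).1
    (hi.mono_set hs)
  have h2 := integral_image_eq_integral_abs_deriv_smul measurableSet_Ioi hd hj
    fun s => Real.exp (-s) * f s
  have h3 := setIntegral_mono_set hi ((ae_restrict_iff' measurableSet_Ioi).2
    (Filter.Eventually.of_forall fun s hs => mul_nonneg (Real.exp_pos _).le (h0 s (le_of_lt hs))))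
    hs.eventuallyLE
  rw [h2] at h3
  have e : ∀ s : ℝ, Real.exp (-s) * f ((1 + s) / 2) = 2 * Real.exp ((1 - s) / 2) *
      (|(1 / 2 : ℝ)| • (Real.exp (-((1 + s) / 2)) * f ((1 + s) / 2))) := fun s => by
    rw [show -s = (1 - s) / 2 + -((1 + s) / 2) by ring, Real.exp_add, abs_of_pos (by norm_num),
      smul_eq_mul]
    ring
  have hb : ∀ s ∈ Ioi (0 : ℝ), 0 ≤ Real.exp (-s) * f ((1 + s) / 2) ∧
      Real.exp (-s) * f ((1 + s) / 2) ≤
        4 * (|(1 / 2 : ℝ)| • (Real.exp (-((1 + s) / 2)) * f ((1 + s) / 2))) := fun s hs => by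
    have a0 : 0 ≤ s := le_of_lt hs
    have a1 := h0 ((1 + s) / 2) (by positivity)
    refine ⟨by positivity, ?_⟩
    rw [e]
    exact mul_le_mul_of_nonneg_right (by linarith [apoly_exp a0]) (by positivity)
  have h4 : IntegrableOn (fun s : ℝ => Real.exp (-s) * f ((1 + s) / 2)) (Ioi 0) := by
    refine Integrable.mono' (h1.const_mul 4) ?_ ((ae_restrict_iff' measurableSet_Ioi).2
      (Filter.Eventually.of_forall fun s hs => ?_))
    · simp only [e]
      exact (Continuous.aestronglyMeasurable (by fun_prop)).mul h1.aestronglyMeasurable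
    · rw [Real.norm_eq_abs, abs_of_nonneg (hb s hs).1]
      exact (hb s hs).2
  refine ⟨h4, (setIntegral_mono_on h4 (h1.const_mul 4) measurableSet_Ioi
    fun s hs => (hb s hs).2).trans ?_⟩
  rw [integral_const_mul]
  linarith

end Vale.Agent.P254
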