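import Vale.Agent.P254.Defs

/-! # P254: internal definitions (no proofs to fill here) -/

open MeasureTheory Set Matrix

namespace Vale.Agent.P254

abbrev V (m : ℕ) : Type := Fin m → ℝ

/-- closed orthant -/
def O (m : ℕ) : Set (V m) := {x | ∀ i, 0 ≤ x i}

/-- sum of the coordinates -/
def R {m : ℕ} (x : V m) : ℝ := ∑ i, x i

/-- density of the product of standard exponential laws -/
noncomputable def wt {m : ℕ} (x : V m) : ℝ := (O m).indicator (fun x => Real.exp (-R x)) x

/-- expectation for the product of standard exponential laws -/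
noncomputable def E {m : ℕ} (f : V m → ℝ) : ℝ := ∫ x, wt x * f x

/-- measurable with polynomial growth on the orthant -/
def PG {m : ℕ} (f : V m → ℝ) : Prop :=
  Measurable f ∧ ∃ (C : ℝ) (p : ℕ), ∀ x ∈ O m, |f x| ≤ C * (1 + R x) ^ p

/-- twice the second Laguerre polynomial -/
def ell (s : ℝ) : ℝ := s ^ 2 - 4 * s + 2

/-- sum of the Laguerre terms -/
def SL {m : ℕ} (x : V m) : ℝ := ∑ i, ell (x i)

/-- the all ones vector -/
def one {m : ℕ} : V m := fun _ => 1

/-- centroid direction of the facet `x j = 0` -/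
def cen {m : ℕ} (j : Fin m) : V m := fun i => if i = j then 0 else 1

/-- closed convex cone (no position assumed) -/
structure Cone0 {m : ℕ} (C : Set (V m)) : Prop where
  closed : IsClosed C
  conv : Convex ℝ C
  smul : ∀ a : ℝ, 0 < a → ∀ x ∈ C, a • x ∈ C

/-- closed convex cone inside the orthant -/
structure Cone {m : ℕ} (C : Set (V m)) : Prop extends Cone0 C where
  sub : C ⊆ O m

/-- the cone contains a slightly shrunken orthant -/
def Inner {m : ℕ} (ε : ℝ) (C : Set (V m)) : Prop := ∀ z ∈ O m, z + (ε * R z) • one ∈ C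

noncomputable def ph {m : ℕ} (C : Set (V m)) : ℝ := E (C.indicator fun _ => (1 : ℝ))

noncomputable def MM {m : ℕ} (C : Set (V m)) : Matrix (Fin m) (Fin m) ℝ :=
  fun i j => E (C.indicator fun x => x i * x j)

/-- column sums equal to one -/
def CS {m : ℕ} (G : Matrix (Fin m) (Fin m) ℝ) : Prop := ∀ j, ∑ i, G i j = 1

/-- image under a matrix -/
def im {m : ℕ} (G : Matrix (Fin m) (Fin m) ℝ) (C : Set (V m)) : Set (V m) :=
  (fun x => G *ᵥ x) '' C

/-- the cone over a set placed at height one -/
def CK {n : ℕ} (K : Set (V n)) : Set (V (n + 1)) :=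
  {X | 0 ≤ X 0 ∧ ∃ y ∈ K, Fin.tail X = X 0 • y}

/-- matrix with columns `(1, v j)` -/
def Vm {n : ℕ} (v : Fin (n + 1) → V n) : Matrix (Fin (n + 1)) (Fin (n + 1)) ℝ :=
  fun i j => (Fin.cons 1 (v j) : V (n + 1)) i

/-- exponential integral over the cone over `K` -/
noncomputable def IK {n : ℕ} (K : Set (V n)) (f : V (n + 1) → ℝ) : ℝ :=
  ∫ X, (CK K).indicator (fun X => Real.exp (-X 0) * f X) X

end Vale.Agent.P254
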