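import Mathlib

/-! # P254: definitions used in the final statement -/

open MeasureTheory Set

namespace Vale.Agent.P254

/-- the centroid of `K` -/
noncomputable def centroid {n : ℕ} (K : Set (Fin n → ℝ)) : Fin n → ℝ :=
  fun i => (∫ x in K, x i) / (volume K).toReal

/-- the covariance matrix of `K` -/
noncomputable def cov {n : ℕ} (K : Set (Fin n → ℝ)) : Matrix (Fin n) (Fin n) ℝ :=
  fun i j => (∫ x in K, (x i - centroid K i) * (x j - centroid K j)) / (volume K).toReal

/-- the isotropic constant of `K` -/
noncomputable def isoConst {n : ℕ} (K : Set (Fin n → ℝ)) : ℝ :=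
  ((cov K).det / (volume K).toReal ^ 2) ^ (1 / (2 * (n : ℝ)))

/-- `T` is the convex hull of `n + 1` affinely independent points -/
def IsSimplex {n : ℕ} (T : Set (Fin n → ℝ)) : Prop :=
  ∃ v : Fin (n + 1) → Fin n → ℝ, AffineIndependent ℝ v ∧ T = convexHull ℝ (range v)

end Vale.Agent.P254
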