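import Mathlib

/-! P254, free sums: moments, affine invariance, and the inclusion bound. -/

open MeasureTheory Set Matrix Filter Topology Pointwise

namespace Vale.Agent.P254.FS

variable {ι κ : Type} [Fintype ι] [Fintype κ] [DecidableEq ι] [DecidableEq κ]

/-- convex bodies -/
structure Body (K : Set (ι → ℝ)) : Prop where
  cpt : IsCompact K
  cvx : Convex ℝ K
  int : (interior K).Nonempty

/-- the centroid -/
noncomputable def cen (K : Set (ι → ℝ)) : ι → ℝ := fun i => (∫ x in K, x i) / (volume K).toReal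

/-- the covariance matrix -/
noncomputable def cv (K : Set (ι → ℝ)) : Matrix ι ι ℝ :=
  fun i j => (∫ x in K, (x i - cen K i) * (x j - cen K j)) / (volume K).toReal

/-- the affine invariant -/
noncomputable def QQ (K : Set (ι → ℝ)) : ℝ := (cv K).det / (volume K).toReal ^ 2

variable {K : Set (ι → ℝ)}

theorem Body.vpos (h : Body K) : 0 < (volume K).toReal :=
  ENNReal.toReal_pos (Measure.measure_pos_of_nonempty_interior _ h.int).ne' h.cpt.measure_lt_top.ne

theorem Body.intg (h : Body K) {f : (ι → ℝ) → ℝ} (hf : Continuous f) : IntegrableOn f K :=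
  hf.continuousOn.integrableOn_compact h.cpt

theorem int_one (K : Set (ι → ℝ)) : ∫ _ in K, (1 : ℝ) = (volume K).toReal := by
  simp [Measure.real]

theorem Body.int_lin (h : Body K) (u : ι → ℝ) :
    ∫ x in K, u ⬝ᵥ x = u ⬝ᵥ cen K * (volume K).toReal := by
  simp only [dotProduct, cen]
  rw [integral_finsetSum _ fun i _ => h.intg (by fun_prop), Finset.sum_mul]
  refine Finset.sum_congr rfl fun i _ => ?_
  rw [integral_const_mul, mul_assoc, div_mul_cancel₀ _ h.vpos.ne']

theorem Body.int_bil (h : Body K) (u v : ι → ℝ) :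
    ∫ x in K, (u ⬝ᵥ (x - cen K)) * (v ⬝ᵥ (x - cen K)) = u ⬝ᵥ cv K *ᵥ v * (volume K).toReal := by
  have e : ∀ x : ι → ℝ, (u ⬝ᵥ (x - cen K)) * (v ⬝ᵥ (x - cen K)) =
      ∑ i, ∑ j, u i * v j * ((x i - cen K i) * (x j - cen K j)) := fun x => by
    simp only [dotProduct, Finset.sum_mul_sum, Pi.sub_apply]
    exact Finset.sum_congr rfl fun i _ => Finset.sum_congr rfl fun j _ => by ring
  simp only [e]
  rw [integral_finsetSum _ fun i _ => h.intg (by fun_prop), dotProduct, Finset.sum_mul]
  refine Finset.sum_congr rfl fun i _ => ?_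
  rw [integral_finsetSum _ fun i _ => h.intg (by fun_prop), mulVec, dotProduct, Finset.mul_sum,
    Finset.sum_mul]
  refine Finset.sum_congr rfl fun j _ => ?_
  rw [integral_const_mul, cv]
  field_simp [h.vpos.ne']

theorem Body.cv_eq (h : Body K) (i j : ι) :
    cv K i j = (∫ x in K, x i * x j) / (volume K).toReal - cen K i * cen K j := by
  have e : ∀ x : ι → ℝ, (x i - cen K i) * (x j - cen K j) =
      x i * x j - cen K j * x i - cen K i * x j + cen K i * cen K j * 1 := fun x => by ring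
  have k : ∀ i, ∫ x in K, x i = cen K i * (volume K).toReal := fun i =>
    (div_mul_cancel₀ _ h.vpos.ne').symm
  simp only [cv, e]
  rw [integral_add (h.intg (by fun_prop)) (h.intg (by fun_prop)),
    integral_sub (h.intg (by fun_prop)) (h.intg (by fun_prop)),
    integral_sub (h.intg (by fun_prop)) (h.intg (by fun_prop))]
  simp only [integral_const_mul, int_one, k]
  field_simp [h.vpos.ne']
  ring

theorem Body.pos (h : Body K) {u : ι → ℝ} (hu : u ≠ 0) : 0 < u ⬝ᵥ cv K *ᵥ u := by
  refine (mul_pos_iff_of_pos_right h.vpos).1 ?_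
  rw [← h.int_bil, setIntegral_pos_iff_support_of_nonneg_ae
    (.of_forall fun x => mul_self_nonneg _) (h.intg (by fun_prop))]
  have ho : IsOpen (Function.support fun x => (u ⬝ᵥ (x - cen K)) * (u ⬝ᵥ (x - cen K))) :=
    Continuous.isOpen_support (by fun_prop)
  refine lt_of_lt_of_le ((ho.inter isOpen_interior).measure_pos volume ?_)
    (measure_mono (inter_subset_inter_right _ interior_subset))
  by_contra k
  obtain ⟨x, hx⟩ := h.int
  have k1 : ∀ y ∈ interior K, u ⬝ᵥ (y - cen K) = 0 := fun y hy =>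
    mul_self_eq_zero.1 (by_contra fun e => k ⟨y, e, hy⟩)
  have k2 : ∀ᶠ t : ℝ in 𝓝 0, x + t • u ∈ interior K :=
    (show Continuous fun t : ℝ => x + t • u by fun_prop).continuousAt.eventually_mem
      (isOpen_interior.mem_nhds (by simpa using hx))
  obtain ⟨t, h1, h2⟩ := ((k2.filter_mono nhdsWithin_le_nhds).and
    (self_mem_nhdsWithin (s := Ioi (0 : ℝ)))).exists
  have k3 := k1 _ h1
  rw [add_sub_right_comm, dotProduct_add, k1 x hx, zero_add, dotProduct_smul, smul_eq_mul] at k3
  exact hu (dotProduct_self_eq_zero.1 ((mul_eq_zero.1 k3).resolve_left (ne_of_gt h2)))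

theorem Body.posDef (h : Body K) : (cv K).PosDef :=
  PosDef.of_dotProduct_mulVec_pos (by
    ext i j; simp only [conjTranspose_apply, star_trivial, cv, mul_comm]) fun _ hu => h.pos hu

theorem Body.det_pos (h : Body K) : 0 < (cv K).det := h.posDef.det_pos

theorem int_image (e : (ι → ℝ) ≃ᵃ[ℝ] (κ → ℝ)) (σ : κ ≃ ι) (hK : MeasurableSet K)
    (f : (κ → ℝ) → ℝ) : ∫ x in e '' K, f x =
      |((LinearMap.toMatrix' e.linear.toLinearMap).submatrix σ.symm id).det| * ∫ x in K, f (e x) := by
  let r := MeasurableEquiv.piCongrLeft (fun _ : ι => ℝ) σ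
  let A := (LinearMap.toMatrix' e.linear.toLinearMap).submatrix σ.symm id
  have hr : ∀ y i, r y i = y (σ.symm i) := fun y i => by
    simp [r, MeasurableEquiv.piCongrLeft, Equiv.piCongrLeft_apply_eq_cast]
  have hg : ∀ x, r (e x) = A *ᵥ x + r (e 0) := fun x => by
    funext i
    have := e.map_vadd 0 x
    rw [vadd_eq_add, add_zero, vadd_eq_add] at this
    rw [Pi.add_apply, hr, hr, this, Pi.add_apply, ← LinearEquiv.coe_coe,
      ← LinearMap.toMatrix'_mulVec]
    rfl
  have h1 : ∫ y in r '' (e '' K), f (r.symm y) = ∫ x in e '' K, f (r.symm (r x)) :=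
    (volume_measurePreserving_piCongrLeft (fun _ : ι => ℝ) σ).setIntegral_image_emb
      r.measurableEmbedding (fun y => f (r.symm y)) (e '' K)
  have h2 := integral_image_eq_integral_abs_det_fderiv_smul (μ := volume) (s := K)
    (f := fun x => r (e x)) (f' := fun _ => (toLin' A).toContinuousLinearMap) hK (fun x _ => by
      rw [funext hg]
      exact ((toLin' A).toContinuousLinearMap.hasFDerivAt.add_const _).hasFDerivWithinAt)
    (r.injective.comp e.injective).injOn fun y => f (r.symm y)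
  simp only [MeasurableEquiv.symm_apply_apply, smul_eq_mul, integral_const_mul] at h1 h2
  rw [← h1, image_image, h2]
  congr 2
  exact LinearMap.det_toLin' A

theorem card_eq (e : (ι → ℝ) ≃ᵃ[ℝ] (κ → ℝ)) : Fintype.card κ = Fintype.card ι := by
  simpa using e.linear.finrank_eq.symm

theorem Body.image (h : Body K) (e : (ι → ℝ) ≃ᵃ[ℝ] (κ → ℝ)) : Body (e '' K) :=
  ⟨h.cpt.image e.toAffineMap.continuous_of_finiteDimensional, h.cvx.affine_image e.toAffineMap, by
    have : e '' interior K = interior (e '' K) :=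
      (AffineEquiv.toContinuousAffineEquiv e).toHomeomorph.image_interior K
    rw [← this]
    exact h.int.image _⟩

theorem Body.aff (h : Body K) (e : (ι → ℝ) ≃ᵃ[ℝ] (κ → ℝ)) : cen (e '' K) = e (cen K) ∧
    cv (e '' K) = LinearMap.toMatrix' e.linear.toLinearMap * cv K *
      (LinearMap.toMatrix' e.linear.toLinearMap)ᵀ ∧ QQ (e '' K) = QQ K := by
  have σ : κ ≃ ι := Fintype.equivOfCardEq (card_eq e)
  have hI := int_image e σ h.cpt.measurableSet
  set A := LinearMap.toMatrix' e.linear.toLinearMap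
  set d := (A.submatrix σ.symm id).det with hd
  have hV : (volume (e '' K)).toReal = |d| * (volume K).toReal := by rw [← int_one, hI, int_one]
  have hd0 : |d| ≠ 0 := fun k => (h.image e).vpos.ne' (by rw [hV, k, zero_mul])
  have hv := h.vpos.ne'
  have he : ∀ x y i, e x i - e y i = A i ⬝ᵥ (x - y) := fun x y i => by
    have := e.toAffineMap.linearMap_vsub x y
    rw [vsub_eq_sub, vsub_eq_sub, ← LinearMap.toMatrix'_mulVec] at this
    exact (congrFun this i).symm
  have h1 : cen (e '' K) = e (cen K) := by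
    funext i
    have k : ∀ x, e x i = A i ⬝ᵥ x + (e (cen K) i - A i ⬝ᵥ cen K) * 1 := fun x => by
      have := he x (cen K) i
      rw [dotProduct_sub] at this
      linarith
    rw [cen, hI, hV, funext k]
    rw [integral_add (h.intg (by fun_prop)) (h.intg (by fun_prop)), integral_const_mul, int_one,
      h.int_lin]
    field_simp
    ring
  have h2 : cv (e '' K) = A * cv K * Aᵀ := by
    ext i j
    rw [cv, hI, hV, h1]
    simp only [he]
    rw [h.int_bil, Matrix.mul_assoc, mul_apply, dotProduct]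
    field_simp
    rfl
  refine ⟨h1, h2, ?_⟩
  have h3 : (A * cv K * Aᵀ).submatrix σ.symm σ.symm =
      A.submatrix σ.symm id * cv K * (A.submatrix σ.symm id)ᵀ := rfl
  rw [QQ, QQ, h2, hV, ← det_submatrix_equiv_self σ.symm, h3, det_mul, det_mul, det_transpose, ← hd,
    mul_pow, sq_abs]
  have : d ≠ 0 := abs_ne_zero.1 hd0
  field_simp

theorem int_smul {f : (ι → ℝ) → ℝ} {a : ℕ} (hf : ∀ (t : ℝ) x, f (t • x) = t ^ a * f x)
    (K : Set (ι → ℝ)) {t : ℝ} (ht : 0 < t) :
    ∫ x in t • K, f x = t ^ (Fintype.card ι + a) * ∫ x in K, f x := by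
  have := Measure.setIntegral_comp_smul_of_pos volume f K ht
  simp only [hf, integral_const_mul, Module.finrank_fintype_fun_eq_card, smul_eq_mul] at this
  rw [pow_add, mul_assoc, this]
  field_simp

theorem Body.kls0 (h : Body K) (h0 : 0 ∈ K) (u : ι → ℝ) :
    (u ⬝ᵥ cen K) ^ 2 ≤ Fintype.card ι * (Fintype.card ι + 2) * (u ⬝ᵥ cv K *ᵥ u) := by
  set n := Fintype.card ι
  set V := (volume K).toReal
  set a := ∫ x in K, (u ⬝ᵥ x) ^ 2
  have hV : 0 < V := h.vpos
  have hs : ∀ (t c : ℝ), 0 < t → ∫ x in t • K, (u ⬝ᵥ x - c) ^ 2 =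
      t ^ (n + 2) * a - 2 * c * (t ^ (n + 1) * (u ⬝ᵥ cen K * V)) + c ^ 2 * (t ^ n * V) := by
    intro t c ht
    have hc : IsCompact (t • K) := h.cpt.smul t
    have i : ∀ {f : (ι → ℝ) → ℝ}, Continuous f → IntegrableOn f (t • K) := fun hf =>
      hf.continuousOn.integrableOn_compact hc
    have e : ∀ x : ι → ℝ, (u ⬝ᵥ x - c) ^ 2 = (u ⬝ᵥ x) ^ 2 - 2 * c * u ⬝ᵥ x + c ^ 2 * 1 :=
      fun x => by ring
    simp only [e]
    rw [integral_add (i (by fun_prop)) (i (by fun_prop)),
      integral_sub (i (by fun_prop)) (i (by fun_prop)), integral_const_mul, integral_const_mul,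
      int_smul (a := 2) (fun t x => by simp [mul_pow]) K ht,
      int_smul (a := 1) (fun t x => by simp) K ht,
      int_smul (a := 0) (f := fun _ => 1) (fun t x => by simp) K ht, h.int_lin, int_one, add_zero]
  have key : ∀ c : ℝ, 0 ≤ n * V * (c * c) + -(2 * ((n + 1) * (u ⬝ᵥ cen K * V))) * c +
      (n + 2) * a := fun c => by
    have hd := ((((hasDerivAt_pow (n + 2) (1 : ℝ)).mul_const a).sub
      (((hasDerivAt_pow (n + 1) (1 : ℝ)).mul_const (u ⬝ᵥ cen K * V)).const_mul (2 * c))).add
      (((hasDerivAt_pow n (1 : ℝ)).mul_const V).const_mul (c ^ 2)))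
    have := ge_of_tendsto (hasDerivAt_iff_tendsto_slope_left_right.1 hd).1 (b := 0) (by
      filter_upwards [Ioo_mem_nhdsLT one_pos] with t ht
      rw [slope_def_field]
      refine div_nonneg_of_nonpos (sub_nonpos.2 ?_) (sub_nonpos.2 ht.2.le)
      simp only [Pi.add_apply, Pi.sub_apply]
      rw [← hs t c ht.1, ← hs 1 c one_pos, one_smul]
      refine setIntegral_mono_set (h.intg (by fun_prop)) (.of_forall fun x => sq_nonneg _)
        (LE.le.eventuallyLE ?_)
      rintro _ ⟨x, hx, rfl⟩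
      exact h.cvx.smul_mem_of_zero_mem h0 hx ⟨ht.1.le, ht.2.le⟩)
    simp only [one_pow, mul_one] at this
    push_cast at this
    linarith
  have hq := discrim_le_zero key
  have ha : a = (u ⬝ᵥ cv K *ᵥ u + (u ⬝ᵥ cen K) ^ 2) * V := by
    have k1 := hs 1 (u ⬝ᵥ cen K) one_pos
    have k2 := h.int_bil u u
    simp only [dotProduct_sub, ← sq] at k2
    rw [one_smul, k2] at k1
    simp only [one_pow] at k1
    linarith
  rw [discrim, ha] at hq
  refine le_of_mul_le_mul_right ?_ (mul_pos hV hV)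
  linarith

theorem Body.kls (h : Body K) {o : ι → ℝ} (ho : o ∈ K) (u : ι → ℝ) :
    (u ⬝ᵥ (cen K - o)) ^ 2 ≤ Fintype.card ι * (Fintype.card ι + 2) * (u ⬝ᵥ cv K *ᵥ u) := by
  obtain ⟨h1, h2, -⟩ := h.aff (AffineEquiv.constVAdd ℝ _ (-o))
  have := (h.image (AffineEquiv.constVAdd ℝ _ (-o))).kls0 ⟨o, ho, by simp⟩ u
  rw [h1, h2] at this
  simpa [neg_add_eq_sub] using this

end Vale.Agent.P254.FS
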