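import Vale.Agent.P254.FSGd
import Vale.Agent.P254.AFinal

/-! P254: polytopes with at most `n + 2` vertices. -/

open MeasureTheory Set Matrix Filter Topology Pointwise Module

namespace Vale.Agent.P254.FS

variable {ι κ : Type} [Fintype ι] [Fintype κ] [DecidableEq ι] [DecidableEq κ]

theorem finrank_lt {S : Set (ι → ℝ)} (hS : S.Finite) (hne : S.Nonempty) :
    finrank ℝ (vectorSpan ℝ S) + 1 ≤ S.ncard := by
  have := hS.fintype
  have := hne.to_subtype
  have k := finrank_vectorSpan_range_add_one_le ℝ (Subtype.val : S → ι → ℝ)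
  rwa [Subtype.range_coe, ← Nat.card_eq_fintype_card, Nat.card_coe_set_eq] at k

theorem span_top {S : Set (ι → ℝ)} (h : (interior (convexHull ℝ S)).Nonempty) :
    vectorSpan ℝ S = ⊤ :=
  AffineSubspace.vectorSpan_eq_top_of_affineSpan_eq_top ℝ _ _
    (interior_convexHull_nonempty_iff_affineSpan_eq_top.1 h)

theorem Sx.isSimplex {n : ℕ} {K : Set (Fin n → ℝ)} (h : Sx K) (hb : Body K) : IsSimplex K := by
  obtain ⟨S, h1, h2, rfl⟩ := h
  have := h1.fintype
  have k := finrank_lt h1 (convexHull_nonempty_iff.1 (hb.int.mono interior_subset))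
  rw [span_top hb.int, finrank_top, finrank_fintype_fun_eq_card] at k
  have e : Fin (n + 1) ≃ S := Fintype.equivOfCardEq (by
    rw [← Nat.card_eq_fintype_card (α := S), Nat.card_coe_set_eq, ← le_antisymm k h2]
    simp)
  have hr : range (Subtype.val ∘ e) = S := by rw [e.surjective.range_comp, Subtype.range_coe]
  refine ⟨Subtype.val ∘ e, (affineIndependent_iff_finrank_vectorSpan_eq ℝ _
    (Fintype.card_fin _)).2 ?_, by rw [hr]⟩
  rw [hr, span_top hb.int, finrank_top, finrank_fin_fun]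

theorem Sx_of {n : ℕ} {K : Set (Fin n → ℝ)} (h : IsSimplex K) : Sx K := by
  obtain ⟨v, -, rfl⟩ := h
  refine ⟨_, finite_range v, ?_, rfl⟩
  rw [← image_univ]
  simpa [ncard_univ] using ncard_image_le (f := v) finite_univ

theorem kap_eq (n : ℕ) : kap n * ((n : ℝ) + 2) = cc n := by
  have : (n.factorial : ℝ) ≠ 0 := by positivity
  simp only [kap, cc, Nat.factorial_succ]
  push_cast
  rw [show (n : ℝ) + 1 + 1 = n + 2 by ring]
  simp only [mul_pow, pow_succ]
  field_simp

theorem QQ_simplex {n : ℕ} {T : Set (Fin n → ℝ)} (hT : IsSimplex T) : QQ T = cc n := by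
  obtain ⟨v, hv, rfl⟩ := id hT
  have hv' := Vm_det_ne.2 hv
  have := ratio_eq hv' hT.isCompact hT.convex subset_rfl (vol_simplex_pos hv')
  rw [CV_self hv', ph_O, det_MM_O] at this
  rw [← kap_eq]
  refine this.trans ?_
  push_cast
  ring

theorem Sx.gd {K : Set (ι → ℝ)} (h : Sx K) (hb : Body K) : Gd K := by
  let e := (LinearEquiv.funCongrLeft ℝ ℝ (Fintype.equivFin ι).symm).toAffineEquiv
  refine ⟨?_, fun _ => h⟩
  rw [← (hb.aff e).2.2, QQ_simplex ((h.image e).isSimplex (hb.image e))]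

theorem int_left {K : Set (ι → ℝ)} {L : Set (κ → ℝ)} (hK : Convex ℝ K) (h0 : 0 ∈ K)
    (hL : Convex ℝ L) (h0' : 0 ∈ L) (h : (interior (fsum K L)).Nonempty) :
    (interior K).Nonempty ∧ (interior L).Nonempty := by
  obtain ⟨z, hz⟩ := h
  refine ⟨⟨z ∘ Sum.inl, interior_maximal
    (t := (fun x => Sum.elim x (z ∘ Sum.inr)) ⁻¹' interior (fsum K L)) (fun x hx => ?_)
    (isOpen_interior.preimage (continuous_pi fun i => ?_)) (by simpa using hz)⟩,
    ⟨z ∘ Sum.inr, interior_maximal
    (t := (fun x => Sum.elim (z ∘ Sum.inl) x) ⁻¹' interior (fsum K L)) (fun x hx => ?_)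
    (isOpen_interior.preimage (continuous_pi fun i => ?_)) (by simpa using hz)⟩⟩
  · obtain ⟨s, hs, a, ha, b, -, e⟩ := interior_subset hx
    rw [show x = s • a from congrArg (· ∘ Sum.inl) e]
    exact hK.smul_mem_of_zero_mem h0 ha hs
  · rcases i with i | i
    · exact continuous_apply i
    · exact continuous_const
  · obtain ⟨s, hs, a, -, b, hb, e⟩ := interior_subset hx
    rw [show x = (1 - s) • b from congrArg (· ∘ Sum.inr) e]
    exact hL.smul_mem_of_zero_mem h0' hb ⟨sub_nonneg.2 hs.2, by linarith [hs.1]⟩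
  · rcases i with i | i
    · exact continuous_const
    · exact continuous_apply i

theorem gd_split {A B : Set (ι → ℝ)} (hA : A.Finite) (hB : B.Finite)
    (hc : A.ncard + B.ncard ≤ Fintype.card ι + 2) (h0 : 0 ∈ convexHull ℝ A)
    (h0' : 0 ∈ convexHull ℝ B) (hb : Body (convexHull ℝ (A ∪ B))) :
    Gd (convexHull ℝ (A ∪ B)) := by
  have hm : ∀ {S : Set (ι → ℝ)}, 0 ∈ convexHull ℝ S → ∀ x ∈ S, x ∈ vectorSpan ℝ S :=
    fun {S} h x hx => by
      have := AffineSubspace.vsub_mem_direction (subset_affineSpan ℝ S hx)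
        (convexHull_subset_affineSpan S h)
      rwa [direction_affineSpan, vsub_eq_sub, sub_zero] at this
  set U := vectorSpan ℝ A
  set W := vectorSpan ℝ B
  have h1 : U ⊔ W = ⊤ := by
    rw [eq_top_iff, ← span_top hb.int, vectorSpan_def, Submodule.span_le]
    have k : ∀ x ∈ A ∪ B, x ∈ U ⊔ W := fun x hx =>
      hx.elim (fun h => Submodule.mem_sup_left (hm h0 x h))
        fun h => Submodule.mem_sup_right (hm h0' x h)
    rintro _ ⟨x, hx, y, hy, rfl⟩
    exact sub_mem (k x hx) (k y hy)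
  have d1 : finrank ℝ U + 1 ≤ _ := finrank_lt hA (convexHull_nonempty_iff.1 ⟨_, h0⟩)
  have d2 : finrank ℝ W + 1 ≤ _ := finrank_lt hB (convexHull_nonempty_iff.1 ⟨_, h0'⟩)
  have d3 := Submodule.finrank_sup_add_finrank_inf_eq U W
  rw [h1, finrank_top, finrank_fintype_fun_eq_card] at d3
  have h2 : IsCompl U W := ⟨disjoint_iff.2 (Submodule.finrank_eq_zero.1 (by omega)),
    codisjoint_iff.2 h1⟩
  let E : (ι → ℝ) ≃ₗ[ℝ] (Fin (finrank ℝ U) ⊕ Fin (finrank ℝ W) → ℝ) :=
    (Submodule.prodEquivOfIsCompl U W h2).symm ≪≫ₗ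
      ((finBasis ℝ U).equivFun.prodCongr (finBasis ℝ W).equivFun) ≪≫ₗ
      (LinearEquiv.sumArrowLequivProdArrow _ _ ℝ ℝ).symm
  let p : (ι → ℝ) →ₗ[ℝ] _ := LinearMap.funLeft ℝ ℝ Sum.inl ∘ₗ E.toLinearMap
  let q : (ι → ℝ) →ₗ[ℝ] _ := LinearMap.funLeft ℝ ℝ Sum.inr ∘ₗ E.toLinearMap
  have e1 : ∀ x ∈ A, eL _ (p x) = E x := fun x hx => by
    ext (i | i)
    · rfl
    · have := (Submodule.prodEquivOfIsCompl_symm_apply_snd_eq_zero U W h2).2 (hm h0 x hx)
      show 0 = (finBasis ℝ W).equivFun ((Submodule.prodEquivOfIsCompl U W h2).symm x).2 i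
      rw [this, map_zero, Pi.zero_apply]
  have e2 : ∀ x ∈ B, eR _ (q x) = E x := fun x hx => by
    ext (i | i)
    · have := (Submodule.prodEquivOfIsCompl_symm_apply_fst_eq_zero U W h2).2 (hm h0' x hx)
      show 0 = (finBasis ℝ U).equivFun ((Submodule.prodEquivOfIsCompl U W h2).symm x).1 i
      rw [this, map_zero, Pi.zero_apply]
    · rfl
  have z1 : 0 ∈ convexHull ℝ (p '' A) := p.image_convexHull A ▸ ⟨0, h0, map_zero _⟩
  have z2 : 0 ∈ convexHull ℝ (q '' B) := q.image_convexHull B ▸ ⟨0, h0', map_zero _⟩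
  have e3 : fsum (convexHull ℝ (p '' A)) (convexHull ℝ (q '' B)) =
      E.toAffineEquiv '' convexHull ℝ (A ∪ B) := by
    rw [fsum_hull z1 z2, image_image, image_image, image_congr e1, image_congr e2, ← image_union]
    exact (E.toLinearMap.image_convexHull _).symm
  have hM := hb.image E.toAffineEquiv
  rw [← e3] at hM
  obtain ⟨i1, i2⟩ := int_left (convex_convexHull ℝ _) z1 (convex_convexHull ℝ _) z2 hM.int
  have b1 : Body _ := ⟨(hA.image p).isCompact_convexHull ℝ, convex_convexHull ℝ _, i1⟩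
  have b2 : Body _ := ⟨(hB.image q).isCompact_convexHull ℝ, convex_convexHull ℝ _, i2⟩
  have c1 := ncard_image_le (f := p) hA
  have c2 := ncard_image_le (f := q) hB
  have := ((Sx.gd ⟨_, hA.image p, by rw [Fintype.card_fin]; omega, rfl⟩ b1).fsum
    (Sx.gd ⟨_, hB.image q, by rw [Fintype.card_fin]; omega, rfl⟩ b2) b1 z1 b2 z2).image hM
      E.toAffineEquiv.symm
  rwa [e3, image_image, image_congr fun x _ => E.toAffineEquiv.symm_apply_apply x, image_id']
    at this

theorem gd_few {S : Set (ι → ℝ)} (hS : S.Finite) (hc : S.ncard ≤ Fintype.card ι + 2)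
    (hi : (interior (convexHull ℝ S)).Nonempty) : Gd (convexHull ℝ S) := by
  have hb : Body _ := ⟨hS.isCompact_convexHull ℝ, convex_convexHull ℝ _, hi⟩
  rcases hc.lt_or_eq with h | h
  · exact Sx.gd ⟨S, hS, by omega, rfl⟩ hb
  have := hS.fintype
  obtain ⟨I, o, o1, o2⟩ := Convex.radon_partition
    ((finrank_vectorSpan_le_iff_not_affineIndependent ℝ (Subtype.val : S → ι → ℝ)
      (n := Fintype.card ι) (by rw [← Nat.card_eq_fintype_card, Nat.card_coe_set_eq, h])).1
      ((Submodule.finrank_le _).trans (finrank_fintype_fun_eq_card ℝ).le))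
  let e := AffineEquiv.constVAdd ℝ (ι → ℝ) (-o)
  have z : ∀ {T : Set (ι → ℝ)}, o ∈ convexHull ℝ T → 0 ∈ convexHull ℝ (e '' T) := fun {T} h =>
    e.toAffineMap.image_convexHull T ▸ ⟨o, h, by simp [e]⟩
  have e1 : convexHull ℝ (e '' (Subtype.val '' I) ∪ e '' (Subtype.val '' Iᶜ)) =
      e '' convexHull ℝ S := by
    rw [← image_union, ← image_union, union_compl_self, image_univ, Subtype.range_coe]
    exact (e.toAffineMap.image_convexHull S).symm
  have c : (e '' (Subtype.val '' I)).ncard + (e '' (Subtype.val '' Iᶜ)).ncard ≤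
      Fintype.card ι + 2 := by
    rw [ncard_image_of_injective _ e.injective, ncard_image_of_injective _ e.injective,
      ncard_image_of_injective _ Subtype.val_injective,
      ncard_image_of_injective _ Subtype.val_injective, ncard_add_ncard_compl,
      Nat.card_coe_set_eq, h]
  have := (gd_split (toFinite _) (toFinite _) c (z o1) (z o2) (e1 ▸ hb.image e)).image
    (e1 ▸ hb.image e) e.symm
  rwa [e1, image_image, image_congr fun x _ => e.symm_apply_apply x, image_id'] at this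

end Vale.Agent.P254.FS
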