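import Vale.Agent.P254.FSSum

/-! P254: closure of the conjectured inequality under free sums and products. -/

open MeasureTheory Set Matrix Filter Topology Pointwise

namespace Vale.Agent.P254.FS

variable {ι κ : Type} [Fintype ι] [Fintype κ] [DecidableEq ι] [DecidableEq κ]

/-- hulls of at most `n + 1` points -/
def Sx (K : Set (ι → ℝ)) : Prop :=
  ∃ S : Set (ι → ℝ), S.Finite ∧ S.ncard ≤ Fintype.card ι + 1 ∧ K = convexHull ℝ S

/-- the conjectured inequality with its equality case -/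
def Gd (K : Set (ι → ℝ)) : Prop :=
  QQ K ≤ cc (Fintype.card ι) ∧ (QQ K = cc (Fintype.card ι) → Sx K)

variable {K : Set (ι → ℝ)} {L : Set (κ → ℝ)}

theorem Sx.image (h : Sx K) (e : (ι → ℝ) ≃ᵃ[ℝ] (κ → ℝ)) : Sx (e '' K) := by
  obtain ⟨S, h1, h2, rfl⟩ := h
  exact ⟨e '' S, h1.image e, (ncard_image_le h1).trans (card_eq e ▸ h2),
    e.toAffineMap.image_convexHull S⟩

theorem Gd.image (h : Gd K) (hb : Body K) (e : (ι → ℝ) ≃ᵃ[ℝ] (κ → ℝ)) : Gd (e '' K) := by
  rw [Gd, (hb.aff e).2.2, card_eq e]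
  exact ⟨h.1, fun k => (h.2 k).image e⟩

theorem Body.QQ_pos (h : Body K) : 0 < QQ K := div_pos h.det_pos (pow_pos h.vpos 2)

theorem zero_mem {S : Set (ι → ℝ)} (h0 : 0 ∈ convexHull ℝ S)
    (h : ∀ w ∈ convexHull ℝ S, -w ∈ convexHull ℝ S → w = 0) : 0 ∈ S := by
  refine extremePoints_convexHull_subset (𝕜 := ℝ) ⟨h0, ?_⟩
  rintro a ha b hb ⟨s, t, hs, ht, hst, e⟩
  have hc := convex_convexHull ℝ S
  have := h (s • a) (hc.smul_mem_of_zero_mem h0 ha ⟨hs.le, by linarith⟩) (by
    rw [neg_eq_of_add_eq_zero_right e]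
    exact hc.smul_mem_of_zero_mem h0 hb ⟨ht.le, by linarith⟩)
  exact (smul_eq_zero.1 this).resolve_left hs.ne'

theorem Sx_union {A B : Set (ι → ℝ)} (hA : A.Finite) (hB : B.Finite) (h0 : 0 ∈ A)
    (h0' : 0 ∈ convexHull ℝ B) (hc : A.ncard + B.ncard ≤ Fintype.card ι + 2) :
    Sx (convexHull ℝ (A ∪ B)) := by
  refine ⟨A \ {0} ∪ B, hA.sdiff.union hB, (ncard_union_le _ _).trans ?_, Subset.antisymm
    (convexHull_min ?_ (convex_convexHull ℝ _))
    (convexHull_mono (union_subset_union_left _ sdiff_subset))⟩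
  · have := ncard_sdiff_singleton_add_one h0 hA
    omega
  · rintro x (hx | hx)
    · by_cases k : x = 0
      · rw [k]
        exact convexHull_mono subset_union_right h0'
      · exact subset_convexHull ℝ _ (Or.inl ⟨hx, k⟩)
    · exact subset_convexHull ℝ _ (Or.inr hx)

theorem fsum_hull {S : Set (ι → ℝ)} {T : Set (κ → ℝ)} (h0 : 0 ∈ convexHull ℝ S)
    (h0' : 0 ∈ convexHull ℝ T) : fsum (convexHull ℝ S) (convexHull ℝ T) =
      convexHull ℝ (eL κ '' S ∪ eR ι '' T) := by
  rw [fsum_eq (convex_convexHull ℝ S) h0 (convex_convexHull ℝ T) h0', LinearMap.image_convexHull,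
    LinearMap.image_convexHull, convexHull_convexHull_union_left,
    convexHull_convexHull_union_right]

theorem Gd.fsum (gK : Gd K) (gL : Gd L) (hK : Body K) (h0 : 0 ∈ K) (hL : Body L) (h0' : 0 ∈ L) :
    Gd (fsum K L) := by
  obtain ⟨x, y, hx, hy, x1, y1, k⟩ := fsum_RR hK h0 hL h0'
  have a0 := div_pos hK.QQ_pos (cc_pos (Fintype.card ι))
  have b0 := div_pos hL.QQ_pos (cc_pos (Fintype.card κ))
  have a1 := (div_le_one (cc_pos _)).2 gK.1
  have b1 := (div_le_one (cc_pos _)).2 gL.1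
  have p1 : x + y - 1 ≤ x * y := by nlinarith
  have p2 := mul_le_one₀ a1 b0.le b1
  have p3 := mul_le_of_le_one_left (show 0 ≤ x + y - 1 by linarith) p2
  refine ⟨(div_le_one (cc_pos _)).1 (le_of_mul_le_mul_right (a := x * y) (by linarith)
    (by positivity)), fun e => ?_⟩
  rw [e, div_self (cc_pos _).ne', one_mul] at k
  have p4 : QQ K / cc (Fintype.card ι) * (QQ L / cc (Fintype.card κ)) = 1 :=
    mul_right_cancel₀ (b := x + y - 1) (by linarith) (by linarith)
  obtain ⟨S, s1, s2, rfl⟩ := gK.2 ((div_eq_one_iff_eq (cc_pos _).ne').1 (by nlinarith))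
  obtain ⟨T, t1, t2, rfl⟩ := gL.2 ((div_eq_one_iff_eq (cc_pos _).ne').1 (by nlinarith))
  have c1 := ncard_image_le (f := eL κ) s1
  have c2 := ncard_image_le (f := eR ι) t1
  rw [fsum_hull h0 h0']
  rcases mul_eq_zero.1 (show (x - 1) * (y - 1) = 0 by linarith) with q | q
  · refine Sx_union (s1.image _) (t1.image _) ⟨0, zero_mem h0 (x1 (by linarith)), map_zero _⟩
      ?_ (by rw [Fintype.card_sum]; omega)
    rw [← LinearMap.image_convexHull]
    exact ⟨0, h0', map_zero _⟩
  · rw [union_comm]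
    refine Sx_union (t1.image _) (s1.image _) ⟨0, zero_mem h0' (y1 (by linarith)), map_zero _⟩
      ?_ (by rw [Fintype.card_sum]; omega)
    rw [← LinearMap.image_convexHull]
    exact ⟨0, h0, map_zero _⟩

theorem pow_ge2 {s : ℝ} (hs : 0 ≤ s) (k : ℕ) : 1 + k * s + k * (k - 1) / 2 * s ^ 2 ≤ (1 + s) ^ k := by
  induction k with
  | zero => simp
  | succ k ih =>
    have h : (0 : ℝ) ≤ k * (k - 1) := by
      rcases k with _ | k
      · simp
      · push_cast; rw [add_sub_cancel_right]; positivity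
    rw [pow_succ (1 + s)]
    push_cast
    nlinarith [mul_le_mul_of_nonneg_right ih (add_nonneg zero_le_one hs),
      mul_nonneg h (pow_nonneg hs 3)]

theorem cc_step (n : ℕ) : cc (n + 1) * cc (n + 1) < cc n * cc (n + 2) := by
  have hn : (0 : ℝ) ≤ n := n.cast_nonneg
  have key : ((n : ℝ) + 1) * (n + 3) ^ 3 * ((n + 1) * (n + 4)) ^ (n + 2) <
      (n + 2) ^ 4 * ((n + 2) * (n + 3)) ^ (n + 2) := by
    have e : ((n : ℝ) + 2) * (n + 3) = (1 + 2 / ((n + 1) * (n + 4))) * ((n + 1) * (n + 4)) := by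
      field_simp
      ring
    rw [e, mul_pow (1 + _), ← mul_assoc]
    refine mul_lt_mul_of_pos_right (lt_of_lt_of_le ?_ (mul_le_mul_of_nonneg_left
      (pow_ge2 (by positivity) (n + 2)) (by positivity))) (by positivity)
    rw [← sub_pos]
    push_cast
    field_simp
    ring_nf
    positivity
  have := mul_lt_mul_of_pos_left key (show (0 : ℝ) < (n.factorial : ℝ) ^ 4 * (n + 1) ^ 2 *
    (n + 2) ^ n * (n + 3) ^ n by positivity)
  simp only [cc, div_mul_div_comm]
  rw [div_lt_div_iff₀ (by positivity) (by positivity)]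
  simp only [Nat.factorial_succ, mul_pow] at this ⊢
  push_cast
  rw [show (n : ℝ) + 1 + 1 = n + 2 by ring, show (n : ℝ) + 1 + 2 = n + 3 by ring,
    show (n : ℝ) + 2 + 1 = n + 3 by ring, show (n : ℝ) + 2 + 2 = n + 4 by ring]
  simp only [pow_succ] at this ⊢
  linarith

theorem cc_lt {n : ℕ} (hn : 1 ≤ n) (m : ℕ) : cc n * cc (m + 1) < cc (n + (m + 1)) := by
  have hr : StrictMono fun k => cc (k + 1) / cc k := strictMono_nat_of_lt_succ fun k => by
    rw [div_lt_div_iff₀ (cc_pos _) (cc_pos _), mul_comm (cc (k + 1 + 1))]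
    exact cc_step k
  induction m with
  | zero =>
    have := hr hn
    rw [div_lt_div_iff₀ (cc_pos _) (cc_pos _), show cc 0 = 1 by simp [cc]] at this
    linarith
  | succ m ih =>
    have := hr (show m + 1 < n + (m + 1) by omega)
    rw [div_lt_div_iff₀ (cc_pos _) (cc_pos _)] at this
    refine lt_of_mul_lt_mul_right (a := cc (m + 1)) ?_ (cc_pos _).le
    have := mul_lt_mul_of_pos_left ih (cc_pos (m + 1 + 1))
    rw [← add_assoc n (m + 1)]
    linarith

/-- the Cartesian product -/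
def sprod (K : Set (ι → ℝ)) (L : Set (κ → ℝ)) : Set (ι ⊕ κ → ℝ) :=
  {z | z ∘ Sum.inl ∈ K ∧ z ∘ Sum.inr ∈ L}

theorem sprod_body (hK : Body K) (hL : Body L) : Body (sprod K L) := by
  let F := Homeomorph.sumArrowHomeomorphProdArrow (ι := ι) (ι' := κ) (X := ℝ)
  have e : sprod K L = F ⁻¹' (K ×ˢ L) := rfl
  refine ⟨e ▸ F.isCompact_preimage.2 (hK.cpt.prod hL.cpt), fun a ha b hb s t hs ht h =>
    ⟨hK.cvx ha.1 hb.1 hs ht h, hL.cvx ha.2 hb.2 hs ht h⟩, ?_⟩
  rw [e, ← F.preimage_interior, interior_prod_eq]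
  exact (hK.int.prod hL.int).preimage F.surjective

theorem int_sprod (hK : Body K) (hL : Body L) (f : (ι → ℝ) → ℝ) (g : (κ → ℝ) → ℝ) :
    ∫ z in sprod K L, f (z ∘ Sum.inl) * g (z ∘ Sum.inr) = (∫ x in K, f x) * ∫ y in L, g y := by
  rw [← integral_indicator hK.cpt.measurableSet, ← integral_indicator hL.cpt.measurableSet,
    ← int_sum, ← integral_indicator (sprod_body hK hL).cpt.measurableSet]
  refine integral_congr_ae (.of_forall fun z => ?_)
  by_cases a : z ∘ Sum.inl ∈ K <;> by_cases b : z ∘ Sum.inr ∈ L <;> simp [sprod, a, b]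

theorem QQ_sprod (hK : Body K) (hL : Body L) : QQ (sprod K L) = QQ K * QQ L := by
  have hI := int_sprod hK hL
  have hM := sprod_body hK hL
  have p1 := hK.vpos.ne'
  have p2 := hL.vpos.ne'
  have hV : (volume (sprod K L)).toReal = (volume K).toReal * (volume L).toReal := by
    simpa only [mul_one, int_one] using hI (fun _ => 1) fun _ => 1
  have hc : cen (sprod K L) = Sum.elim (cen K) (cen L) := by
    ext (i | i)
    · have := hI (fun x => x i) fun _ => 1
      simp only [mul_one, int_one, Function.comp] at this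
      simp only [cen, this, hV, Sum.elim_inl]
      field_simp
    · have := hI (fun _ => 1) fun x => x i
      simp only [one_mul, int_one, Function.comp] at this
      simp only [cen, this, hV, Sum.elim_inr]
      field_simp
  have hv : cv (sprod K L) = fromBlocks (cv K) 0 0 (cv L) := by
    ext (i | i) (j | j)
    · have := hI (fun x => x i * x j) fun _ => 1
      simp only [mul_one, int_one, Function.comp] at this
      simp only [hM.cv_eq, hK.cv_eq, this, hV, hc, Sum.elim_inl, fromBlocks_apply₁₁]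
      field_simp
    · have := hI (fun x => x i) fun x => x j
      simp only [Function.comp] at this
      rw [hM.cv_eq, this, hV, hc]
      simp [cen, div_mul_div_comm]
    · have := hI (fun x => x j) fun x => x i
      simp only [Function.comp, mul_comm] at this
      rw [hM.cv_eq, hV, hc]
      simp [cen, div_mul_div_comm, mul_comm, this]
    · have := hI (fun _ => 1) fun x => x i * x j
      simp only [one_mul, int_one, Function.comp] at this
      simp only [hM.cv_eq, hL.cv_eq, this, hV, hc, Sum.elim_inr, fromBlocks_apply₂₂]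
      field_simp
  rw [QQ, QQ, QQ, hv, hV, det_fromBlocks_zero₂₁, div_mul_div_comm, mul_pow]

theorem sprod_lt (hK : Body K) (hL : Body L) (gK : QQ K ≤ cc (Fintype.card ι))
    (gL : QQ L ≤ cc (Fintype.card κ)) (h1 : 1 ≤ Fintype.card ι) (h2 : 1 ≤ Fintype.card κ) :
    QQ (sprod K L) < cc (Fintype.card (ι ⊕ κ)) := by
  obtain ⟨m, hm⟩ := Nat.exists_eq_add_of_le' h2
  rw [QQ_sprod hK hL, Fintype.card_sum]
  refine (mul_le_mul gK gL hL.QQ_pos.le (cc_pos _).le).trans_lt ?_
  rw [hm]
  exact cc_lt h1 m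

end Vale.Agent.P254.FS
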