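import Vale.Agent.P254.FSFew
import Vale.Agent.P254.AHaus

/-! P254: joins, and the transfer to the isotropic constant. -/

open MeasureTheory Set Matrix Filter Topology Pointwise Module

namespace Vale.Agent.P254.FS

variable {ι κ : Type} [Fintype ι] [Fintype κ] [DecidableEq ι] [DecidableEq κ]

/-- the shear used for joins -/
def shear (a : ι → ℝ) (b : κ → ℝ) : ((ι ⊕ Fin 1) ⊕ κ → ℝ) ≃ₗ[ℝ] ((ι ⊕ κ) ⊕ Fin 1 → ℝ) where
  toFun z := Sum.elim (Sum.elim (fun i => z (.inl (.inl i)) - z (.inl (.inr 0)) * a i)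
    fun j => z (.inr j) + z (.inl (.inr 0)) * b j) fun _ => z (.inl (.inr 0))
  invFun w := Sum.elim (Sum.elim (fun i => w (.inl (.inl i)) + w (.inr 0) * a i)
    fun _ => w (.inr 0)) fun j => w (.inl (.inr j)) - w (.inr 0) * b j
  map_add' x y := by ext ((i | i) | i) <;> simp <;> ring
  map_smul' c x := by ext ((i | i) | i) <;> simp <;> ring
  left_inv z := by ext ((i | i) | i) <;> simp [Fin.fin_one_eq_zero]
  right_inv z := by ext ((i | i) | i) <;> simp [Fin.fin_one_eq_zero]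

theorem gd_join {K : Set (ι → ℝ)} {L : Set (κ → ℝ)} (gK : Gd K) (gL : Gd L) (hK : Body K)
    (hL : Body L) :
    Body (convexHull ℝ ((fun x => Sum.elim (Sum.elim x 0) (0 : Fin 1 → ℝ)) '' K ∪
      (fun y => Sum.elim (Sum.elim (0 : ι → ℝ) y) 1) '' L)) ∧
    Gd (convexHull ℝ ((fun x => Sum.elim (Sum.elim x 0) (0 : Fin 1 → ℝ)) '' K ∪
      (fun y => Sum.elim (Sum.elim (0 : ι → ℝ) y) 1) '' L)) := by
  obtain ⟨a, ha⟩ := hK.int.mono interior_subset
  obtain ⟨b, hb⟩ := hL.int.mono interior_subset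
  have hi : AffineIndependent ℝ ![(0 : Fin 1 → ℝ), 1] := affineIndependent_of_ne ℝ zero_ne_one
  have sI : IsSimplex (convexHull ℝ (range ![(0 : Fin 1 → ℝ), 1])) := ⟨_, hi, rfl⟩
  have bI : Body _ := ⟨sI.isCompact, sI.convex, interior_simplex hi⟩
  have zI : ∀ i, ![(0 : Fin 1 → ℝ), 1] i ∈ convexHull ℝ (range ![(0 : Fin 1 → ℝ), 1]) :=
    fun i => subset_convexHull ℝ _ (mem_range_self i)
  let e1 := AffineEquiv.constVAdd ℝ (ι → ℝ) (-a)
  let e2 := AffineEquiv.constVAdd ℝ (κ → ℝ) (-b)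
  let e3 := AffineEquiv.constVAdd ℝ (ι ⊕ Fin 1 → ℝ) (-Sum.elim (0 : ι → ℝ) (1 : Fin 1 → ℝ))
  let E := (shear a b).toAffineEquiv.trans
    (AffineEquiv.constVAdd ℝ ((ι ⊕ κ) ⊕ Fin 1 → ℝ) (Sum.elim (Sum.elim 0 b) 1))
  have z1 : 0 ∈ e1 '' K := ⟨a, ha, by simp [e1]⟩
  have z2 : 0 ∈ e2 '' L := ⟨b, hb, by simp [e2]⟩
  have bP := fsum_body (hK.image e1) z1 bI (zI 0)
  have gP := (gK.image hK e1).fsum ((Sx_of sI).gd bI) (hK.image e1) z1 bI (zI 0)
  have eP := fsum_eq (hK.image e1).cvx z1 bI.cvx (zI 0)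
  have z3 : 0 ∈ e3 '' fsum (e1 '' K) (convexHull ℝ (range ![(0 : Fin 1 → ℝ), 1])) :=
    ⟨Sum.elim 0 1, eP ▸ subset_convexHull ℝ _ (Or.inr ⟨_, zI 1, rfl⟩), by simp [e3]⟩
  have bM := fsum_body (bP.image e3) z3 (hL.image e2) z2
  have gM := (gP.image bP e3).fsum (gL.image hL e2) (bP.image e3) z3 (hL.image e2) z2
  refine (congrArg (fun X => Body X ∧ Gd X) ?_).mp ⟨bM.image E, gM.image bM E⟩
  have q1 : ∀ x, E (eL κ (e3 (eL _ (e1 x)))) = Sum.elim (Sum.elim x 0) 0 := fun x => by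
    ext ((i | i) | i) <;> simp [E, e1, e3, eL, shear]
  have q2 : ∀ y, E (eR _ (e2 y)) = Sum.elim (Sum.elim (0 : ι → ℝ) y) 1 := fun y => by
    ext ((i | i) | i) <;> simp [E, e2, eR, shear]
  have q3 : E (eL κ (e3 (eR ι 0))) = Sum.elim (Sum.elim a 0) 0 := by
    ext ((i | i) | i) <;> simp [E, e3, eL, shear]
  have q4 : E (eL κ (e3 (eR ι 1))) = Sum.elim (Sum.elim (0 : ι → ℝ) b) 1 := by
    ext ((i | i) | i) <;> simp [E, e3, eL, eR, shear]
  rw [fsum_eq (bP.image e3).cvx z3 (hL.image e2).cvx z2, eP, LinearMap.image_convexHull (eR ι),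
    convexHull_convexHull_union_right, ← AffineEquiv.coe_toAffineMap e3,
    AffineMap.image_convexHull, LinearMap.image_convexHull, convexHull_convexHull_union_left,
    ← AffineEquiv.coe_toAffineMap E, AffineMap.image_convexHull]
  simp only [image_union, image_image, AffineEquiv.coe_toAffineMap, q1, q2]
  congr 1
  refine Subset.antisymm (union_subset (union_subset subset_union_left ?_) subset_union_right)
    (union_subset_union_left _ subset_union_left)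
  rintro _ ⟨_, ⟨i, rfl⟩, rfl⟩
  fin_cases i
  · exact Or.inl ⟨a, ha, q3.symm⟩
  · exact Or.inr ⟨b, hb, q4.symm⟩

theorem gd_iff {n : ℕ} {K : Set (Fin n → ℝ)} (hK : Body K) : Gd K ↔
    ∀ T : Set (Fin n → ℝ), IsSimplex T →
      isoConst K ≤ isoConst T ∧ (isoConst K = isoConst T → IsSimplex K) := by
  have e : ∀ T : Set (Fin n → ℝ), isoConst T = QQ T ^ (1 / (2 * (n : ℝ))) := fun T => rfl
  obtain ⟨v, hv⟩ : ∃ v : Fin (n + 1) → Fin n → ℝ, AffineIndependent ℝ v := by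
    obtain ⟨b⟩ := AffineBasis.exists_affineBasis_of_finiteDimensional (ι := Fin (n + 1)) (k := ℝ)
      (V := Fin n → ℝ) (P := Fin n → ℝ) (by simp)
    exact ⟨b, b.ind⟩
  rw [Gd, Fintype.card_fin]
  refine ⟨fun h T hT => ?_, fun h => ?_⟩
  · rw [e, e, QQ_simplex hT]
    refine ⟨Real.rpow_le_rpow hK.QQ_pos.le h.1 (by positivity), fun k => Sx.isSimplex (h.2 ?_) hK⟩
    rcases n.eq_zero_or_pos with rfl | hn
    · rw [← QQ_simplex ⟨v, hv, rfl⟩]
      congr 1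
      obtain ⟨x, hx⟩ := hK.int.mono interior_subset
      exact (Subsingleton.eq_univ_of_nonempty ⟨x, hx⟩).trans (Subsingleton.eq_univ_of_nonempty
        (convexHull_nonempty_iff.2 (range_nonempty v))).symm
    · exact (Real.rpow_left_inj hK.QQ_pos.le (cc_pos n).le (by positivity)).1 k
  · have k := h _ ⟨v, hv, rfl⟩
    rw [e, e, QQ_simplex ⟨v, hv, rfl⟩] at k
    refine ⟨?_, fun q => Sx_of (k.2 (by rw [q]))⟩
    rcases n.eq_zero_or_pos with rfl | hn
    · exact (QQ_simplex (k.2 (by simp))).le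
    · exact (Real.rpow_le_rpow_iff hK.QQ_pos.le (cc_pos n).le (by positivity)).1 k.1

/-- concatenation of coordinates -/
noncomputable def cat (n m : ℕ) : (Fin n ⊕ Fin m → ℝ) ≃ᵃ[ℝ] (Fin (n + m) → ℝ) :=
  (LinearEquiv.funCongrLeft ℝ ℝ finSumFinEquiv.symm).toAffineEquiv

theorem cat_elim {n m : ℕ} (x : Fin n → ℝ) (y : Fin m → ℝ) :
    cat n m (Sum.elim x y) = Fin.append x y := by
  funext i
  refine Fin.addCases (fun i => ?_) (fun i => ?_) i <;> simp [cat]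

/-- concatenation of three blocks -/
noncomputable def cat3 (n m : ℕ) : ((Fin n ⊕ Fin m) ⊕ Fin 1 → ℝ) ≃ᵃ[ℝ] (Fin (n + m + 1) → ℝ) :=
  (LinearEquiv.funCongrLeft ℝ ℝ
    ((finSumFinEquiv.sumCongr (Equiv.refl _)).trans finSumFinEquiv).symm).toAffineEquiv

theorem cat3_elim {n m : ℕ} (x : Fin n → ℝ) (y : Fin m → ℝ) (t : Fin 1 → ℝ) :
    cat3 n m (Sum.elim (Sum.elim x y) t) = Fin.append (Fin.append x y) t := by
  funext i
  refine Fin.addCases (fun i => Fin.addCases (fun i => ?_) (fun i => ?_) i) (fun i => ?_) i <;>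
    simp [cat3]

end Vale.Agent.P254.FS
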