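import Vale.Agent.P254.FSBase

/-! P254, free sums: moments of a free sum. -/

open MeasureTheory Set Matrix Filter Topology Pointwise

namespace Vale.Agent.P254.FS

variable {ι κ : Type} [Fintype ι] [Fintype κ] [DecidableEq ι] [DecidableEq κ]

/-- dilation levels containing `x` -/
def UU (K : Set (ι → ℝ)) (x : ι → ℝ) : Set ℝ := {t | 0 < t ∧ x ∈ t • K}

/-- the weight `exp (-gauge)` -/
noncomputable def ww (K : Set (ι → ℝ)) (x : ι → ℝ) : ℝ := ∫ t in UU K x, Real.exp (-t)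

/-- the free sum -/
def fsum (K : Set (ι → ℝ)) (L : Set (κ → ℝ)) : Set (ι ⊕ κ → ℝ) :=
  {z | ∃ s ∈ Icc (0 : ℝ) 1, ∃ x ∈ K, ∃ y ∈ L, z = Sum.elim (s • x) ((1 - s) • y)}

theorem int_exp {U : Set ℝ} {s : ℝ} (h1 : Ioi s ⊆ U) (h2 : U ⊆ Ici s) :
    ∫ t in U, Real.exp (-t) = Real.exp (-s) := by
  rw [← integral_exp_neg_Ioi s]
  refine setIntegral_congr_set (EventuallyLE.antisymm ?_ (LE.le.eventuallyLE h1))
  exact (LE.le.eventuallyLE h2).trans Ioi_ae_eq_Ici.symm.le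

theorem UU_up {K : Set (ι → ℝ)} (hc : Convex ℝ K) (h0 : 0 ∈ K) {x : ι → ℝ} {s t : ℝ}
    (hs : 0 ≤ s) (hx : x ∈ s • K) (h : s < t) : t ∈ UU K x := by
  obtain ⟨y, hy, rfl⟩ := hx
  have ht : 0 < t := hs.trans_lt h
  refine ⟨ht, (s / t) • y, hc.smul_mem_of_zero_mem h0 hy
    ⟨by positivity, div_le_one_of_le₀ h.le ht.le⟩, ?_⟩
  show t • (s / t) • y = s • y
  rw [smul_smul, mul_div_cancel₀ _ ht.ne']

theorem UU_inf {K : Set (ι → ℝ)} (hc : Convex ℝ K) (h0 : 0 ∈ K) {x : ι → ℝ}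
    (hne : (UU K x).Nonempty) : 0 ≤ sInf (UU K x) ∧ Ioi (sInf (UU K x)) ⊆ UU K x ∧
      ∀ s, 0 ≤ s → x ∈ s • K → sInf (UU K x) ≤ s := by
  have hb : BddBelow (UU K x) := ⟨0, fun t ht => ht.1.le⟩
  refine ⟨le_csInf hne fun t ht => ht.1.le, fun t ht => ?_, fun s hs hx => ?_⟩
  · obtain ⟨s, hs, h⟩ := exists_lt_of_csInf_lt hne ht
    exact UU_up hc h0 hs.1.le hs.2 h
  · exact le_of_forall_gt_imp_ge_of_dense fun t ht => csInf_le hb (UU_up hc h0 hs hx ht)

theorem UU_fsum {K : Set (ι → ℝ)} {L : Set (κ → ℝ)} {x : ι → ℝ} {y : κ → ℝ} {t : ℝ} :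
    t ∈ UU (fsum K L) (Sum.elim x y) ↔
      0 < t ∧ ∃ a b, 0 ≤ a ∧ 0 ≤ b ∧ a + b = t ∧ x ∈ a • K ∧ y ∈ b • L := by
  refine and_congr_right fun ht => ⟨?_, ?_⟩
  · rintro ⟨_, ⟨s, hs, p, hp, q, hq, rfl⟩, h⟩
    refine ⟨t * s, t * (1 - s), mul_nonneg ht.le hs.1, mul_nonneg ht.le (sub_nonneg.2 hs.2),
      by ring, ⟨p, hp, funext fun i => ?_⟩, ⟨q, hq, funext fun i => ?_⟩⟩
    · simpa [mul_assoc] using congrFun h (Sum.inl i)
    · simpa [mul_assoc] using congrFun h (Sum.inr i)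
  · rintro ⟨a, b, ha, hb, rfl, ⟨p, hp, rfl⟩, ⟨q, hq, rfl⟩⟩
    refine ⟨_, ⟨a / (a + b), ⟨by positivity, div_le_one_of_le₀ (by linarith) ht.le⟩, p, hp, q, hq,
      rfl⟩, funext fun i => ?_⟩
    rcases i with i | i
    · simp only [Pi.smul_apply, Sum.elim_inl, smul_eq_mul]
      field_simp
    · simp only [Pi.smul_apply, Sum.elim_inr, smul_eq_mul]
      field_simp
      ring

theorem ww_fsum {K : Set (ι → ℝ)} {L : Set (κ → ℝ)} (hK : Convex ℝ K) (h0 : 0 ∈ K)
    (hL : Convex ℝ L) (h0' : 0 ∈ L) (x : ι → ℝ) (y : κ → ℝ) :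
    ww (fsum K L) (Sum.elim x y) = ww K x * ww L y := by
  by_cases h : (UU K x).Nonempty ∧ (UU L y).Nonempty
  · obtain ⟨a1, a2, a3⟩ := UU_inf hK h0 h.1
    obtain ⟨b1, b2, b3⟩ := UU_inf hL h0' h.2
    rw [ww, ww, ww, int_exp a2 fun t ht => a3 t ht.1.le ht.2,
      int_exp b2 fun t ht => b3 t ht.1.le ht.2, ← Real.exp_add, ← neg_add]
    refine int_exp (fun t ht => UU_fsum.2 ?_) fun t ht => ?_
    · have ht : sInf (UU K x) + sInf (UU L y) < t := ht
      have c1 := a2 (show (t + sInf (UU K x) - sInf (UU L y)) / 2 ∈ Ioi _ by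
        rw [mem_Ioi]; linarith)
      have c2 := b2 (show (t - sInf (UU K x) + sInf (UU L y)) / 2 ∈ Ioi _ by
        rw [mem_Ioi]; linarith)
      exact ⟨by linarith, _, _, c1.1.le, c2.1.le, by ring, c1.2, c2.2⟩
    · obtain ⟨-, a, b, ha, hb, rfl, hx, hy⟩ := UU_fsum.1 ht
      exact add_le_add (a3 a ha hx) (b3 b hb hy)
  · have e : UU (fsum K L) (Sum.elim x y) = ∅ := eq_empty_of_forall_notMem fun t ht => by
      obtain ⟨-, a, b, ha, hb, -, hx, hy⟩ := UU_fsum.1 ht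
      exact h ⟨⟨_, UU_up hK h0 ha hx (lt_add_one a)⟩, ⟨_, UU_up hL h0' hb hy (lt_add_one b)⟩⟩
    rw [ww, e, setIntegral_empty]
    rcases not_and_or.1 h with k | k
    · rw [ww, not_nonempty_iff_eq_empty.1 k, setIntegral_empty, zero_mul]
    · have : ww L y = 0 := by rw [ww, not_nonempty_iff_eq_empty.1 k, setIntegral_empty]
      rw [this, mul_zero]

theorem int_smul' {f : (ι → ℝ) → ℝ} {a : ℕ} (hf : ∀ t : ℝ, 0 < t → ∀ x, f (t • x) = t ^ a * f x)
    (K : Set (ι → ℝ)) {t : ℝ} (ht : 0 < t) :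
    ∫ x in t • K, f x = t ^ (Fintype.card ι + a) * ∫ x in K, f x := by
  have := Measure.setIntegral_comp_smul_of_pos volume f K ht
  simp only [hf t ht, integral_const_mul, Module.finrank_fintype_fun_eq_card, smul_eq_mul] at this
  rw [pow_add, mul_assoc, this]
  field_simp

theorem int_ww {K : Set (ι → ℝ)} (hK : IsCompact K) {f : (ι → ℝ) → ℝ} (hc : Continuous f) {a : ℕ}
    (hf : ∀ t : ℝ, 0 < t → ∀ x, f (t • x) = t ^ a * f x) :
    ∫ x, f x * ww K x = (Fintype.card ι + a).factorial * ∫ x in K, f x := by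
  let A : Set (ℝ × (ι → ℝ)) := {p | 0 < p.1 ∧ p.2 ∈ p.1 • K}
  have hA : MeasurableSet A := by
    have e : A = {p | 0 < p.1} ∩ (fun p : ℝ × (ι → ℝ) => p.1⁻¹ • p.2) ⁻¹' K := by
      ext p
      exact and_congr_right fun h => mem_smul_set_iff_inv_smul_mem₀ (ne_of_gt h) K p.2
    rw [e]
    exact (measurableSet_lt measurable_const measurable_fst).inter
      (hK.measurableSet.preimage (by fun_prop))
  let F : ((ι → ℝ) → ℝ) → ℝ × (ι → ℝ) → ℝ := fun g => A.indicator fun p => g p.2 * Real.exp (-p.1)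
  have h1 : ∀ g t, (fun x => F g (t, x)) = (Ioi (0 : ℝ)).indicator
      (fun t => (t • K).indicator fun x => g x * Real.exp (-t)) t := fun g t => by
    funext x
    by_cases ht : 0 < t
    · rw [indicator_of_mem (mem_Ioi.2 ht)]
      by_cases hx : x ∈ t • K
      · rw [indicator_of_mem hx]; exact indicator_of_mem (show (t, x) ∈ A from ⟨ht, hx⟩) _
      · rw [indicator_of_notMem hx]
        exact indicator_of_notMem (show (t, x) ∉ A from fun h => hx h.2) _
    · rw [indicator_of_notMem (fun h => ht (mem_Ioi.1 h))]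
      exact indicator_of_notMem (show (t, x) ∉ A from fun h => ht h.1) _
  have h2 : ∀ g : (ι → ℝ) → ℝ, (∀ t : ℝ, 0 < t → ∀ x, g (t • x) = t ^ a * g x) →
      (fun t => ∫ x, F g (t, x)) = (Ioi (0 : ℝ)).indicator
        fun t => Real.exp (-t) * t ^ ((Fintype.card ι + a + 1 : ℕ) - 1 : ℝ) * ∫ x in K, g x := by
    intro g hg
    funext t
    rw [h1]
    by_cases ht : t ∈ Ioi (0 : ℝ)
    · rw [indicator_of_mem ht, indicator_of_mem ht,
        integral_indicator (hK.smul t).measurableSet, integral_mul_const, int_smul' hg K ht,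
        Nat.cast_succ, add_sub_cancel_right, Real.rpow_natCast]
      ring
    · rw [indicator_of_notMem ht, indicator_of_notMem ht]
      simp
  have hm : (0 : ℝ) < (Fintype.card ι + a + 1 : ℕ) := by positivity
  have hI : Integrable (F f) (volume.prod volume) := by
    refine (integrable_prod_iff ((Continuous.measurable (by fun_prop)).indicator
      hA).aestronglyMeasurable).2 ⟨.of_forall fun t => ?_, ?_⟩
    · rw [h1]
      by_cases ht : t ∈ Ioi (0 : ℝ)
      · rw [indicator_of_mem ht, integrable_indicator_iff (hK.smul t).measurableSet]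
        exact (Continuous.continuousOn (by fun_prop)).integrableOn_compact (hK.smul t)
      · rw [indicator_of_notMem ht]
        exact integrable_zero _ _ _
    · have e : ∀ p, ‖F f p‖ = F (fun x => |f x|) p := fun p => by
        simp only [F, norm_indicator_eq_indicator_norm, norm_mul, Real.norm_eq_abs, Real.abs_exp]
      rw [show (fun t => ∫ x, ‖F f (t, x)‖) = fun t => ∫ x, F (fun x => |f x|) (t, x) from
        funext fun t => integral_congr_ae (.of_forall fun x => e _),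
        h2 (fun x => |f x|) fun t ht x => by rw [hf t ht, abs_mul, abs_of_pos (pow_pos ht a)],
        integrable_indicator_iff measurableSet_Ioi]
      exact (Real.GammaIntegral_convergent hm).mul_const _
  have h3 := integral_integral_swap (f := fun t x => F f (t, x)) hI
  rw [h2 f hf, integral_indicator measurableSet_Ioi, integral_mul_const,
    ← Real.Gamma_eq_integral hm, Nat.cast_succ, Real.Gamma_nat_eq_factorial] at h3
  rw [h3]
  refine integral_congr_ae (.of_forall fun x => ?_)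
  have hU : MeasurableSet (UU K x) := hA.preimage (f := fun t => (t, x)) (by fun_prop)
  show f x * ww K x = ∫ t, F f (t, x)
  rw [ww, ← integral_const_mul, ← integral_indicator hU]
  rfl

theorem fsum_compact {K : Set (ι → ℝ)} {L : Set (κ → ℝ)} (hK : IsCompact K) (hL : IsCompact L) :
    IsCompact (fsum K L) := by
  have e : fsum K L = (fun p : ℝ × (ι → ℝ) × (κ → ℝ) =>
      Sum.elim (p.1 • p.2.1) ((1 - p.1) • p.2.2)) '' (Icc 0 1 ×ˢ K ×ˢ L) := by
    ext z
    exact ⟨fun ⟨s, hs, x, hx, y, hy, h⟩ => ⟨(s, x, y), ⟨hs, hx, hy⟩, h.symm⟩,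
      fun ⟨p, hp, h⟩ => ⟨p.1, hp.1, p.2.1, hp.2.1, p.2.2, hp.2.2, h.symm⟩⟩
  rw [e]
  refine (isCompact_Icc.prod (hK.prod hL)).image (continuous_pi fun i => ?_)
  rcases i with i | i
  · simp only [Sum.elim_inl]; fun_prop
  · simp only [Sum.elim_inr]; fun_prop

theorem int_sum (f : (ι → ℝ) → ℝ) (g : (κ → ℝ) → ℝ) :
    ∫ z : ι ⊕ κ → ℝ, f (z ∘ Sum.inl) * g (z ∘ Sum.inr) = (∫ x, f x) * ∫ y, g y := by
  rw [← integral_prod_mul]
  exact (volume_measurePreserving_sumPiEquivProdPi fun _ : ι ⊕ κ => ℝ).integral_comp'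
    fun p => f p.1 * g p.2

theorem mom_fsum {K : Set (ι → ℝ)} {L : Set (κ → ℝ)} (hK : Body K) (h0 : 0 ∈ K) (hL : Body L)
    (h0' : 0 ∈ L) {f : (ι → ℝ) → ℝ} {g : (κ → ℝ) → ℝ} (hf : Continuous f) (hg : Continuous g)
    {a b : ℕ} (ha : ∀ t : ℝ, 0 < t → ∀ x, f (t • x) = t ^ a * f x)
    (hb : ∀ t : ℝ, 0 < t → ∀ x, g (t • x) = t ^ b * g x) :
    ((Fintype.card ι + Fintype.card κ + (a + b)).factorial : ℝ) *
      ∫ z in fsum K L, f (z ∘ Sum.inl) * g (z ∘ Sum.inr) =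
    ((Fintype.card ι + a).factorial * ∫ x in K, f x) *
      ((Fintype.card κ + b).factorial * ∫ y in L, g y) := by
  rw [← int_ww hK.cpt hf ha, ← int_ww hL.cpt hg hb, ← int_sum, ← Fintype.card_sum,
    ← int_ww (fsum_compact hK.cpt hL.cpt) (by fun_prop) fun t ht z => by
      show f (t • (z ∘ Sum.inl)) * g (t • (z ∘ Sum.inr)) = _
      rw [ha t ht, hb t ht]; ring]
  refine integral_congr_ae (.of_forall fun z => ?_)
  have := ww_fsum hK.cvx h0 hL.cvx h0' (z ∘ Sum.inl) (z ∘ Sum.inr)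
  rw [Sum.elim_comp_inl_inr] at this
  simp only [this]
  ring

end Vale.Agent.P254.FS
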