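import Vale.Agent.P254.FSMom

/-! P254, free sums: the determinant identity. -/

open MeasureTheory Set Matrix Filter Topology Pointwise

namespace Vale.Agent.P254.FS

variable {ι κ : Type} [Fintype ι] [Fintype κ] [DecidableEq ι] [DecidableEq κ]

/-- the simplex value -/
noncomputable def cc (n : ℕ) : ℝ :=
  (n.factorial : ℝ) ^ 2 / (((n : ℝ) + 1) ^ (n + 1) * ((n : ℝ) + 2) ^ n)

theorem cc_pos (n : ℕ) : 0 < cc n := by unfold cc; positivity

/-- the scaled centroid -/
noncomputable def bb (K : Set (ι → ℝ)) : ι → ℝ := ((Fintype.card ι : ℝ) + 1) • cen K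

/-- the covariance of the exponential weight -/
noncomputable def TT (K : Set (ι → ℝ)) : Matrix ι ι ℝ :=
  (((Fintype.card ι : ℝ) + 1) * (Fintype.card ι + 2)) • cv K +
    ((Fintype.card ι : ℝ) + 1) • vecMulVec (cen K) (cen K)

variable {K : Set (ι → ℝ)} {L : Set (κ → ℝ)}

theorem Body.det_TT (h : Body K) {u : ι → ℝ} (hu : TT K *ᵥ u = bb K) :
    QQ K / cc (Fintype.card ι) * ((Fintype.card ι).factorial * (volume K).toReal) ^ 2 =
      (TT K).det * (Fintype.card ι + 1 - bb K ⬝ᵥ u) := by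
  have e : (((Fintype.card ι : ℝ) + 1) * (Fintype.card ι + 2)) • cv K =
      TT K * (1 + replicateCol Unit (-u) * replicateRow Unit (cen K)) := by
    rw [← vecMulVec_eq, Matrix.mul_add, Matrix.mul_one, mul_vecMulVec, mulVec_neg, hu, TT, bb,
      neg_vecMulVec, smul_vecMulVec]
    abel
  have k := congrArg det e
  rw [det_smul, det_mul, det_one_add_replicateCol_mul_replicateRow, dotProduct_neg] at k
  have hv := h.vpos.ne'
  have hf : ((Fintype.card ι).factorial : ℝ) ≠ 0 := by positivity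
  rw [QQ, cc, bb, smul_dotProduct, smul_eq_mul]
  field_simp
  rw [mul_pow] at k
  linear_combination (Fintype.card ι + 1) * k

theorem Body.nn (h : Body K) (u : ι → ℝ) : 0 ≤ u ⬝ᵥ cv K *ᵥ u := by
  by_cases hu : u = 0
  · simp [hu]
  · exact (h.pos hu).le

theorem Body.q_le (h : Body K) {o a : ι → ℝ} (ho : o ∈ K) (ha : cv K *ᵥ a = cen K - o) :
    a ⬝ᵥ (cen K - o) ≤ Fintype.card ι * (Fintype.card ι + 2) := by
  have := h.kls ho a
  rw [ha] at this
  by_contra k
  have hm : (0 : ℝ) ≤ Fintype.card ι * (Fintype.card ι + 2) := by positivity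
  nlinarith [not_le.1 k]

theorem Body.exists_u (h : Body K) (h0 : 0 ∈ K) : ∃ u, TT K *ᵥ u = bb K ∧
    1 ≤ Fintype.card ι + 1 - bb K ⬝ᵥ u ∧
    (Fintype.card ι + 1 - bb K ⬝ᵥ u = 1 → ∀ w ∈ K, -w ∈ K → w = 0) := by
  have hs := mulVec_surjective_iff_isUnit.2 h.posDef.isUnit
  obtain ⟨a, ha⟩ := hs (cen K)
  set n : ℝ := (Fintype.card ι : ℝ) with hn
  have hn0 : 0 ≤ n := by positivity
  have h1 : 0 ≤ a ⬝ᵥ cen K := by rw [← ha]; exact h.nn a
  have h2 : a ⬝ᵥ cen K ≤ n * (n + 2) := by simpa using h.q_le h0 (ha.trans (sub_zero _).symm)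
  have h3 : 0 < n + 2 + a ⬝ᵥ cen K := by positivity
  have h4 : n + 1 - bb K ⬝ᵥ (n + 2 + a ⬝ᵥ cen K)⁻¹ • a =
      (n + 1) * (n + 2) / (n + 2 + a ⬝ᵥ cen K) := by
    rw [bb, smul_dotProduct, dotProduct_smul, dotProduct_comm (cen K), smul_eq_mul, smul_eq_mul,
      ← hn]
    field_simp
    ring
  refine ⟨(n + 2 + a ⬝ᵥ cen K)⁻¹ • a, ?_, ?_, fun k w hw hw' => ?_⟩
  · rw [mulVec_smul, TT, add_mulVec, smul_mulVec, smul_mulVec, ha, vecMulVec_mulVec, bb,
      dotProduct_comm (cen K), ← hn]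
    funext i
    simp only [Pi.smul_apply, Pi.add_apply, smul_eq_mul, op_smul_eq_mul]
    field_simp
  · rw [h4, le_div_iff₀ h3]
    linarith
  · rw [h4, div_eq_iff h3.ne'] at k
    obtain ⟨b, hb⟩ := hs w
    have k1 := h.q_le hw (a := a - b) (by rw [mulVec_sub, ha, hb])
    have k2 := h.q_le hw' (a := a + b) (by rw [mulVec_add, ha, hb, sub_neg_eq_add])
    simp only [sub_neg_eq_add, dotProduct_sub, sub_dotProduct, dotProduct_add, add_dotProduct]
      at k1 k2
    by_contra hw0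
    have k3 := h.pos (u := b) fun e => hw0 (by rw [← hb, e, mulVec_zero])
    rw [hb] at k3
    linarith

/-- normalised moments -/
noncomputable def nm (K : Set (ι → ℝ)) (a : ℕ) (f : (ι → ℝ) → ℝ) : ℝ :=
  ((Fintype.card ι + a).factorial * ∫ x in K, f x) /
    ((Fintype.card ι).factorial * (volume K).toReal)

theorem Body.nm0 (h : Body K) : nm K 0 (fun _ => 1) = 1 := by
  have := h.vpos
  rw [nm, int_one, add_zero, div_self (by positivity)]

theorem Body.nm1 (h : Body K) (i : ι) : nm K 1 (fun x => x i) = bb K i := by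
  have := h.vpos
  simp only [nm, bb, cen, Nat.factorial_succ, Pi.smul_apply, smul_eq_mul]
  push_cast
  field_simp

theorem Body.nm2 (h : Body K) (i j : ι) :
    TT K i j = nm K 2 (fun x => x i * x j) - bb K i * bb K j := by
  have := h.vpos
  simp only [nm, bb, TT, Nat.factorial_succ, Pi.smul_apply, smul_eq_mul, Matrix.add_apply,
    Matrix.smul_apply, vecMulVec_apply, h.cv_eq]
  push_cast
  field_simp
  ring

theorem fsum_vol (hK : Body K) (h0 : 0 ∈ K) (hL : Body L) (h0' : 0 ∈ L) :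
    ((Fintype.card (ι ⊕ κ)).factorial : ℝ) * (volume (fsum K L)).toReal =
      ((Fintype.card ι).factorial * (volume K).toReal) *
        ((Fintype.card κ).factorial * (volume L).toReal) := by
  have := mom_fsum hK h0 hL h0' (f := fun _ => 1) (g := fun _ => 1) continuous_const
    continuous_const (a := 0) (b := 0) (by simp) (by simp)
  simpa only [mul_one, int_one, add_zero, Fintype.card_sum] using this

theorem nm_fsum (hK : Body K) (h0 : 0 ∈ K) (hL : Body L) (h0' : 0 ∈ L) {f : (ι → ℝ) → ℝ}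
    {g : (κ → ℝ) → ℝ} (hf : Continuous f) (hg : Continuous g) (a b : ℕ)
    (ha : ∀ t : ℝ, 0 < t → ∀ x, f (t • x) = t ^ a * f x)
    (hb : ∀ t : ℝ, 0 < t → ∀ x, g (t • x) = t ^ b * g x) :
    nm (fsum K L) (a + b) (fun z => f (z ∘ Sum.inl) * g (z ∘ Sum.inr)) = nm K a f * nm L b g := by
  rw [nm, nm, nm, fsum_vol hK h0 hL h0', Fintype.card_sum, mom_fsum hK h0 hL h0' hf hg ha hb,
    div_mul_div_comm]

/-- the first coordinate embedding -/
def eL (κ : Type) : (ι → ℝ) →ₗ[ℝ] (ι ⊕ κ → ℝ) where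
  toFun x := Sum.elim x 0
  map_add' x y := by ext (i | i) <;> simp
  map_smul' c x := by ext (i | i) <;> simp

/-- the second coordinate embedding -/
def eR (ι : Type) : (κ → ℝ) →ₗ[ℝ] (ι ⊕ κ → ℝ) where
  toFun x := Sum.elim 0 x
  map_add' x y := by ext (i | i) <;> simp
  map_smul' c x := by ext (i | i) <;> simp

theorem fsum_eq (hK : Convex ℝ K) (h0 : 0 ∈ K) (hL : Convex ℝ L) (h0' : 0 ∈ L) :
    fsum K L = convexHull ℝ (eL κ '' K ∪ eR ι '' L) := by
  rw [(hK.linear_image _).convexHull_union (hL.linear_image _) ⟨_, 0, h0, rfl⟩ ⟨_, 0, h0', rfl⟩]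
  ext z
  rw [mem_convexJoin]
  constructor
  · rintro ⟨s, hs, x, hx, y, hy, rfl⟩
    refine ⟨_, ⟨x, hx, rfl⟩, _, ⟨y, hy, rfl⟩, s, 1 - s, hs.1, sub_nonneg.2 hs.2, by ring, ?_⟩
    ext (i | i) <;> simp [eL, eR]
  · rintro ⟨_, ⟨x, hx, rfl⟩, _, ⟨y, hy, rfl⟩, s, t, hs, ht, hst, rfl⟩
    refine ⟨s, ⟨hs, by linarith⟩, x, hx, y, hy, ?_⟩
    rw [← hst]
    ext (i | i) <;> simp [eL, eR]

theorem fsum_body (hK : Body K) (h0 : 0 ∈ K) (hL : Body L) (h0' : 0 ∈ L) : Body (fsum K L) := by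
  refine ⟨fsum_compact hK.cpt hL.cpt, fsum_eq hK.cvx h0 hL.cvx h0' ▸ convex_convexHull ℝ _, ?_⟩
  obtain ⟨x, hx⟩ := hK.int
  obtain ⟨y, hy⟩ := hL.int
  let F : (ι ⊕ κ → ℝ) → (ι → ℝ) × (κ → ℝ) := fun z =>
    ((2 : ℝ) • (z ∘ Sum.inl), (2 : ℝ) • (z ∘ Sum.inr))
  refine ⟨Sum.elim ((2 : ℝ)⁻¹ • x) ((2 : ℝ)⁻¹ • y), interior_maximal
    (t := F ⁻¹' (interior K ×ˢ interior L)) (fun z hz => ?_)
    ((isOpen_interior.prod isOpen_interior).preimage (by fun_prop)) ?_⟩
  · refine ⟨2⁻¹, ⟨by norm_num, by norm_num⟩, _, interior_subset hz.1, _, interior_subset hz.2, ?_⟩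
    ext (i | i)
    · simp [F]
    · simp only [F, Sum.elim_inr, Pi.smul_apply, Function.comp, smul_eq_mul]
      ring
  · simpa [F, smul_smul] using ⟨hx, hy⟩

theorem fsum_RR (hK : Body K) (h0 : 0 ∈ K) (hL : Body L) (h0' : 0 ∈ L) :
    ∃ x y : ℝ, 1 ≤ x ∧ 1 ≤ y ∧ (x = 1 → ∀ w ∈ K, -w ∈ K → w = 0) ∧
      (y = 1 → ∀ w ∈ L, -w ∈ L → w = 0) ∧ QQ (fsum K L) / cc (Fintype.card (ι ⊕ κ)) * (x * y) =
        QQ K / cc (Fintype.card ι) * (QQ L / cc (Fintype.card κ)) * (x + y - 1) := by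
  obtain ⟨u, u1, u2, u3⟩ := hK.exists_u h0
  obtain ⟨v, v1, v2, v3⟩ := hL.exists_u h0'
  refine ⟨_, _, u2, v2, u3, v3, ?_⟩
  have hM := fsum_body hK h0 hL h0'
  have hn := @nm_fsum _ _ _ _ _ _ _ _ hK h0 hL h0'
  have hb : bb (fsum K L) = Sum.elim (bb K) (bb L) := by
    ext (i | i)
    · have := hn (continuous_apply i) continuous_const 1 0 (g := fun _ => 1) (by simp) (by simp)
      rw [hK.nm1, hL.nm0] at this
      simpa [← hM.nm1] using this
    · have := hn continuous_const (continuous_apply i) 0 1 (f := fun _ => 1) (by simp) (by simp)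
      rw [hL.nm1, hK.nm0] at this
      simpa [← hM.nm1] using this
  have hT : TT (fsum K L) = fromBlocks (TT K) 0 0 (TT L) := by
    ext (i | i) (j | j)
    · have := hn (f := fun x => x i * x j) (by fun_prop) continuous_const 2 0 (g := fun _ => 1)
        (fun t _ x => by simp; ring) (by simp)
      rw [hL.nm0] at this
      simpa [hM.nm2, hK.nm2, hb] using this
    · have := hn (continuous_apply i) (continuous_apply j) 1 1 (by simp) (by simp)
      rw [hK.nm1, hL.nm1] at this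
      simpa [hM.nm2, hb, sub_eq_zero] using this
    · have := hn (continuous_apply j) (continuous_apply i) 1 1 (by simp) (by simp)
      rw [hK.nm1, hL.nm1] at this
      simpa [hM.nm2, hb, sub_eq_zero, mul_comm] using this
    · have := hn (g := fun x => x i * x j) continuous_const (by fun_prop) 0 2 (f := fun _ => 1)
        (by simp) (fun t _ x => by simp; ring)
      rw [hK.nm0] at this
      simpa [hM.nm2, hL.nm2, hb] using this
  have k := hM.det_TT (u := Sum.elim u v) (by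
    rw [hT, hb, fromBlocks_mulVec]
    simp [u1, v1])
  rw [hT, hb, det_fromBlocks_zero₂₁, sumElim_dotProduct_sumElim, fsum_vol hK h0 hL h0'] at k
  have k1 := hK.det_TT u1
  have k2 := hL.det_TT v1
  have p1 := hK.vpos
  have p2 := hL.vpos
  have hc : (Fintype.card (ι ⊕ κ) : ℝ) = Fintype.card ι + Fintype.card κ := by simp
  rw [hc] at k
  refine mul_right_cancel₀ (b := (((Fintype.card ι).factorial * (volume K).toReal) *
    ((Fintype.card κ).factorial * (volume L).toReal)) ^ 2) (by positivity) ?_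
  linear_combination ((Fintype.card ι + 1 - bb K ⬝ᵥ u) * (Fintype.card κ + 1 - bb L ⬝ᵥ v)) * k -
    ((Fintype.card ι + 1 - bb K ⬝ᵥ u) + (Fintype.card κ + 1 - bb L ⬝ᵥ v) - 1) *
      (QQ L / cc (Fintype.card κ) * ((Fintype.card κ).factorial * (volume L).toReal) ^ 2 * k1 +
        (TT K).det * (Fintype.card ι + 1 - bb K ⬝ᵥ u) * k2)

end Vale.Agent.P254.FS
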